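import Mathlib

/-!
The boundary spins outside the lattice diamond `|k| + |l| ≤ M`.
-/

namespace Vale.Agent.IsingUniv

/-- `0` inside the diamond; outside it the boundary spin. -/
def vI (M k l : ℤ) : ℤ := if |k| + |l| ≤ M then 0 else
  if |k| + |l| = M + 1 ∧ ((0 < k ∧ 0 < l ∧ l % 2 = 0) ∨ (k < 0 ∧ 0 < l ∧ k % 2 = 0) ∨
    (k < 0 ∧ l < 0 ∧ l % 2 = 0) ∨ (0 < k ∧ l < 0 ∧ k % 2 = 0)) then -1 else 1

theorem vI_rot (M k l : ℤ) : vI M (-l) k = vI M k l := by
  unfold vI
  rw [abs_neg, add_comm |l| |k|]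
  have h1 : ((0 < -l ∧ 0 < k ∧ k % 2 = 0) ∨ (-l < 0 ∧ 0 < k ∧ -l % 2 = 0) ∨
    (-l < 0 ∧ k < 0 ∧ k % 2 = 0) ∨ (0 < -l ∧ k < 0 ∧ -l % 2 = 0)) ↔
    ((0 < k ∧ 0 < l ∧ l % 2 = 0) ∨ (k < 0 ∧ 0 < l ∧ k % 2 = 0) ∨
    (k < 0 ∧ l < 0 ∧ l % 2 = 0) ∨ (0 < k ∧ l < 0 ∧ k % 2 = 0)) := by omega
  simp only [h1]

theorem vI_q1 {M k l : ℤ} (hk : 0 < k) (hl : 0 < l) : vI M k l =
    if k + l ≤ M then 0 else if k + l = M + 1 ∧ l % 2 = 0 then -1 else 1 := by
  unfold vI
  rw [abs_of_pos hk, abs_of_pos hl]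
  have h1 : ((0 < k ∧ 0 < l ∧ l % 2 = 0) ∨ (k < 0 ∧ 0 < l ∧ k % 2 = 0) ∨
    (k < 0 ∧ l < 0 ∧ l % 2 = 0) ∨ (0 < k ∧ l < 0 ∧ k % 2 = 0)) ↔ l % 2 = 0 := by omega
  simp only [h1]

theorem vI_q4 {M k l : ℤ} (hk : 0 < k) (hl : l < 0) : vI M k l =
    if k - l ≤ M then 0 else if k - l = M + 1 ∧ k % 2 = 0 then -1 else 1 := by
  unfold vI
  rw [abs_of_pos hk, abs_of_neg hl]
  have h1 : ((0 < k ∧ 0 < l ∧ l % 2 = 0) ∨ (k < 0 ∧ 0 < l ∧ k % 2 = 0) ∨
    (k < 0 ∧ l < 0 ∧ l % 2 = 0) ∨ (0 < k ∧ l < 0 ∧ k % 2 = 0)) ↔ k % 2 = 0 := by omega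
  simp only [h1, ← sub_eq_add_neg]

theorem vI_q2 {M k l : ℤ} (hk : k < 0) (hl : 0 < l) : vI M k l =
    if l - k ≤ M then 0 else if l - k = M + 1 ∧ k % 2 = 0 then -1 else 1 := by
  have := vI_rot M (l) (-k)
  rw [neg_neg] at this
  rw [this, vI_q1 hl (by omega)]
  split_ifs <;> omega

theorem vI_axis {M k : ℤ} : vI M k 0 = if |k| ≤ M then 0 else 1 := by
  unfold vI
  rw [abs_zero, add_zero]
  split_ifs with h1 h2
  · rfl
  · omega
  · rfl

theorem vI_axis' {M l : ℤ} : vI M 0 l = if |l| ≤ M then 0 else 1 := by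
  have := vI_rot M 0 l
  rw [← this, vI_axis, abs_neg]

theorem vI_in {M k l : ℤ} (h : |k| + |l| ≤ M) : vI M k l = 0 := by
  unfold vI; rw [if_pos h]

/-- Sum over the four neighbours at distance `r`. -/
def nb (r M k l : ℤ) : ℤ := vI M (k + r) l + vI M (k - r) l + vI M k (l + r) + vI M k (l - r)

theorem nb_rot (r M k l : ℤ) : nb r M (-l) k = nb r M k l := by
  unfold nb
  have h1 : -l + r = -(l - r) := by ring
  have h2 : -l - r = -(l + r) := by ring
  rw [h1, h2, vI_rot, vI_rot, vI_rot, vI_rot]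
  ring

theorem abs_rot (k l : ℤ) : |(-l)| + |k| = |k| + |l| := by rw [abs_neg, add_comm]

/-- Reduction to a fundamental domain of the rotations. -/
theorem reduce {P : ℤ → ℤ → Prop} (hrot : ∀ k l, P k l → P (-l) k) (h0 : P 0 0)
    (h : ∀ k l, 0 < k → 0 ≤ l → P k l) : ∀ k l, P k l := by
  intro k l
  by_cases h1 : 0 < k ∧ 0 ≤ l
  · exact h k l h1.1 h1.2
  · by_cases h2 : k ≤ 0 ∧ 0 < l
    · have := hrot l (-k) (h l (-k) h2.2 (by omega))
      rwa [neg_neg] at this
    · by_cases h3 : k < 0 ∧ l ≤ 0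
      · have := hrot _ _ (hrot (-k) (-l) (h (-k) (-l) (by omega) (by omega)))
        rwa [neg_neg, neg_neg] at this
      · by_cases h4 : 0 ≤ k ∧ l < 0
        · have := hrot _ _ (hrot _ _ (hrot (-l) k (h (-l) k (by omega) (by omega))))
          simpa only [neg_neg] using this
        · have hk : k = 0 := by omega
          have hl : l = 0 := by omega
          rw [hk, hl]; exact h0

theorem nb1_in {M k l : ℤ} (h : |k| + |l| ≤ M - 1) : nb 1 M k l = 0 := by
  unfold nb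
  have h1 : |k + 1| ≤ |k| + 1 := by simpa using abs_add_le k 1
  have h2 : |k - 1| ≤ |k| + 1 := by simpa using abs_sub k 1
  have h3 : |l + 1| ≤ |l| + 1 := by simpa using abs_add_le l 1
  have h4 : |l - 1| ≤ |l| + 1 := by simpa using abs_sub l 1
  rw [vI_in (by linarith), vI_in (by linarith), vI_in (by linarith), vI_in (by linarith)]
  rfl

theorem nb3_in {M k l : ℤ} (h : |k| + |l| ≤ M - 3) : nb 3 M k l = 0 := by
  unfold nb
  have h1 : |k + 3| ≤ |k| + 3 := by simpa using abs_add_le k 3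
  have h2 : |k - 3| ≤ |k| + 3 := by simpa using abs_sub k 3
  have h3 : |l + 3| ≤ |l| + 3 := by simpa using abs_add_le l 3
  have h4 : |l - 3| ≤ |l| + 3 := by simpa using abs_sub l 3
  rw [vI_in (by linarith), vI_in (by linarith), vI_in (by linarith), vI_in (by linarith)]
  rfl

/-- The nearest-neighbour field is nonnegative, and vanishes except at the four apexes. -/
theorem nb1 {M : ℤ} (hM : 2 ≤ M) : ∀ k l : ℤ, |k| + |l| ≤ M →
    0 ≤ nb 1 M k l ∧ (k ≠ 0 → l ≠ 0 → nb 1 M k l = 0) := by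
  refine reduce ?_ ?_ ?_
  · intro k l ih h
    rw [abs_rot] at h
    rw [nb_rot]
    exact ⟨(ih h).1, fun h1 h2 => (ih h).2 h2 (by omega)⟩
  · intro _
    refine ⟨?_, fun h => absurd rfl h⟩
    rw [nb1_in (by simp; omega)]
  · intro k l hk hl h
    by_cases hlt : |k| + |l| ≤ M - 1
    · rw [nb1_in hlt]; exact ⟨le_rfl, fun _ _ => rfl⟩
    · rw [abs_of_pos hk, abs_of_nonneg hl] at h hlt
      have h1 : vI M (k - 1) l = 0 := vI_in (by
        rw [abs_of_nonneg (by omega : 0 ≤ k - 1), abs_of_nonneg hl]; omega)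
      rcases hl.eq_or_lt with rfl | hl'
      · refine ⟨?_, fun _ h => absurd rfl h⟩
        unfold nb
        rw [h1, vI_axis, vI_q1 hk (by norm_num), vI_q4 hk (by norm_num),
          abs_of_pos (by omega : 0 < k + 1)]
        split_ifs <;> omega
      · have h2 : vI M k (l - 1) = 0 := vI_in (by
          rw [abs_of_nonneg (by omega : 0 ≤ l - 1), abs_of_pos hk]; omega)
        have h3 : nb 1 M k l = 0 := by
          unfold nb
          rw [h1, h2, vI_q1 (by omega) hl', vI_q1 hk (by omega)]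
          split_ifs <;> omega
        exact ⟨h3.ge, fun _ _ => h3⟩

/-- The field from distance three is nonnegative, and at least one on the two outer layers. -/
theorem nb3 {M : ℤ} (hM : 2 ≤ M) : ∀ k l : ℤ, |k| + |l| ≤ M →
    0 ≤ nb 3 M k l ∧ (M - 1 ≤ |k| + |l| → 1 ≤ nb 3 M k l) := by
  refine reduce ?_ ?_ ?_
  · intro k l ih h
    rw [abs_rot] at h ⊢
    rw [nb_rot]
    exact ih h
  · intro _
    refine ⟨?_, fun h => ?_⟩
    · unfold nb
      rw [vI_axis, vI_axis, vI_axis', vI_axis']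
      split_ifs <;> norm_num
    · simp at h; omega
  · intro k l hk hl h
    by_cases hlt : |k| + |l| ≤ M - 3
    · rw [nb3_in hlt]; exact ⟨le_rfl, fun h => by omega⟩
    · rw [abs_of_pos hk, abs_of_nonneg hl] at h hlt ⊢
      -- the neighbour on the left
      have h1 : (0 ≤ vI M (k - 3) l) ∨ (k = 1 ∧ k + l = M ∧ vI M (k - 3) l = -1) := by
        by_cases hk3 : 3 ≤ k
        · left
          rw [vI_in]
          rw [abs_of_nonneg (by omega : 0 ≤ k - 3), abs_of_nonneg hl]; omega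
        · rcases hl.eq_or_lt with rfl | hl'
          · left
            rw [vI_axis]; split_ifs <;> norm_num
          · rw [vI_q2 (by omega) hl']
            split_ifs <;> omega
      have h2 : (0 ≤ vI M k (l - 3)) ∨ (l = 1 ∧ k + l = M ∧ k % 2 = 0 ∧ vI M k (l - 3) = -1) ∨
          (l = 0 ∧ k + l = M - 2 ∧ vI M k (l - 3) = -1) := by
        by_cases hl3 : 3 ≤ l
        · left
          rw [vI_in]
          rw [abs_of_nonneg (by omega : 0 ≤ l - 3), abs_of_pos hk]; omega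
        · rw [vI_q4 hk (by omega)]
          split_ifs <;> omega
      rcases hl.eq_or_lt with rfl | hl'
      · have h3 : vI M (k + 3) 0 = 1 := by
          rw [vI_axis, abs_of_pos (by omega), if_neg (by omega)]
        have h4 : vI M k (0 + 3) = 1 := by
          rw [vI_q1 hk (by norm_num)]
          split_ifs <;> omega
        unfold nb
        rw [h3, h4]
        constructor
        · omega
        · intro h5; omega
      · have h3 := vI_q1 (M := M) (k := k + 3) (l := l) (by omega) hl'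
        have h4 := vI_q1 (M := M) (k := k) (l := l + 3) hk (by omega)
        unfold nb
        constructor
        · split_ifs at h3 h4 <;> omega
        · intro h5
          split_ifs at h3 h4 <;> omega

end Vale.Agent.IsingUniv
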