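import Vale.Agent.IsingUniv.Compare
import Vale.Agent.IsingUniv.Geo

/-!
The lower bound for the magnetization in the diamond with alternating boundary spins.
-/

open Finset

namespace Vale.Agent.IsingUniv

/-- The lattice diamond. -/
noncomputable def dia (M : ℤ) : Finset Site :=
  (Icc (-M) M ×ˢ Icc (-M) M).filter fun z => |z.1| + |z.2| ≤ M

theorem mem_dia {M : ℤ} {z : Site} : z ∈ dia M ↔ |z.1| + |z.2| ≤ M := by
  unfold dia
  rw [Finset.mem_filter, Finset.mem_product, Finset.mem_Icc, Finset.mem_Icc]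
  constructor
  · exact fun h => h.2
  · intro h
    have h1 := abs_nonneg z.1
    have h2 := abs_nonneg z.2
    exact ⟨⟨abs_le.mp (by omega), abs_le.mp (by omega)⟩, h⟩

theorem dia_mono {M M' : ℤ} (h : M ≤ M') : dia M ⊆ dia M' := fun z hz => by
  rw [mem_dia] at hz ⊢; omega

/-- The contribution of a site outside `Λ` to the fields. -/
noncomputable def out (Λ : Finset Site) (b : Spins) (z : Site) : ℝ := if z ∈ Λ then 0 else b z

/-- Sum over the four sites at distance `r` along the axes. -/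
noncomputable def nsum (r : ℤ) (f : Site → ℝ) (i : Site) : ℝ :=
  f (i.1 + r, i.2) + f (i.1 - r, i.2) + f (i.1, i.2 + r) + f (i.1, i.2 - r)

theorem nsum_mono {r : ℤ} {f g : Site → ℝ} (h : ∀ z, f z ≤ g z) (i : Site) :
    nsum r f i ≤ nsum r g i := by
  unfold nsum
  exact add_le_add (add_le_add (add_le_add (h (i.1 + r, i.2)) (h (i.1 - r, i.2)))
    (h (i.1, i.2 + r))) (h (i.1, i.2 - r))

theorem nb_cast (r M : ℤ) (i : Site) :
    ((nb r M i.1 i.2 : ℤ) : ℝ) = nsum r (fun z => (vI M z.1 z.2 : ℝ)) i := by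
  unfold nb nsum
  push_cast
  rfl

theorem fld_eq (J lam : ℝ) (Λ : Finset Site) (b : Spins) (i : Site) : fld J lam Λ b i =
    J * nsum 1 (out Λ b) i + lam * nsum 3 (out Λ b) i := by
  unfold fld
  rw [Fin.sum_univ_four]
  obtain ⟨k, l⟩ := i
  have e1 : ((k, l) : Site) + dv 0 = (k + 1, l) := by simp [dv]
  have e2 : ((k, l) : Site) + dv 1 = (k, l + 1) := by simp [dv]
  have e3 : ((k, l) : Site) + dv 2 = (k + 3, l) := by simp [dv]
  have e4 : ((k, l) : Site) + dv 3 = (k, l + 3) := by simp [dv]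
  have f1 : ((k, l) : Site) - dv 0 = (k - 1, l) := by simp [dv]
  have f2 : ((k, l) : Site) - dv 1 = (k, l - 1) := by simp [dv]
  have f3 : ((k, l) : Site) - dv 2 = (k - 3, l) := by simp [dv]
  have f4 : ((k, l) : Site) - dv 3 = (k, l - 3) := by simp [dv]
  have c1 : cf J lam 0 = J := rfl
  have c2 : cf J lam 1 = J := rfl
  have c3 : cf J lam 2 = lam := rfl
  have c4 : cf J lam 3 = lam := rfl
  rw [e1, e2, e3, e4, f1, f2, f3, f4, c1, c2, c3, c4]
  unfold out nsum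
  ring

theorem fld_ge {J lam : ℝ} (hJ : 0 ≤ J) (hl : 0 ≤ lam) {Λ : Finset Site} {b : Spins} {M : ℤ}
    (h : ∀ z, (vI M z.1 z.2 : ℝ) ≤ out Λ b z) (i : Site) :
    J * (nb 1 M i.1 i.2 : ℤ) + lam * (nb 3 M i.1 i.2 : ℤ) ≤ fld J lam Λ b i := by
  rw [fld_eq, nb_cast, nb_cast]
  exact add_le_add (mul_le_mul_of_nonneg_left (nsum_mono h i) hJ)
    (mul_le_mul_of_nonneg_left (nsum_mono h i) hl)

theorem tanh_mono {x y : ℝ} (h : x ≤ y) : Real.tanh x ≤ Real.tanh y := by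
  rw [Real.tanh_eq_sinh_div_cosh, Real.tanh_eq_sinh_div_cosh,
    div_le_div_iff₀ (Real.cosh_pos x) (Real.cosh_pos y)]
  have h1 : Real.sinh (y - x) = Real.sinh y * Real.cosh x - Real.cosh y * Real.sinh x :=
    Real.sinh_sub y x
  have h2 : 0 ≤ Real.sinh (y - x) := Real.sinh_nonneg_iff.mpr (by linarith)
  nlinarith

theorem vI_dia {M : ℤ} {z : Site} (hz : z ∈ dia M) : (vI M z.1 z.2 : ℝ) = 0 := by
  rw [vI_in (mem_dia.mp hz)]; exact Int.cast_zero

theorem out_ge {M : ℤ} {b : Spins} (hb : ∀ z, z ∉ dia M → (vI M z.1 z.2 : ℝ) ≤ b z) (z : Site) :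
    (vI M z.1 z.2 : ℝ) ≤ out (dia M) b z := by
  unfold out
  split_ifs with h
  · exact (vI_dia h).le
  · exact hb z h

/-- Fields in the diamond. -/
theorem fields_dia {J lam : ℝ} (hJ : 0 ≤ J) (hl : 0 ≤ lam) {M : ℤ} (hM : 2 ≤ M)
    {b : Spins} (hb : ∀ z, z ∉ dia M → (vI M z.1 z.2 : ℝ) ≤ b z) (i : Site) (hi : i ∈ dia M) :
    0 ≤ fld J lam (dia M) b i ∧ (i ∉ dia (M - 2) → lam ≤ fld J lam (dia M) b i) := by
  have h1 := fld_ge hJ hl (out_ge hb) i
  obtain ⟨h2, -⟩ := nb1 hM i.1 i.2 (mem_dia.mp hi)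
  obtain ⟨h3, h4⟩ := nb3 hM i.1 i.2 (mem_dia.mp hi)
  have h2' : (0 : ℝ) ≤ (nb 1 M i.1 i.2 : ℤ) := by exact_mod_cast h2
  have h3' : (0 : ℝ) ≤ (nb 3 M i.1 i.2 : ℤ) := by exact_mod_cast h3
  refine ⟨le_trans (add_nonneg (mul_nonneg hJ h2') (mul_nonneg hl h3')) h1, fun h5 => ?_⟩
  rw [mem_dia] at h5
  have h6 : (1 : ℝ) ≤ (nb 3 M i.1 i.2 : ℤ) := by exact_mod_cast h4 (by omega)
  refine le_trans ?_ h1
  have h7 := mul_le_mul_of_nonneg_left h6 hl
  have h8 := mul_nonneg hJ h2'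
  linarith

theorem abs_shift (k r : ℤ) (hr : 0 ≤ r) : |k + r| ≤ |k| + r ∧ |k - r| ≤ |k| + r := by
  have h1 := abs_add_le k r
  have h2 := abs_sub k r
  rw [abs_of_nonneg hr] at h1 h2
  exact ⟨h1, h2⟩

theorem nsum_congr {r M : ℤ} (hr : 0 ≤ r) {f g : Site → ℝ} (h : ∀ z : Site, |z.1| + |z.2| ≤ M →
    f z = g z) (i : Site) (hi : |i.1| + |i.2| ≤ M - r) : nsum r f i = nsum r g i := by
  obtain ⟨a1, a2⟩ := abs_shift i.1 r hr
  obtain ⟨a3, a4⟩ := abs_shift i.2 r hr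
  unfold nsum
  rw [h (i.1 + r, i.2) (by show |i.1 + r| + |i.2| ≤ _; omega),
    h (i.1 - r, i.2) (by show |i.1 - r| + |i.2| ≤ _; omega),
    h (i.1, i.2 + r) (by show |i.1| + |i.2 + r| ≤ _; omega),
    h (i.1, i.2 - r) (by show |i.1| + |i.2 - r| ≤ _; omega)]

/-- Fields on the outer layer of the smaller diamond. -/
theorem fields_layer {J lam : ℝ} (hJ : 0 ≤ J) (hl : 0 ≤ lam) {M : ℤ} (hM : 2 ≤ M)
    {b : Spins} (hb : ∀ z, z ∉ dia M → (vI M z.1 z.2 : ℝ) ≤ b z) (i : Site)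
    (hlay : |i.1| + |i.2| = M - 2) : J ≤ fld J lam (dia (M - 2)) (fill (dia M) b) i := by
  have hsub : dia (M - 2) ⊆ dia M := dia_mono (by omega)
  have hout2 : ∀ z : Site, (vI M z.1 z.2 : ℝ) ≤ out (dia (M - 2)) (fill (dia M) b) z := by
    intro z
    unfold out fill
    split_ifs with h h2
    · exact (vI_dia (hsub h)).le
    · rw [vI_dia h2]; exact zero_le_one
    · exact hb z h2
  rw [fld_eq]
  obtain ⟨h3, -⟩ := nb3 hM i.1 i.2 (by omega)
  have h3' : (0 : ℝ) ≤ (nb 3 M i.1 i.2 : ℤ) := by exact_mod_cast h3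
  have h4 : (0 : ℝ) ≤ nsum 3 (out (dia (M - 2)) (fill (dia M) b)) i := by
    refine le_trans h3' ?_
    rw [nb_cast]
    exact nsum_mono hout2 i
  have h5 : ∀ z : Site, |z.1| + |z.2| ≤ M - 1 →
      0 ≤ out (dia (M - 2)) (fill (dia M) b) z ∧ (M - 1 ≤ |z.1| + |z.2| →
        out (dia (M - 2)) (fill (dia M) b) z = 1) := by
    intro z hz
    have hz' : z ∈ dia M := mem_dia.mpr (by omega)
    unfold out fill
    rw [if_pos hz']
    split_ifs with h
    · refine ⟨le_rfl, fun h6 => ?_⟩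
      rw [mem_dia] at h; omega
    · exact ⟨zero_le_one, fun _ => rfl⟩
  obtain ⟨a1, a2⟩ := abs_shift i.1 1 zero_le_one
  obtain ⟨a3, a4⟩ := abs_shift i.2 1 zero_le_one
  have b1 := h5 (i.1 + 1, i.2) (by show |i.1 + 1| + |i.2| ≤ _; omega)
  have b2 := h5 (i.1 - 1, i.2) (by show |i.1 - 1| + |i.2| ≤ _; omega)
  have b3 := h5 (i.1, i.2 + 1) (by show |i.1| + |i.2 + 1| ≤ _; omega)
  have b4 := h5 (i.1, i.2 - 1) (by show |i.1| + |i.2 - 1| ≤ _; omega)
  have h7 : (1 : ℝ) ≤ nsum 1 (out (dia (M - 2)) (fill (dia M) b)) i := by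
    unfold nsum
    rcases le_total 0 i.1 with h8 | h8
    · have := b1.2 (by
        show M - 1 ≤ |i.1 + 1| + |i.2|
        rw [abs_of_nonneg (by omega : 0 ≤ i.1 + 1)]
        rw [abs_of_nonneg h8] at hlay; omega)
      linarith [b2.1, b3.1, b4.1]
    · have := b2.2 (by
        show M - 1 ≤ |i.1 - 1| + |i.2|
        rw [abs_of_nonpos (by omega : i.1 - 1 ≤ 0)]
        rw [abs_of_nonpos h8] at hlay; omega)
      linarith [b1.1, b3.1, b4.1]
  have h9 := mul_le_mul_of_nonneg_left h7 hJ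
  have h10 := mul_nonneg hl h4
  linarith

theorem fields_one {J lam : ℝ} (hJ : 0 ≤ J) (hl : 0 ≤ lam) (Λ : Finset Site) (i : Site) :
    0 ≤ fld J lam Λ (fun _ => 1) i := by
  unfold fld
  refine Finset.sum_nonneg fun d _ => mul_nonneg (cf_nonneg hJ hl d) (add_nonneg ?_ ?_)
  · split_ifs <;> norm_num
  · split_ifs <;> norm_num

/-- Fields inside the smaller diamond. -/
theorem fields_inside (J lam : ℝ) {M : ℤ} (b : Spins) (i : Site)
    (hlay : |i.1| + |i.2| ≤ M - 3) : fld J lam (dia (M - 2)) (fill (dia M) b) i =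
      fld J lam (dia (M - 2)) (fun _ => 1) i := by
  have h2 : ∀ z : Site, |z.1| + |z.2| ≤ M →
      out (dia (M - 2)) (fill (dia M) b) z = out (dia (M - 2)) (fun _ => 1) z := by
    intro z hz
    unfold out fill
    rw [if_pos (mem_dia.mpr hz)]
  rw [fld_eq, fld_eq, nsum_congr (M := M) zero_le_one h2 i (by omega),
    nsum_congr (M := M) (by norm_num) h2 i hlay]

theorem chain {β J lam : ℝ} (hβ : 0 ≤ β) (hJ : 0 ≤ J) (hl : 0 ≤ lam) {M : ℤ} (hM : 2 ≤ M)
    {b : Spins} (hb : ∀ z, z ∉ dia M → (vI M z.1 z.2 : ℝ) ≤ b z) {Λ : Finset Site}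
    (hΛ : dia (M - 2) ⊆ Λ) {o : Site} (ho : o ∈ dia (M - 2)) :
    Real.tanh (β * lam) * (Real.tanh (β * J) * mag β J lam Λ (fun _ => 1) o) ≤
      mag β J lam (dia M) b o := by
  have hsub : dia (M - 2) ⊆ dia M := dia_mono (by omega)
  have hf := fields_dia hJ hl hM hb
  have s1 := mag_grow (s := Real.tanh (β * lam)) hβ hJ hl hsub ho (fun i hi => (hf i hi).1)
    (tanh_nonneg' (mul_nonneg hβ hl)) (Real.tanh_lt_one _).le
    (fun i hi hi' => tanh_mono (mul_le_mul_of_nonneg_left ((hf i hi).2 hi') hβ))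
  have s2 := mag_change (s := Real.tanh (β * J)) (Λ := dia (M - 2)) (b := fill (dia M) b)
    (b' := fun _ => 1) hβ hJ hl ho (fun i _ => fields_one hJ hl _ i)
    (tanh_nonneg' (mul_nonneg hβ hJ)) (Real.tanh_lt_one _).le ?_
  · -- the larger domain
    have s3 := mag_shrink (b := fun _ => 1) hβ hJ hl hΛ ho (fun i _ => fields_one hJ hl _ i)
    have e1 : fill Λ (fun _ => 1) = fun _ => 1 := by
      funext z; unfold fill; split_ifs <;> rfl
    rw [e1] at s3
    refine le_trans (mul_le_mul_of_nonneg_left ?_ (tanh_nonneg' (mul_nonneg hβ hl))) s1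
    exact le_trans (mul_le_mul_of_nonneg_left s3 (tanh_nonneg' (mul_nonneg hβ hJ))) s2
  · intro i hi
    by_cases hlay : |i.1| + |i.2| = M - 2
    · have h2 : Real.tanh (β * J) ≤ tf β J lam (dia (M - 2)) (fill (dia M) b) i :=
        tanh_mono (mul_le_mul_of_nonneg_left (fields_layer hJ hl hM hb i hlay) hβ)
      refine le_trans ?_ h2
      exact mul_le_of_le_one_right (tanh_nonneg' (mul_nonneg hβ hJ)) (tf_le _ _ _ _ _ _)
    · have hlay' : |i.1| + |i.2| ≤ M - 3 := by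
        have := mem_dia.mp hi; omega
      unfold tf
      rw [fields_inside J lam b i hlay']
      exact mul_le_of_le_one_left (tanh_nonneg' (mul_nonneg hβ (fields_one hJ hl _ i)))
        (Real.tanh_lt_one _).le

end Vale.Agent.IsingUniv
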