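import Vale.Agent.IsingUniv.Model

/-!
Comparison of magnetizations for different boundary conditions and domains.
-/

open Finset

namespace Vale.Agent.IsingUniv

/-- The magnetization at `o`. -/
noncomputable def mag (β J lam : ℝ) (Λ : Finset Site) (b : Spins) (o : Site) : ℝ :=
  gibbs β (inter J V3 lam) Λ b fun σ => σ o

/-- The weights. -/
noncomputable def pg (β J lam : ℝ) (Λ : Finset Site) (t : Site → ℝ) (S : Finset Site) : ℝ :=
  pairs (inner Λ) inc (tc β J lam) S * ghost Λ t S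

theorem extend_mem {Λ : Finset Site} {b : Spins} {o : Site} (ho : o ∈ Λ) (S : Finset Site) :
    extend Λ b S o = sp o S := by
  unfold extend sp; rw [if_pos ho]

theorem mag_eq (β J lam : ℝ) (Λ : Finset Site) (b : Spins) {o : Site} (ho : o ∈ Λ) :
    mag β J lam Λ b o = tot Λ (fun S => sp o S * pg β J lam Λ (tf β J lam Λ b) S) /
      tot Λ (pg β J lam Λ (tf β J lam Λ b)) := by
  obtain ⟨C, hC, h⟩ := weight_eq β J lam Λ b
  unfold mag gibbs tot
  have h1 : ∑ S ∈ Λ.powerset, extend Λ b S o * Real.exp (β * energy (inter J V3 lam) Λ b S) =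
      C * ∑ S ∈ Λ.powerset, sp o S * pg β J lam Λ (tf β J lam Λ b) S := by
    rw [Finset.mul_sum]
    refine Finset.sum_congr rfl fun S _ => ?_
    rw [extend_mem ho, h S]; unfold pg; ring
  have h2 : ∑ S ∈ Λ.powerset, Real.exp (β * energy (inter J V3 lam) Λ b S) =
      C * ∑ S ∈ Λ.powerset, pg β J lam Λ (tf β J lam Λ b) S := by
    rw [Finset.mul_sum]
    refine Finset.sum_congr rfl fun S _ => ?_
    rw [h S]; unfold pg; ring
  rw [h1, h2, mul_div_mul_left _ _ hC.ne']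

theorem cf_nonneg {J lam : ℝ} (hJ : 0 ≤ J) (hl : 0 ≤ lam) (d : Fin 4) : 0 ≤ cf J lam d := by
  fin_cases d <;> simp [cf, hJ, hl]

theorem tanh_nonneg' {x : ℝ} (hx : 0 ≤ x) : 0 ≤ Real.tanh x := by
  rw [Real.tanh_eq_sinh_div_cosh]
  exact div_nonneg (Real.sinh_nonneg_iff.mpr hx) (Real.cosh_pos x).le

theorem tc_nonneg {β J lam : ℝ} (hβ : 0 ≤ β) (hJ : 0 ≤ J) (hl : 0 ≤ lam) (e : Site × Fin 4) :
    0 ≤ tc β J lam e := tanh_nonneg' (mul_nonneg hβ (cf_nonneg hJ hl _))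

theorem tc_le (β J lam : ℝ) (e : Site × Fin 4) : tc β J lam e ≤ 1 := (Real.tanh_lt_one _).le

theorem tf_le (β J lam : ℝ) (Λ : Finset Site) (b : Spins) (i : Site) :
    tf β J lam Λ b i ≤ 1 := (Real.tanh_lt_one _).le

/-- Normalized magnetization for multiplicative fields. -/
noncomputable def mt (β J lam : ℝ) (Λ : Finset Site) (t : Site → ℝ) (o : Site) : ℝ :=
  tot Λ (fun S => sp o S * pg β J lam Λ t S) / tot Λ (pg β J lam Λ t)

theorem mt_pos_den {β J lam : ℝ} (hβ : 0 ≤ β) (hJ : 0 ≤ J) (hl : 0 ≤ lam) {Λ : Finset Site}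
    {t : Site → ℝ} (ht : ∀ i ∈ Λ, 0 ≤ t i) : 0 < tot Λ (pg β J lam Λ t) :=
  tot_pg_pos (inner Λ) inc (tc β J lam) Λ t (inner_inc Λ)
    (fun e _ => tc_nonneg hβ hJ hl e) ht

theorem mt_nonneg {β J lam : ℝ} (hβ : 0 ≤ β) (hJ : 0 ≤ J) (hl : 0 ≤ lam) {Λ : Finset Site}
    {t : Site → ℝ} (ht : ∀ i ∈ Λ, 0 ≤ t i) (o : Site) : 0 ≤ mt β J lam Λ t o := by
  have h1 : Pos (pg β J lam Λ t) :=
    (pairs_pos fun e _ => tc_nonneg hβ hJ hl e).mul (ghost_pos ht)
  exact div_nonneg (((Pos.sp o).mul h1).tot_nonneg Λ) (mt_pos_den hβ hJ hl ht).le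

theorem mt_ray {β J lam : ℝ} (hβ : 0 ≤ β) (hJ : 0 ≤ J) (hl : 0 ≤ lam) {Λ : Finset Site}
    {t t' : Site → ℝ} (ht' : ∀ i ∈ Λ, 0 ≤ t' i) (ht1 : ∀ i ∈ Λ, t i ≤ 1) {o : Site} (ho : o ∈ Λ)
    {s : ℝ} (hs0 : 0 ≤ s) (hs1 : s ≤ 1) (hst : ∀ i ∈ Λ, s * t' i ≤ t i) :
    s * mt β J lam Λ t' o ≤ mt β J lam Λ t o := by
  have h := ray_mono (inner Λ) inc (tc β J lam) Λ t t' (inner_inc Λ)
    (fun e _ => tc_nonneg hβ hJ hl e) (fun e _ => tc_le β J lam e) ht' ht1 o ho s hs0 hs1 hst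
  have h1 := mt_pos_den hβ hJ hl ht'
  have h2 := mt_pos_den hβ hJ hl (t := t)
    fun i hi => (mul_nonneg hs0 (ht' i hi)).trans (hst i hi)
  unfold mt
  rw [← mul_div_assoc, div_le_div_iff₀ h1 h2]
  exact h

theorem mag_eq_mt (β J lam : ℝ) (Λ : Finset Site) (b : Spins) {o : Site} (ho : o ∈ Λ) :
    mag β J lam Λ b o = mt β J lam Λ (tf β J lam Λ b) o := mag_eq β J lam Λ b ho

/-- Plus spins on `Λ`, and `b` outside. -/
def fill (Λ : Finset Site) (b : Spins) : Spins := fun x => if x ∈ Λ then 1 else b x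

theorem extend_fill {Λ' Λ : Finset Site} (h : Λ' ⊆ Λ) (b : Spins) {S : Finset Site}
    (hS : S ⊆ Λ') : extend Λ' (fill Λ b) S = extend Λ b S := by
  funext x
  unfold extend fill
  by_cases h1 : x ∈ Λ'
  · rw [if_pos h1, if_pos (h h1)]
  · rw [if_neg h1]
    by_cases h2 : x ∈ Λ
    · rw [if_pos h2, if_pos h2, if_neg fun h3 => h1 (hS h3)]
    · rw [if_neg h2, if_neg h2]

theorem edges_mono {Λ' Λ : Finset Site} (h : Λ' ⊆ Λ) : edges Λ' ⊆ edges Λ := by
  intro e he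
  rw [mem_edges] at he ⊢
  exact he.imp (fun h1 => h h1) (fun h1 => h h1)

theorem energy_fill (J lam : ℝ) {Λ' Λ : Finset Site} (h : Λ' ⊆ Λ) (b : Spins) : ∃ K : ℝ,
    ∀ S ⊆ Λ', energy (inter J V3 lam) Λ b S =
      energy (inter J V3 lam) Λ' (fill Λ b) S + K := by
  refine ⟨∑ e ∈ edges Λ \ edges Λ', cf J lam e.2 * (fill Λ b e.1 * fill Λ b (e.1 + dv e.2)),
    fun S hS => ?_⟩
  rw [energy_edges, energy_edges, extend_fill h b hS,
    ← Finset.sum_sdiff (edges_mono h), add_comm]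
  congr 1
  refine Finset.sum_congr rfl fun e he => ?_
  rw [Finset.mem_sdiff, mem_edges, mem_edges, not_or] at he
  have h1 : ∀ y, y ∉ Λ' → extend Λ b S y = fill Λ b y := fun y hy => by
    rw [← extend_fill h b hS]
    unfold extend; rw [if_neg hy]
  rw [h1 _ he.2.1, h1 _ he.2.2]

theorem tf_gt (β J lam : ℝ) (Λ : Finset Site) (b : Spins) (i : Site) :
    0 < 1 + tf β J lam Λ b i := by
  have := Real.neg_one_lt_tanh (β * fld J lam Λ b i)
  unfold tf
  linarith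

open Classical in
/-- Forcing plus spins on `Λ \ Λ'`. -/
noncomputable def force (Λ' : Finset Site) (t : Site → ℝ) : Site → ℝ := fun i =>
  if i ∈ Λ' then t i else 1

theorem ghost_force {Λ' Λ : Finset Site} (h : Λ' ⊆ Λ) (t : Site → ℝ) (S : Finset Site)
    (hS : S ⊆ Λ) : ghost Λ (force Λ' t) S =
      if S ⊆ Λ' then (2 : ℝ) ^ (Λ \ Λ').card * ∏ i ∈ Λ', (1 + t i * sp i S) else 0 := by
  classical
  unfold ghost
  rw [← Finset.prod_sdiff h]
  have h1 : ∏ i ∈ Λ', (1 + force Λ' t i * sp i S) = ∏ i ∈ Λ', (1 + t i * sp i S) :=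
    Finset.prod_congr rfl fun i hi => by unfold force; rw [if_pos hi]
  rw [h1]
  have h2 : ∏ i ∈ Λ \ Λ', (1 + force Λ' t i * sp i S) = ∏ i ∈ Λ \ Λ', (1 + sp i S) :=
    Finset.prod_congr rfl fun i hi => by
      unfold force; rw [if_neg (Finset.mem_sdiff.mp hi).2, one_mul]
  rw [h2]
  split_ifs with h3
  · congr 1
    rw [← Finset.prod_const]
    refine Finset.prod_congr rfl fun i hi => ?_
    unfold sp
    rw [if_neg fun h4 => (Finset.mem_sdiff.mp hi).2 (h3 h4)]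
    norm_num
  · obtain ⟨i, hi, hi'⟩ := Finset.not_subset.mp h3
    rw [Finset.prod_eq_zero (Finset.mem_sdiff.mpr ⟨hS hi, hi'⟩), zero_mul]
    unfold sp
    rw [if_pos hi]; norm_num

theorem tot_force {Λ' Λ : Finset Site} (h : Λ' ⊆ Λ) (t : Site → ℝ) (F : Finset Site → ℝ) :
    tot Λ (fun S => F S * ghost Λ (force Λ' t) S) =
      (2 : ℝ) ^ (Λ \ Λ').card * tot Λ' (fun S => F S * ∏ i ∈ Λ', (1 + t i * sp i S)) := by
  unfold tot
  rw [Finset.mul_sum]
  have h1 : ∀ S ∈ Λ.powerset, F S * ghost Λ (force Λ' t) S =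
      if S ∈ Λ'.powerset then (2 : ℝ) ^ (Λ \ Λ').card *
        (F S * ∏ i ∈ Λ', (1 + t i * sp i S)) else 0 := by
    intro S hS
    rw [ghost_force h t S (Finset.mem_powerset.mp hS)]
    simp only [Finset.mem_powerset]
    split_ifs
    · ring
    · ring
  rw [Finset.sum_congr rfl h1, Finset.sum_ite_mem,
    Finset.inter_eq_right.mpr (Finset.powerset_mono.mpr h)]

/-- Forcing plus spins amounts to a smaller domain with plus spins outside. -/
theorem mag_fill (β J lam : ℝ) {Λ' Λ : Finset Site} (h : Λ' ⊆ Λ) (b : Spins) {o : Site}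
    (ho : o ∈ Λ') : mag β J lam Λ' (fill Λ b) o =
      mt β J lam Λ (force Λ' (tf β J lam Λ b)) o := by
  obtain ⟨C, hC, hw⟩ := weight_eq β J lam Λ b
  obtain ⟨K, hK⟩ := energy_fill J lam h b
  -- weights on subsets of the small domain
  set c1 : ℝ := C * ∏ i ∈ Λ \ Λ', (1 + tf β J lam Λ b i) with hc1
  have hc1p : 0 < c1 := mul_pos hC (Finset.prod_pos fun i _ => tf_gt β J lam Λ b i)
  have h1 : ∀ S ⊆ Λ', Real.exp (β * energy (inter J V3 lam) Λ b S) =
      c1 * (pairs (inner Λ) inc (tc β J lam) S *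
        ∏ i ∈ Λ', (1 + tf β J lam Λ b i * sp i S)) := by
    intro S hS
    rw [hw S]
    unfold ghost
    rw [← Finset.prod_sdiff h]
    have : ∏ i ∈ Λ \ Λ', (1 + tf β J lam Λ b i * sp i S) =
        ∏ i ∈ Λ \ Λ', (1 + tf β J lam Λ b i) :=
      Finset.prod_congr rfl fun i hi => by
        unfold sp
        rw [if_neg fun h4 => (Finset.mem_sdiff.mp hi).2 (hS h4), mul_one]
    rw [this, hc1]; ring
  have h2 : ∀ S ⊆ Λ', Real.exp (β * energy (inter J V3 lam) Λ' (fill Λ b) S) =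
      Real.exp (-(β * K)) * Real.exp (β * energy (inter J V3 lam) Λ b S) := by
    intro S hS
    rw [hK S hS, ← Real.exp_add]
    congr 1; ring
  set c2 : ℝ := Real.exp (-(β * K)) * c1 with hc2
  have hc2p : 0 < c2 := mul_pos (Real.exp_pos _) hc1p
  set G : Finset Site → ℝ := fun S => pairs (inner Λ) inc (tc β J lam) S *
        ∏ i ∈ Λ', (1 + tf β J lam Λ b i * sp i S) with hG
  have h3 : ∀ S ⊆ Λ', Real.exp (β * energy (inter J V3 lam) Λ' (fill Λ b) S) = c2 * G S := by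
    intro S hS
    rw [h2 S hS, h1 S hS, hc2]; ring
  have e1 : mag β J lam Λ' (fill Λ b) o = tot Λ' (fun S => sp o S * G S) / tot Λ' G := by
    unfold mag gibbs tot
    have e2 : ∑ S ∈ Λ'.powerset, extend Λ' (fill Λ b) S o *
        Real.exp (β * energy (inter J V3 lam) Λ' (fill Λ b) S) =
        c2 * ∑ S ∈ Λ'.powerset, sp o S * G S := by
      rw [Finset.mul_sum]
      refine Finset.sum_congr rfl fun S hS => ?_
      rw [extend_mem ho, h3 S (Finset.mem_powerset.mp hS)]; ring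
    have e3 : ∑ S ∈ Λ'.powerset,
        Real.exp (β * energy (inter J V3 lam) Λ' (fill Λ b) S) =
        c2 * ∑ S ∈ Λ'.powerset, G S := by
      rw [Finset.mul_sum]
      exact Finset.sum_congr rfl fun S hS => h3 S (Finset.mem_powerset.mp hS)
    rw [e2, e3, mul_div_mul_left _ _ hc2p.ne']
  rw [e1]
  unfold mt
  have h5 := tot_force h (tf β J lam Λ b) fun S => sp o S * pairs (inner Λ) inc (tc β J lam) S
  have h6 := tot_force h (tf β J lam Λ b) (pairs (inner Λ) inc (tc β J lam))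
  have h7 : tot Λ (fun S => sp o S * pg β J lam Λ (force Λ' (tf β J lam Λ b)) S) =
      (2 : ℝ) ^ (Λ \ Λ').card * tot Λ' (fun S => sp o S * G S) := by
    rw [show (fun S => sp o S * pg β J lam Λ (force Λ' (tf β J lam Λ b)) S) =
      fun S => sp o S * pairs (inner Λ) inc (tc β J lam) S *
        ghost Λ (force Λ' (tf β J lam Λ b)) S from funext fun S => by unfold pg; ring, h5]
    congr 2
    funext S; rw [hG]; ring
  have h8 : tot Λ (pg β J lam Λ (force Λ' (tf β J lam Λ b))) =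
      (2 : ℝ) ^ (Λ \ Λ').card * tot Λ' G := h6
  rw [h7, h8, mul_div_mul_left _ _ (by positivity)]

theorem tf_nonneg {β J lam : ℝ} (hβ : 0 ≤ β) {Λ : Finset Site} {b : Spins} {i : Site}
    (h : 0 ≤ fld J lam Λ b i) : 0 ≤ tf β J lam Λ b i := tanh_nonneg' (mul_nonneg hβ h)

/-- Shrinking the domain, with plus spins on the removed part, increases the magnetization. -/
theorem mag_shrink {β J lam : ℝ} (hβ : 0 ≤ β) (hJ : 0 ≤ J) (hl : 0 ≤ lam)
    {Λ' Λ : Finset Site} (h : Λ' ⊆ Λ) {b : Spins} {o : Site} (ho : o ∈ Λ')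
    (hf : ∀ i ∈ Λ, 0 ≤ fld J lam Λ b i) :
    mag β J lam Λ b o ≤ mag β J lam Λ' (fill Λ b) o := by
  rw [mag_fill β J lam h b ho, mag_eq_mt β J lam Λ b (h ho)]
  have := mt_ray hβ hJ hl (Λ := Λ) (t' := tf β J lam Λ b)
    (t := force Λ' (tf β J lam Λ b)) (fun i hi => tf_nonneg hβ (hf i hi))
    (fun i _ => ?_) (h ho) zero_le_one le_rfl (fun i _ => ?_)
  · simpa using this
  · unfold force; split_ifs
    · exact tf_le _ _ _ _ _ _
    · exact le_rfl
  · rw [one_mul]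
    unfold force; split_ifs
    · exact le_rfl
    · exact tf_le _ _ _ _ _ _

/-- Conversely it increases the magnetization at most by the factor `1 / s` when the fields on
the removed part are bounded below. -/
theorem mag_grow {β J lam : ℝ} (hβ : 0 ≤ β) (hJ : 0 ≤ J) (hl : 0 ≤ lam)
    {Λ' Λ : Finset Site} (h : Λ' ⊆ Λ) {b : Spins} {o : Site} (ho : o ∈ Λ')
    (hf : ∀ i ∈ Λ, 0 ≤ fld J lam Λ b i) {s : ℝ} (hs0 : 0 ≤ s) (hs1 : s ≤ 1)
    (hs : ∀ i ∈ Λ, i ∉ Λ' → s ≤ tf β J lam Λ b i) :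
    s * mag β J lam Λ' (fill Λ b) o ≤ mag β J lam Λ b o := by
  rw [mag_fill β J lam h b ho, mag_eq_mt β J lam Λ b (h ho)]
  refine mt_ray hβ hJ hl (fun i hi => ?_) (fun i _ => tf_le _ _ _ _ _ _) (h ho) hs0 hs1
    fun i hi => ?_
  · unfold force; split_ifs
    · exact tf_nonneg hβ (hf i hi)
    · exact zero_le_one
  · unfold force; split_ifs with h1
    · exact mul_le_of_le_one_left (tf_nonneg hβ (hf i hi)) hs1
    · rw [mul_one]; exact hs i hi h1

/-- Changing the boundary condition. -/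
theorem mag_change {β J lam : ℝ} (hβ : 0 ≤ β) (hJ : 0 ≤ J) (hl : 0 ≤ lam)
    {Λ : Finset Site} {b b' : Spins} {o : Site} (ho : o ∈ Λ)
    (hf : ∀ i ∈ Λ, 0 ≤ fld J lam Λ b' i) {s : ℝ} (hs0 : 0 ≤ s) (hs1 : s ≤ 1)
    (hs : ∀ i ∈ Λ, s * tf β J lam Λ b' i ≤ tf β J lam Λ b i) :
    s * mag β J lam Λ b' o ≤ mag β J lam Λ b o := by
  rw [mag_eq_mt β J lam Λ b ho, mag_eq_mt β J lam Λ b' ho]
  exact mt_ray hβ hJ hl (fun i hi => tf_nonneg hβ (hf i hi)) (fun i _ => tf_le _ _ _ _ _ _) ho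
    hs0 hs1 hs

end Vale.Agent.IsingUniv
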