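import Mathlib

/-!
Perturbed planar Ising models.  The lattice `a ℤ²` is indexed by `ℤ × ℤ`.
A configuration in a finite set `Λ` of sites is given by the set `S ⊆ Λ` of its minus spins.
A boundary condition is a function `b` on the sites outside `Λ`: it is `0` for the free boundary
condition, and has values `1` and `-1` for a fixed one.
-/

open Filter Topology

namespace Vale.Agent.IsingUniv

/-- Sites of the square lattice. -/
abbrev Site := ℤ × ℤ

/-- Values of the spins. -/
abbrev Spins := Site → ℝ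

/-- The critical value of `β * J` of the nearest-neighbour model. -/
noncomputable def Kc : ℝ := Real.log (1 + √2) / 2

/-- Even, finite-range potentials invariant under translations, rotations by a right angle and
reflections. -/
structure IsPotential (V : Finset Site → ℝ) : Prop where
  even : ∀ A, V A ≠ 0 → A.Nonempty ∧ Even A.card
  range : ∃ R : ℤ, ∀ A, V A ≠ 0 → ∀ x ∈ A, ∀ y ∈ A, |x.1 - y.1| ≤ R ∧ |x.2 - y.2| ≤ R
  shift : ∀ A v, V (A.image fun x => x + v) = V A
  rotate : ∀ A, V (A.image fun x => (-x.2, x.1)) = V A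
  reflect : ∀ A, V (A.image fun x => (x.1, -x.2)) = V A

open Classical in
/-- The interaction: `J` on each nearest-neighbour pair plus `lam * V`. -/
noncomputable def inter (J : ℝ) (V : Finset Site → ℝ) (lam : ℝ) (A : Finset Site) : ℝ :=
  (if ∃ x, A = {x, x + (1, 0)} ∨ A = {x, x + (0, 1)} then J else 0) + lam * V A

/-- The spins of the configuration `S` in `Λ`, extended by `b` outside `Λ`. -/
def extend (Λ : Finset Site) (b : Spins) (S : Finset Site) : Spins := fun x =>
  if x ∈ Λ then (if x ∈ S then -1 else 1) else b x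

/-- Minus the Hamiltonian: the sum over all finite `A` meeting `Λ` of `W A` times the product of
the spins in `A` (for `b = 0` only the sets `A ⊆ Λ` contribute). -/
noncomputable def energy (W : Finset Site → ℝ) (Λ : Finset Site) (b : Spins)
    (S : Finset Site) : ℝ :=
  ∑ᶠ A ∈ {A : Finset Site | ∃ x ∈ A, x ∈ Λ}, W A * ∏ x ∈ A, extend Λ b S x

/-- The Gibbs expectation of `F` in `Λ` with boundary condition `b`. -/
noncomputable def gibbs (β : ℝ) (W : Finset Site → ℝ) (Λ : Finset Site) (b : Spins)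
    (F : Spins → ℝ) : ℝ :=
  (∑ S ∈ Λ.powerset, F (extend Λ b S) * Real.exp (β * energy W Λ b S)) /
    ∑ S ∈ Λ.powerset, Real.exp (β * energy W Λ b S)

/-- Free boundary condition. -/
def IsFree (b : Spins) : Prop := ∀ x, b x = 0

/-- Fixed boundary condition. -/
def IsFixed (b : Spins) : Prop := ∀ x, b x = 1 ∨ b x = -1

open Classical in
/-- The sites `x` with `a x` in `D` (for a bounded domain `D`). -/
noncomputable def sites (D : Set ℂ) (a : ℝ) : Finset Site :=
  if h : {x : Site | (⟨a * x.1, a * x.2⟩ : ℂ) ∈ D}.Finite then h.toFinset else ∅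

/-- The site of the lattice of mesh `a` attached to the point `x`. -/
noncomputable def near (a : ℝ) (x : ℂ) : Site := (⌊x.re / a⌋, ⌊x.im / a⌋)

/-- The product of the two spins of the bond at `y` in direction `j`. -/
noncomputable def bond (a : ℝ) (y : ℂ) (j : Bool) (σ : Spins) : ℝ :=
  σ (near a y) * σ (near a y + if j then (0, 1) else (1, 0))

/-- The correlation of rescaled spins at `x` and rescaled centred energies at `y` in the
state `E`. -/
noncomputable def corr (E : (Spins → ℝ) → ℝ) (a : ℝ) {n m : ℕ} (x : Fin n → ℂ)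
    (y : Fin m → ℂ) (j : Fin m → Bool) : ℝ :=
  E fun σ => (∏ i, a ^ (-(1 / 8) : ℝ) * σ (near a (x i))) *
    ∏ k, a⁻¹ * (bond a (y k) (j k) σ - E (bond a (y k) (j k)))

/-- The correlation at `x`, `y` converges to `c` as the mesh tends to `0`. -/
def Converges (E : ℝ → (Spins → ℝ) → ℝ) {n m : ℕ} (x : Fin n → ℂ) (y : Fin m → ℂ)
    (j : Fin m → Bool) (c : ℝ) : Prop :=
  Tendsto (fun a => corr (E a) a x y j) (𝓝[>] 0) (𝓝 c)

/-- Finitely many distinct points of `D`, at least one. -/
def Distinct (D : Set ℂ) {n m : ℕ} (x : Fin n → ℂ) (y : Fin m → ℂ) : Prop :=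
  1 ≤ n + m ∧ Function.Injective (Sum.elim x y) ∧ ∀ p, Sum.elim x y p ∈ D

/-- All mixed correlations at distinct points of `D` converge. -/
def HasLimits (D : Set ℂ) (E : ℝ → (Spins → ℝ) → ℝ) : Prop :=
  ∀ (n m : ℕ) (x : Fin n → ℂ) (y : Fin m → ℂ) (j : Fin m → Bool), Distinct D x y →
    ∃ c, Converges E x y j c

/-- Whenever a correlation converges in `E₀`, it converges in `E` to the same limit times
`Zσ ^ n * Zε ^ m`. -/
def Transfers (D : Set ℂ) (E₀ E : ℝ → (Spins → ℝ) → ℝ) (Zσ Zε : ℝ) : Prop :=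
  ∀ (n m : ℕ) (x : Fin n → ℂ) (y : Fin m → ℂ) (j : Fin m → Bool), Distinct D x y →
    ∀ c, Converges E₀ x y j c → Converges E x y j (Zσ ^ n * Zε ^ m * c)

/-- Observables depending on finitely many spins. -/
def IsLocal (F : Spins → ℝ) : Prop :=
  ∃ Δ : Finset Site, ∀ σ τ : Spins, (∀ x ∈ Δ, σ x = τ x) → F σ = F τ

/-- Translation-invariant weak limits of finite-volume Gibbs measures. -/
structure IsPlaneState (β : ℝ) (W : Finset Site → ℝ) (E : (Spins → ℝ) → ℝ) : Prop where
  limit : ∃ (Λ : ℕ → Finset Site) (b : ℕ → Spins), (∀ x, ∀ᶠ n in atTop, x ∈ Λ n) ∧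
    (∀ n, IsFree (b n) ∨ IsFixed (b n)) ∧
    ∀ F, IsLocal F → Tendsto (fun n => gibbs β W (Λ n) (b n) F) atTop (𝓝 (E F))
  shift : ∀ F, IsLocal F → ∀ v, E (fun σ => F fun x => σ (x + v)) = E F

/-- The open square `|Re z|, |Im z| < 1`. -/
def square : Set ℂ := {z | |z.re| < 1 ∧ |z.im| < 1}

/-- The nearest-neighbour critical model in the domain `D` with boundary condition `b`. -/
noncomputable def critical (D : Set ℂ) (b : ℝ → Spins) (a : ℝ) : (Spins → ℝ) → ℝ :=
  gibbs Kc (inter 1 (fun _ => 0) 0) (sites D a) (b a)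

/-- Plus spins outside. -/
def plus (_ : ℝ) : Spins := fun _ => 1

end Vale.Agent.IsingUniv
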