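import Vale.Agent.IsingUniv.Sites

/-!
The two domains, and the two one-point functions.
-/

open Finset Filter Topology

namespace Vale.Agent.IsingUniv

theorem square_open : IsOpen square := by
  have h1 : IsOpen {z : ℂ | |z.re| < 1} := isOpen_lt Complex.continuous_re.abs continuous_const
  have h2 : IsOpen {z : ℂ | |z.im| < 1} := isOpen_lt Complex.continuous_im.abs continuous_const
  exact h1.inter h2

theorem diamond_open : IsOpen diamond :=
  isOpen_lt (Complex.continuous_re.abs.add Complex.continuous_im.abs) continuous_const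

theorem abs_comb {s t x y : ℝ} (hs : 0 ≤ s) (ht : 0 ≤ t) : |s * x + t * y| ≤ s * |x| + t * |y| := by
  have := abs_add_le (s * x) (t * y)
  rwa [abs_mul, abs_mul, abs_of_nonneg hs, abs_of_nonneg ht] at this

theorem comb_lt {s t x y : ℝ} (hs : 0 ≤ s) (ht : 0 ≤ t) (hst : s + t = 1) (hx : x < 1)
    (hy : y < 1) : s * x + t * y < 1 := by
  rcases hs.eq_or_lt with h | h
  · subst h
    have : t = 1 := by linarith
    subst this
    linarith
  · nlinarith

theorem square_connected : IsConnected square := by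
  refine ⟨⟨0, by simp [square]⟩, Convex.isPreconnected ?_⟩
  intro x hx y hy s t hs ht hst
  have e1 : (s • x + t • y).re = s * x.re + t * y.re := by simp
  have e2 : (s • x + t • y).im = s * x.im + t * y.im := by simp
  refine ⟨?_, ?_⟩
  · rw [e1]; exact (abs_comb hs ht).trans_lt (comb_lt hs ht hst hx.1 hy.1)
  · rw [e2]; exact (abs_comb hs ht).trans_lt (comb_lt hs ht hst hx.2 hy.2)

theorem diamond_connected : IsConnected diamond := by
  refine ⟨⟨0, by simp [diamond]⟩, Convex.isPreconnected ?_⟩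
  intro x hx y hy s t hs ht hst
  have e1 : (s • x + t • y).re = s * x.re + t * y.re := by simp
  have e2 : (s • x + t • y).im = s * x.im + t * y.im := by simp
  have hx' : |x.re| + |x.im| < 1 := hx
  have hy' : |y.re| + |y.im| < 1 := hy
  show |(s • x + t • y).re| + |(s • x + t • y).im| < 1
  rw [e1, e2]
  have h1 := abs_comb (x := x.re) (y := y.re) hs ht
  have h2 := abs_comb (x := x.im) (y := y.im) hs ht
  have h3 := comb_lt hs ht hst hx' hy'
  linarith

theorem square_bounded : Bornology.IsBounded square := by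
  refine (Metric.isBounded_iff_subset_ball 0).mpr ⟨3, fun z hz => ?_⟩
  rw [mem_ball_zero_iff]
  have h1 := Complex.norm_le_abs_re_add_abs_im z
  have h2 : |z.re| < 1 := hz.1
  have h3 : |z.im| < 1 := hz.2
  linarith

theorem diamond_bounded : Bornology.IsBounded diamond :=
  square_bounded.subset fun _ hz => abs_mem_square hz

theorem distinct_one {D : Set ℂ} {x : ℂ} (hx : x ∈ D) : Distinct D (fun _ : Fin 1 => x)
    (Fin.elim0 : Fin 0 → ℂ) := by
  refine ⟨le_rfl, ?_, ?_⟩
  · intro p q _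
    rcases p with p | p
    · rcases q with q | q
      · rw [Subsingleton.elim p q]
      · exact q.elim0
    · exact p.elim0
  · rintro (p | p)
    · exact hx
    · exact p.elim0

/-- Convergence of one-point functions. -/
theorem converges_one {β : ℝ} {W : Finset Site → ℝ} {D : Set ℂ} {b : ℝ → Spins} {x : ℂ} {c : ℝ} :
    Converges (fun a => gibbs β W (sites D a) (b a)) (fun _ : Fin 1 => x) (Fin.elim0 : Fin 0 → ℂ)
      (Fin.elim0 : Fin 0 → Bool) c ↔
    Tendsto (fun a : ℝ => a ^ (-(1 / 8) : ℝ) *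
      gibbs β W (sites D a) (b a) (fun σ => σ (near a x))) (𝓝[>] 0) (𝓝 c) := by
  unfold Converges
  simp only [corr_one]

theorem critical_eq {J : ℝ} (hJ : J ≠ 0) (D : Set ℂ) (b : ℝ → Spins) :
    (fun a => gibbs (Kc / J) (inter J V3 0) (sites D a) (b a)) = critical D b := by
  funext a
  unfold critical
  exact corr_scale hJ _ _

theorem side_fixed (a : ℝ) : IsFixed (side a) := by
  intro x
  unfold side
  split_ifs
  · exact Or.inr rfl
  · exact Or.inl rfl

theorem side_ge (a : ℝ) (z : Site) (hz : z ∉ dia (⌈1 / a⌉ - 1)) :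
    (vI (⌈1 / a⌉ - 1) z.1 z.2 : ℝ) ≤ side a z := by
  rw [mem_dia] at hz
  unfold vI side
  rw [if_neg hz]
  by_cases h : 0 < z.1 ∧ 0 < z.2 ∧ z.1 + z.2 = ⌈1 / a⌉ ∧ z.2 % 2 = 0
  · rw [if_pos, if_pos h]
    · push_cast; exact le_rfl
    · refine ⟨?_, Or.inl ⟨h.1, h.2.1, h.2.2.2⟩⟩
      rw [abs_of_pos h.1, abs_of_pos h.2.1]; omega
  · rw [if_neg h]
    split_ifs
    · push_cast; norm_num
    · push_cast; exact le_rfl

/-- The comparison of one-point functions. -/
theorem compare {β J lam : ℝ} (hβ : 0 < β) (hJ : 0 < J) (hl : 0 < lam) {b : ℝ → Spins}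
    (hb : ∀ a, ∀ z, z ∉ dia (⌈1 / a⌉ - 1) → (vI (⌈1 / a⌉ - 1) z.1 z.2 : ℝ) ≤ b a z)
    {x : ℂ} (hx : x ∈ diamond) {c c' : ℝ}
    (h1 : Tendsto (fun a : ℝ => a ^ (-(1 / 8) : ℝ) *
      gibbs β (inter J V3 lam) (sites square a) (plus a) (fun σ => σ (near a x)))
      (𝓝[>] 0) (𝓝 c))
    (h2 : Tendsto (fun a : ℝ => a ^ (-(1 / 8) : ℝ) *
      gibbs β (inter J V3 lam) (sites diamond a) (b a) (fun σ => σ (near a x)))
      (𝓝[>] 0) (𝓝 c')) :
    0 ≤ c ∧ Real.tanh (β * lam) * Real.tanh (β * J) * c ≤ c' := by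
  constructor
  · refine ge_of_tendsto h1 ?_
    filter_upwards [near_mem hx] with a ha
    obtain ⟨ha0, -, ha2⟩ := ha
    refine mul_nonneg (Real.rpow_nonneg ha0.le _) ?_
    exact mag_nonneg hβ.le hJ.le hl.le (dia_square ha0 ha2)
      (fun i _ => fields_one hJ.le hl.le _ i)
  · refine le_of_tendsto_of_tendsto (h1.const_mul _) h2 ?_
    filter_upwards [near_mem hx] with a ha
    obtain ⟨ha0, ha1, ha2⟩ := ha
    have h3 := chain hβ.le hJ.le hl.le ha1 (hb a) (dia_square ha0) ha2
    rw [← sites_diamond ha0] at h3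
    have h4 := mul_le_mul_of_nonneg_left h3 (Real.rpow_nonneg ha0.le (-(1 / 8) : ℝ))
    refine le_trans (le_of_eq ?_) h4
    unfold mag plus
    ring

theorem tanh_pos' {x : ℝ} (hx : 0 < x) : 0 < Real.tanh x := by
  rw [Real.tanh_eq_sinh_div_cosh]
  exact div_pos (Real.sinh_pos_iff.mpr hx) (Real.cosh_pos x)

end Vale.Agent.IsingUniv
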