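import Vale.Agent.IsingUniv.Chain

/-!
Upper bound of two-point functions by products of magnetizations in disjoint boxes.
-/

open Finset

namespace Vale.Agent.IsingUniv

/-- Sums over configurations in disjoint sets factorize. -/
theorem tot_union {α : Type*} [DecidableEq α] {A B : Finset α} (hAB : Disjoint A B)
    (f g : Finset α → ℝ) :
    tot (A ∪ B) (fun S => f (S ∩ A) * g (S ∩ B)) = tot A f * tot B g := by
  unfold tot
  rw [Finset.sum_mul_sum, ← Finset.sum_product']
  refine Finset.sum_bij' (fun S _ => (S ∩ A, S ∩ B)) (fun p _ => p.1 ∪ p.2) ?_ ?_ ?_ ?_ ?_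
  · intro S _
    rw [Finset.mem_product, Finset.mem_powerset, Finset.mem_powerset]
    exact ⟨Finset.inter_subset_right, Finset.inter_subset_right⟩
  · intro p hp
    rw [Finset.mem_product, Finset.mem_powerset, Finset.mem_powerset] at hp
    rw [Finset.mem_powerset]
    exact Finset.union_subset_union hp.1 hp.2
  · intro S hS
    rw [Finset.mem_powerset] at hS
    show S ∩ A ∪ S ∩ B = S
    rw [← Finset.inter_union_distrib_left, Finset.inter_eq_left.mpr hS]
  · intro p hp
    rw [Finset.mem_product, Finset.mem_powerset, Finset.mem_powerset] at hp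
    rw [Finset.disjoint_left] at hAB
    refine Prod.ext ?_ ?_
    · ext x
      simp only [Finset.mem_inter, Finset.mem_union]
      constructor
      · rintro ⟨h | h, h2⟩
        · exact h
        · exact absurd (hp.2 h) (hAB h2)
      · exact fun h => ⟨Or.inl h, hp.1 h⟩
    · ext x
      simp only [Finset.mem_inter, Finset.mem_union]
      constructor
      · rintro ⟨h | h, h2⟩
        · exact absurd h2 (hAB (hp.1 h))
        · exact h
      · exact fun h => ⟨Or.inr h, hp.2 h⟩
  · intro S _; rfl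

/-- Sums of observables supported in a smaller set. -/
theorem tot_restrict {α : Type*} [DecidableEq α] {A Λ : Finset α} (h : A ⊆ Λ)
    (f : Finset α → ℝ) (hf : ∀ S, f S = f (S ∩ A)) :
    tot Λ f = (2 : ℝ) ^ (Λ \ A).card * tot A f := by
  have h1 := tot_union (A := A) (B := Λ \ A) Finset.disjoint_sdiff f (fun _ => 1)
  rw [Finset.union_sdiff_of_subset h] at h1
  have h2 : tot (Λ \ A) (fun _ => (1 : ℝ)) = (2 : ℝ) ^ (Λ \ A).card := by
    unfold tot
    rw [Finset.sum_const, Finset.card_powerset, nsmul_eq_mul, mul_one]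
    push_cast; rfl
  rw [h2] at h1
  rw [mul_comm, ← h1]
  exact congrArg (tot Λ) (funext fun S => by rw [mul_one]; exact hf S)

theorem sp_inter {α : Type*} [DecidableEq α] {A : Finset α} {i : α} (hi : i ∈ A)
    (S : Finset α) : sp i (S ∩ A) = sp i S := by
  unfold sp
  by_cases h : i ∈ S
  · rw [if_pos h, if_pos (Finset.mem_inter.mpr ⟨h, hi⟩)]
  · rw [if_neg h, if_neg fun h2 => h (Finset.mem_inter.mp h2).1]

theorem chi_inter {α : Type*} [DecidableEq α] {A T : Finset α} (hT : T ⊆ A)
    (S : Finset α) : chi T (S ∩ A) = chi T S :=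
  Finset.prod_congr rfl fun i hi => sp_inter (hT hi) S

theorem inc_subset {Λ : Finset Site} {e : Site × Fin 4} (he : e ∈ inner Λ) : inc e ⊆ Λ := by
  obtain ⟨i, hi, j, hj, -, h⟩ := inner_inc Λ e he
  rw [h]
  intro k hk
  rw [Finset.mem_insert, Finset.mem_singleton] at hk
  rcases hk with rfl | rfl
  · exact hi
  · exact hj

theorem inner_mono {A Λ : Finset Site} (h : A ⊆ Λ) : inner A ⊆ inner Λ := by
  intro e he
  unfold inner at he ⊢
  rw [Finset.mem_filter, Finset.mem_product] at he ⊢
  exact ⟨⟨h he.1.1, he.1.2⟩, h he.2⟩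

theorem pairs_inter (β J lam : ℝ) (Λ : Finset Site) (S : Finset Site) :
    pairs (inner Λ) inc (tc β J lam) (S ∩ Λ) = pairs (inner Λ) inc (tc β J lam) S := by
  unfold pairs
  exact Finset.prod_congr rfl fun e he => by rw [chi_inter (inc_subset he)]

/-- Enlarging the domain and forcing plus spins increases correlations. -/
theorem enlarge {β J lam : ℝ} (hβ : 0 ≤ β) (hJ : 0 ≤ J) (hl : 0 ≤ lam) {Λ Big B : Finset Site}
    (hΛ : Λ ⊆ Big) {C : Finset Site} (hC : C ⊆ Λ) :
    tot Λ (fun S => chi C S * pairs (inner Λ) inc (tc β J lam) S) *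
        tot Big (pg β J lam Big (force B fun _ => 0)) ≤
      tot Big (fun S => chi C S * pg β J lam Big (force B fun _ => 0) S) *
        tot Λ (pairs (inner Λ) inc (tc β J lam)) := by
  have hf0 : ∀ i ∈ Big, 0 ≤ force B (fun _ => 0) i := fun i _ => by
    unfold force; split_ifs <;> norm_num
  have hw : Dup (pairs (inner Λ) inc (tc β J lam)) :=
    pairs_dup (fun e _ => tc_nonneg hβ hJ hl e) (fun e _ => tc_le β J lam e)
  have hG : Pos (fun S => pairs (inner Big \ inner Λ) inc (tc β J lam) S *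
      ghost Big (force B fun _ => 0) S) :=
    (pairs_pos fun e _ => tc_nonneg hβ hJ hl e).mul (ghost_pos hf0)
  have h := gks hw (Pos.chi C) hG Big
  have hsplit : ∀ S, pg β J lam Big (force B fun _ => 0) S =
      pairs (inner Big \ inner Λ) inc (tc β J lam) S * ghost Big (force B fun _ => 0) S *
        pairs (inner Λ) inc (tc β J lam) S := by
    intro S
    unfold pg
    have : pairs (inner Big) inc (tc β J lam) S =
        pairs (inner Big \ inner Λ) inc (tc β J lam) S *
          pairs (inner Λ) inc (tc β J lam) S := by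
      unfold pairs
      exact (Finset.prod_sdiff (inner_mono hΛ)).symm
    rw [this]; ring
  have e1 : (fun S => pairs (inner Big \ inner Λ) inc (tc β J lam) S *
      ghost Big (force B fun _ => 0) S * pairs (inner Λ) inc (tc β J lam) S) =
      pg β J lam Big (force B fun _ => 0) := funext fun S => (hsplit S).symm
  have e2 : (fun S => chi C S * (pairs (inner Big \ inner Λ) inc (tc β J lam) S *
      ghost Big (force B fun _ => 0) S) * pairs (inner Λ) inc (tc β J lam) S) =
      fun S => chi C S * pg β J lam Big (force B fun _ => 0) S := funext fun S => by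
    rw [hsplit S]; ring
  have e3 := tot_restrict hΛ (fun S => chi C S * pairs (inner Λ) inc (tc β J lam) S)
    fun S => by rw [chi_inter hC, pairs_inter]
  have e4 := tot_restrict hΛ (pairs (inner Λ) inc (tc β J lam))
    fun S => by rw [pairs_inter]
  rw [e1, e2, e3, e4] at h
  have hp : (0 : ℝ) < (2 : ℝ) ^ (Big \ Λ).card := by positivity
  refine le_of_mul_le_mul_left ?_ hp
  calc _ = (2 : ℝ) ^ (Big \ Λ).card * tot Λ (fun S => chi C S *
        pairs (inner Λ) inc (tc β J lam) S) * tot Big (pg β J lam Big (force B fun _ => 0)) := by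
        ring
    _ ≤ _ := h
    _ = _ := by ring

/-- Energies depend only on the boundary spins that are seen. -/
theorem energy_congr (J lam : ℝ) {B Big : Finset Site} {b b' : Spins} (S : Finset Site)
    (hB : ∀ e ∈ edges B, e.1 ∈ Big ∧ e.1 + dv e.2 ∈ Big) (hb : ∀ x ∈ Big, b x = b' x) :
    energy (inter J V3 lam) B b S = energy (inter J V3 lam) B b' S := by
  rw [energy_edges, energy_edges]
  refine Finset.sum_congr rfl fun e he => ?_
  obtain ⟨h1, h2⟩ := hB e he
  have key : ∀ x ∈ Big, extend B b S x = extend B b' S x := fun x hx => by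
    unfold extend
    rw [hb x hx]
  rw [key _ h1, key _ h2]

/-- The weights with plus spins outside `B`. -/
noncomputable def wp (β J lam : ℝ) (B : Finset Site) (S : Finset Site) : ℝ :=
  Real.exp (β * energy (inter J V3 lam) B (fun _ => 1) S)

theorem pairs_wp (β J lam : ℝ) {B Big : Finset Site} (hBig : B ⊆ Big)
    (hB : ∀ e ∈ edges B, e.1 ∈ Big ∧ e.1 + dv e.2 ∈ Big) : ∃ c : ℝ, 0 < c ∧ ∀ S ⊆ B,
      pairs (inner Big) inc (tc β J lam) S = c * wp β J lam B S := by
  obtain ⟨C, hC, h1⟩ := weight_eq β J lam Big (fun _ => 0)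
  obtain ⟨K, hK⟩ := energy_fill J lam hBig (fun _ => 0)
  have hg : ∀ S, ghost Big (tf β J lam Big fun _ => 0) S = 1 := by
    intro S
    unfold ghost
    refine Finset.prod_eq_one fun i _ => ?_
    have : fld J lam Big (fun _ => 0) i = 0 := by
      unfold fld
      refine Finset.sum_eq_zero fun d _ => ?_
      simp
    unfold tf
    rw [this, mul_zero, Real.tanh_zero, zero_mul, add_zero]
  refine ⟨Real.exp (β * K) / C, div_pos (Real.exp_pos _) hC, fun S hS => ?_⟩
  have h2 := h1 S
  rw [hg, mul_one, hK S hS] at h2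
  have h3 : energy (inter J V3 lam) B (fill Big fun _ => 0) S =
      energy (inter J V3 lam) B (fun _ => 1) S := by
    refine energy_congr J lam S hB fun x hx => ?_
    unfold fill
    rw [if_pos hx]
  rw [h3] at h2
  unfold wp
  rw [div_mul_eq_mul_div, ← Real.exp_add, eq_div_iff hC.ne', mul_comm _ C, ← h2]
  congr 1; ring

theorem mag_wp (β J lam : ℝ) (B : Finset Site) {o : Site} (ho : o ∈ B) :
    mag β J lam B (fun _ => 1) o = tot B (fun S => sp o S * wp β J lam B S) /
      tot B (wp β J lam B) := by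
  unfold mag gibbs tot wp
  congr 1
  exact Finset.sum_congr rfl fun S _ => by
    show extend B (fun _ => 1) S o * _ = _
    rw [extend_mem ho]

/-- Energies of two far apart sets add up. -/
theorem wp_union (β J lam : ℝ) {B₁ B₂ : Finset Site}
    (hsep : ∀ e, e ∈ edges B₁ → e ∉ edges B₂) (S : Finset Site) :
    wp β J lam (B₁ ∪ B₂) S = wp β J lam B₁ (S ∩ B₁) * wp β J lam B₂ (S ∩ B₂) := by
  classical
  have hE : edges (B₁ ∪ B₂) = edges B₁ ∪ edges B₂ := by
    ext e
    simp only [mem_edges, Finset.mem_union]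
    tauto
  have hd : Disjoint (edges B₁) (edges B₂) := Finset.disjoint_left.mpr fun e h => hsep e h
  have key : ∀ (A A' : Finset Site), ∀ x, x ∉ A' →
      extend (A ∪ A') (fun _ => 1) S x = extend A (fun _ => 1) (S ∩ A) x := by
    intro A A' x hx
    unfold extend
    by_cases h : x ∈ A
    · rw [if_pos (Finset.mem_union_left _ h), if_pos h]
      by_cases h2 : x ∈ S
      · rw [if_pos h2, if_pos (Finset.mem_inter.mpr ⟨h2, h⟩)]
      · rw [if_neg h2, if_neg fun h3 => h2 (Finset.mem_inter.mp h3).1]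
    · rw [if_neg h, if_neg]
      rw [Finset.mem_union, not_or]; exact ⟨h, hx⟩
  unfold wp
  rw [← Real.exp_add, ← mul_add]
  congr 2
  rw [energy_edges, energy_edges, energy_edges, hE, Finset.sum_union hd]
  congr 1
  · refine Finset.sum_congr rfl fun e he => ?_
    have h := hsep e he
    rw [mem_edges, not_or] at h
    rw [key B₁ B₂ _ h.1, key B₁ B₂ _ h.2]
  · refine Finset.sum_congr rfl fun e he => ?_
    have h : e ∉ edges B₁ := fun h' => hsep e h' he
    rw [mem_edges, not_or] at h
    rw [Finset.union_comm, key B₂ B₁ _ h.1, key B₂ B₁ _ h.2]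

theorem edges_disjoint {B₁ B₂ : Finset Site} (hsep : ∀ e, e ∈ edges B₁ → e ∉ edges B₂) :
    Disjoint B₁ B₂ := by
  rw [Finset.disjoint_left]
  intro x h1 h2
  exact hsep (x, 0) (mem_edges.mpr (Or.inl h1)) (mem_edges.mpr (Or.inl h2))

/-- The two-point bound. -/
theorem two_point {β J lam : ℝ} (hβ : 0 ≤ β) (hJ : 0 ≤ J) (hl : 0 ≤ lam)
    {Λ Big B₁ B₂ : Finset Site} (hΛ : Λ ⊆ Big) (h₁ : B₁ ⊆ Big) (h₂ : B₂ ⊆ Big)
    (hB : ∀ e ∈ edges (B₁ ∪ B₂), e.1 ∈ Big ∧ e.1 + dv e.2 ∈ Big)
    (hsep : ∀ e, e ∈ edges B₁ → e ∉ edges B₂) {C : Finset Site} (hC : C ⊆ Λ) {o τ : Site}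
    (ho : o ∈ B₁) (hτ : τ ∈ B₂)
    (hCB : ∀ S ⊆ B₁ ∪ B₂, chi C S = sp o S * sp τ S) :
    tot Λ (fun S => chi C S * pairs (inner Λ) inc (tc β J lam) S) ≤
      mag β J lam B₁ (fun _ => 1) o * mag β J lam B₂ (fun _ => 1) τ *
        tot Λ (pairs (inner Λ) inc (tc β J lam)) := by
  have hU : B₁ ∪ B₂ ⊆ Big := Finset.union_subset h₁ h₂
  obtain ⟨c, hc, hpw⟩ := pairs_wp β J lam hU hB
  have h := enlarge hβ hJ hl (B := B₁ ∪ B₂) hΛ hC
  have hdis := edges_disjoint hsep
  have hprod : ∀ S, ∏ i ∈ B₁ ∪ B₂, (1 + (0 : ℝ) * sp i S) = 1 := fun S =>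
    Finset.prod_eq_one fun i _ => by simp
  have e1 : tot Big (pg β J lam Big (force (B₁ ∪ B₂) fun _ => 0)) =
      (2 : ℝ) ^ (Big \ (B₁ ∪ B₂)).card * (c * (tot B₁ (wp β J lam B₁) *
        tot B₂ (wp β J lam B₂))) := by
    have k1 := tot_force hU (fun _ => (0 : ℝ)) (pairs (inner Big) inc (tc β J lam))
    have k2 : tot (B₁ ∪ B₂) (fun S => pairs (inner Big) inc (tc β J lam) S *
        ∏ i ∈ B₁ ∪ B₂, (1 + (0 : ℝ) * sp i S)) =
        c * (tot B₁ (wp β J lam B₁) * tot B₂ (wp β J lam B₂)) := by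
      rw [← tot_union hdis]
      unfold tot
      rw [Finset.mul_sum]
      refine Finset.sum_congr rfl fun S hS => ?_
      beta_reduce
      rw [hprod, mul_one, hpw S (Finset.mem_powerset.mp hS), wp_union β J lam hsep]
    rw [k2] at k1
    exact k1
  have e2 : tot Big (fun S => chi C S * pg β J lam Big (force (B₁ ∪ B₂) fun _ => 0) S) =
      (2 : ℝ) ^ (Big \ (B₁ ∪ B₂)).card * (c * (tot B₁ (fun S => sp o S * wp β J lam B₁ S) *
        tot B₂ (fun S => sp τ S * wp β J lam B₂ S))) := by
    have k1 := tot_force hU (fun _ => (0 : ℝ))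
      (fun S => chi C S * pairs (inner Big) inc (tc β J lam) S)
    have k2 : tot (B₁ ∪ B₂) (fun S => chi C S * pairs (inner Big) inc (tc β J lam) S *
        ∏ i ∈ B₁ ∪ B₂, (1 + (0 : ℝ) * sp i S)) =
        c * (tot B₁ (fun S => sp o S * wp β J lam B₁ S) *
        tot B₂ (fun S => sp τ S * wp β J lam B₂ S)) := by
      rw [← tot_union hdis]
      unfold tot
      rw [Finset.mul_sum]
      refine Finset.sum_congr rfl fun S hS => ?_
      have hS' := Finset.mem_powerset.mp hS
      beta_reduce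
      rw [hprod, mul_one, hpw S hS', wp_union β J lam hsep, hCB S hS', sp_inter ho,
        sp_inter hτ]
      ring
    rw [k2] at k1
    rw [← k1]
    exact congrArg (tot Big) (funext fun S => by unfold pg; ring)
  rw [e1, e2] at h
  have p1 : 0 < tot B₁ (wp β J lam B₁) := Finset.sum_pos (fun S _ => Real.exp_pos _)
    ⟨∅, Finset.empty_mem_powerset _⟩
  have p2 : 0 < tot B₂ (wp β J lam B₂) := Finset.sum_pos (fun S _ => Real.exp_pos _)
    ⟨∅, Finset.empty_mem_powerset _⟩
  have p3 : (0 : ℝ) < (2 : ℝ) ^ (Big \ (B₁ ∪ B₂)).card * c * (tot B₁ (wp β J lam B₁) *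
        tot B₂ (wp β J lam B₂)) := by positivity
  rw [mag_wp β J lam B₁ ho, mag_wp β J lam B₂ hτ]
  refine le_of_mul_le_mul_right ?_ p3
  calc _ = tot Λ (fun S => chi C S * pairs (inner Λ) inc (tc β J lam) S) *
        ((2 : ℝ) ^ (Big \ (B₁ ∪ B₂)).card * (c * (tot B₁ (wp β J lam B₁) *
        tot B₂ (wp β J lam B₂)))) := by ring
    _ ≤ _ := h
    _ = _ := by field_simp

end Vale.Agent.IsingUniv
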