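import Vale.Agent.IsingUniv.Pos

/-!
Ferromagnets with pair couplings and positive fields: monotonicity and the ray inequality
`s * u (t) ≤ u (s * t)`.
-/

open Finset

namespace Vale.Agent.IsingUniv

variable {α : Type*} [DecidableEq α]

/-- Fields `t` in multiplicative form. -/
noncomputable def ghost (Λ : Finset α) (t : α → ℝ) (S : Finset α) : ℝ :=
  ∏ i ∈ Λ, (1 + t i * sp i S)

/-- Pair couplings `x e` along the bonds `e ∈ E` joining the points of `inc e`. -/
noncomputable def pairs {ε : Type*} (E : Finset ε) (inc : ε → Finset α) (x : ε → ℝ)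
    (S : Finset α) : ℝ :=
  ∏ e ∈ E, (1 + x e * chi (inc e) S)

theorem ghost_pos {Λ : Finset α} {t : α → ℝ} (h0 : ∀ i ∈ Λ, 0 ≤ t i) : Pos (ghost Λ t) := by
  unfold ghost
  refine Pos.prod _ _ fun i hi => Pos.add (Pos.const zero_le_one) ((Pos.sp i).smul (h0 i hi))

theorem ghost_dup {Λ : Finset α} {t : α → ℝ} (h0 : ∀ i ∈ Λ, 0 ≤ t i) (h1 : ∀ i ∈ Λ, t i ≤ 1) :
    Dup (ghost Λ t) := by
  unfold ghost
  refine Dup.prod _ _ fun i hi => ?_
  have := Dup.factor ({i} : Finset α) (h0 i hi) (h1 i hi)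
  simpa [chi_singleton] using this

theorem pairs_pos {ε : Type*} {E : Finset ε} {inc : ε → Finset α} {x : ε → ℝ}
    (h0 : ∀ e ∈ E, 0 ≤ x e) : Pos (pairs E inc x) := by
  unfold pairs
  exact Pos.prod _ _ fun e he => Pos.add (Pos.const zero_le_one) ((Pos.chi (inc e)).smul (h0 e he))

theorem pairs_dup {ε : Type*} {E : Finset ε} {inc : ε → Finset α} {x : ε → ℝ}
    (h0 : ∀ e ∈ E, 0 ≤ x e) (h1 : ∀ e ∈ E, x e ≤ 1) : Dup (pairs E inc x) := by
  unfold pairs
  exact Dup.prod _ _ fun e he => Dup.factor (inc e) (h0 e he) (h1 e he)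

theorem ghost_nonneg {Λ : Finset α} {t : α → ℝ} (h0 : ∀ i ∈ Λ, 0 ≤ t i)
    (h1 : ∀ i ∈ Λ, t i ≤ 1) (S : Finset α) : 0 ≤ ghost Λ t S := by
  unfold ghost
  refine Finset.prod_nonneg fun i hi => ?_
  have := neg_one_le_sp i S
  nlinarith [h0 i hi, h1 i hi]

theorem pairs_nonneg {ε : Type*} {E : Finset ε} {inc : ε → Finset α} {x : ε → ℝ}
    (h0 : ∀ e ∈ E, 0 ≤ x e) (h1 : ∀ e ∈ E, x e ≤ 1) (S : Finset α) : 0 ≤ pairs E inc x S := by
  unfold pairs
  refine Finset.prod_nonneg fun e he => ?_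
  have := neg_one_le_chi (inc e) S
  nlinarith [h0 e he, h1 e he]

/-- The multiplier taking fields `t` to larger fields `t'`. -/
theorem ghost_mult {Λ : Finset α} {t t' : α → ℝ} (h0 : ∀ i ∈ Λ, 0 ≤ t i)
    (h1 : ∀ i ∈ Λ, t i ≤ t' i) (h2 : ∀ i ∈ Λ, t' i ≤ 1) :
    ∃ Q : Finset α → ℝ, Pos Q ∧ ∀ S, ghost Λ t' S = Q S * ghost Λ t S := by
  have key : ∀ i ∈ Λ, ∃ q : Finset α → ℝ, Pos q ∧
      ∀ S, 1 + t' i * sp i S = q S * (1 + t i * sp i S) := by
    intro i hi
    by_cases h : t i = 1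
    · refine ⟨fun _ => 1, Pos.one, fun S => ?_⟩
      have : t' i = 1 := le_antisymm (h2 i hi) (h ▸ h1 i hi)
      simp only [h, this, one_mul]
    · have hlt : t i < 1 := lt_of_le_of_ne ((h1 i hi).trans (h2 i hi)) h
      have hd : 0 < 1 - t i ^ 2 := by nlinarith [h0 i hi]
      refine ⟨fun S => (1 - t i * t' i) / (1 - t i ^ 2) + (t' i - t i) / (1 - t i ^ 2) * sp i S,
        Pos.add (Pos.const ?_) ((Pos.sp i).smul ?_), fun S => ?_⟩
      · exact div_nonneg (by nlinarith [h0 i hi, h1 i hi, h2 i hi]) hd.le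
      · exact div_nonneg (by linarith [h1 i hi]) hd.le
      · have hs := sp_mul_self i S
        field_simp
        linear_combination (-(t i) * (t' i - t i)) * hs
  choose! q hq1 hq2 using key
  refine ⟨fun S => ∏ i ∈ Λ, q i S, Pos.prod _ _ hq1, fun S => ?_⟩
  unfold ghost
  rw [← Finset.prod_mul_distrib]
  exact Finset.prod_congr rfl fun i hi => hq2 i hi S

/-- Monotonicity in the fields. -/
theorem ghost_mono {Λ : Finset α} {w F : Finset α → ℝ} (hw : Dup w) (hF : Pos F)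
    {t t' : α → ℝ} (h0 : ∀ i ∈ Λ, 0 ≤ t i)
    (h1 : ∀ i ∈ Λ, t i ≤ t' i) (h2 : ∀ i ∈ Λ, t' i ≤ 1) :
    tot Λ (fun S => F S * (w S * ghost Λ t S)) * tot Λ (fun S => w S * ghost Λ t' S) ≤
      tot Λ (fun S => F S * (w S * ghost Λ t' S)) * tot Λ (fun S => w S * ghost Λ t S) := by
  obtain ⟨Q, hQ, hQ'⟩ := ghost_mult h0 h1 h2
  have hd : Dup (fun S => w S * ghost Λ t S) :=
    hw.mul (ghost_dup h0 fun i hi => (h1 i hi).trans (h2 i hi))
  have h := gks hd hF hQ Λ
  have e1 : (fun S => Q S * (w S * ghost Λ t S)) = fun S => w S * ghost Λ t' S := by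
    funext S; rw [hQ' S]; ring
  have e2 : (fun S => F S * Q S * (w S * ghost Λ t S)) =
      fun S => F S * (w S * ghost Λ t' S) := by
    funext S; rw [hQ' S]; ring
  rw [e1, e2] at h
  exact h

/-! ### The ray inequality -/

section Ray

variable {ε : Type*} [DecidableEq ε]

/-- The boundary modulo two of a set of generalized edges. -/
def bd (inc : ε → Finset α) (A : Finset ε) (i : α) : ZMod 2 :=
  ∑ e ∈ A, if i ∈ inc e then 1 else 0

theorem bd_symmDiff (inc : ε → Finset α) (A B : Finset ε) (i : α) :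
    bd inc (symmDiff A B) i = bd inc A i + bd inc B i := by
  unfold bd
  have h1 : ∑ e ∈ A, (if i ∈ inc e then (1 : ZMod 2) else 0) =
      ∑ e ∈ A \ B, (if i ∈ inc e then (1 : ZMod 2) else 0) +
      ∑ e ∈ A ∩ B, (if i ∈ inc e then (1 : ZMod 2) else 0) := by
    rw [← Finset.sum_union (Finset.disjoint_sdiff_inter A B), Finset.sdiff_union_inter]
  have h2 : ∑ e ∈ B, (if i ∈ inc e then (1 : ZMod 2) else 0) =
      ∑ e ∈ B \ A, (if i ∈ inc e then (1 : ZMod 2) else 0) +
      ∑ e ∈ A ∩ B, (if i ∈ inc e then (1 : ZMod 2) else 0) := by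
    rw [Finset.inter_comm A B, ← Finset.sum_union (Finset.disjoint_sdiff_inter B A),
      Finset.sdiff_union_inter]
  have h3 : ∑ e ∈ symmDiff A B, (if i ∈ inc e then (1 : ZMod 2) else 0) =
      ∑ e ∈ A \ B, (if i ∈ inc e then (1 : ZMod 2) else 0) +
      ∑ e ∈ B \ A, (if i ∈ inc e then (1 : ZMod 2) else 0) := by
    rw [← Finset.sum_union]
    · rfl
    · rw [Finset.disjoint_left]
      intro i hi hj
      rw [Finset.mem_sdiff] at hi hj
      exact hi.2 hj.1
  rw [h1, h2, h3]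
  have h4 : ∀ c : ZMod 2, c + c = 0 := CharTwo.add_self_eq_zero
  linear_combination -(h4 (∑ e ∈ A ∩ B, (if i ∈ inc e then (1 : ZMod 2) else 0)))

/-- Existence of a path from `o` to the ghost using at most one ghost edge. -/
theorem exists_path (inc : ε → Finset α) (Γ : Finset ε) (Λ : Finset α)
    (W : Finset ε) (o : α) (ho : o ∈ Λ)
    (hΓ : ∀ e ∈ W, e ∈ Γ → ∃ y ∈ Λ, inc e = {y})
    (hΓ' : ∀ e ∈ W, e ∉ Γ → ∃ i ∈ Λ, ∃ j ∈ Λ, i ≠ j ∧ inc e = {i, j})
    (hW : ∀ i ∈ Λ, bd inc W i = if i = o then 1 else 0) :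
    ∃ P ⊆ W, (P ∩ Γ).card ≤ 1 ∧ ∀ i ∈ Λ, bd inc P i = if i = o then 1 else 0 := by
  classical
  let R : Finset α := Λ.filter fun v => ∃ P ⊆ W \ Γ, ∀ i ∈ Λ,
    bd inc P i = (if i = o then 1 else 0) + (if i = v then 1 else 0)
  have hoR : o ∈ R := by
    refine Finset.mem_filter.mpr ⟨ho, ∅, Finset.empty_subset _, fun i _ => ?_⟩
    rw [show bd inc (∅ : Finset ε) i = 0 from rfl, CharTwo.add_self_eq_zero]
  -- closure under non-ghost edges
  have hclosed : ∀ e ∈ W, e ∉ Γ → ∀ i j, i ∈ Λ → j ∈ Λ → i ≠ j → inc e = {i, j} → i ∈ R → j ∈ R := by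
    intro e he heΓ i j hi hj hij hinc hiR
    obtain ⟨-, P, hP, hbd⟩ := Finset.mem_filter.mp hiR
    refine Finset.mem_filter.mpr ⟨hj, symmDiff P {e}, ?_, fun k hk => ?_⟩
    · refine Finset.symmDiff_subset_union.trans (Finset.union_subset hP ?_)
      simpa using ⟨he, heΓ⟩
    · rw [bd_symmDiff, hbd k hk]
      have hb : bd inc {e} k = (if k = i then 1 else 0) + (if k = j then 1 else 0) := by
        unfold bd
        rw [Finset.sum_singleton, hinc]
        by_cases h1 : k = i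
        · subst h1; simp [hij]
        · by_cases h2 : k = j
          · subst h2; simp [h1]
          · simp [h1, h2]
      rw [hb]
      have h4 : ∀ c : ZMod 2, c + c = 0 := CharTwo.add_self_eq_zero
      linear_combination h4 (if k = i then 1 else 0)
  -- some ghost edge touches R
  have hex : ∃ e ∈ W, e ∈ Γ ∧ ∃ y ∈ R, inc e = {y} := by
    by_contra hcon
    push Not at hcon
    have h1 : ∑ i ∈ R, bd inc W i = 1 := by
      have : ∀ i ∈ R, bd inc W i = if i = o then 1 else 0 := fun i hi =>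
        hW i (Finset.mem_filter.mp hi).1
      rw [Finset.sum_congr rfl this, Finset.sum_ite_eq' R o, if_pos hoR]
    have h2 : ∑ i ∈ R, bd inc W i = 0 := by
      unfold bd
      rw [Finset.sum_comm]
      refine Finset.sum_eq_zero fun e he => ?_
      by_cases heΓ : e ∈ Γ
      · obtain ⟨y, hy, hinc⟩ := hΓ e he heΓ
        refine Finset.sum_eq_zero fun i hi => ?_
        rw [if_neg]
        rw [hinc, Finset.mem_singleton]
        rintro rfl
        exact hcon e he heΓ i hi hinc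
      · obtain ⟨i, hi, j, hj, hij, hinc⟩ := hΓ' e he heΓ
        have hiff : i ∈ R ↔ j ∈ R := ⟨hclosed e he heΓ i j hi hj hij hinc,
          hclosed e he heΓ j i hj hi hij.symm (by rw [hinc, Finset.pair_comm])⟩
        have h5 : ∑ k ∈ R, (if k ∈ inc e then (1 : ZMod 2) else 0) =
            (if i ∈ R then 1 else 0) + (if j ∈ R then 1 else 0) := by
          rw [← Finset.sum_ite_eq' R i (fun _ => (1 : ZMod 2)),
            ← Finset.sum_ite_eq' R j (fun _ => (1 : ZMod 2)), ← Finset.sum_add_distrib]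
          refine Finset.sum_congr rfl fun k _ => ?_
          rw [hinc]
          simp only [Finset.mem_insert, Finset.mem_singleton]
          by_cases h1 : k = i
          · subst h1; simp [hij]
          · by_cases h2 : k = j
            · subst h2; simp [h1]
            · simp [h1, h2]
        rw [h5]
        by_cases h6 : i ∈ R
        · rw [if_pos h6, if_pos (hiff.mp h6)]; decide
        · rw [if_neg h6, if_neg (fun h => h6 (hiff.mpr h))]; decide
    rw [h1] at h2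
    exact one_ne_zero h2
  obtain ⟨e, heW, heΓ, y, hyR, hinc⟩ := hex
  obtain ⟨-, P, hP, hbd⟩ := Finset.mem_filter.mp hyR
  refine ⟨symmDiff P {e}, ?_, ?_, fun k hk => ?_⟩
  · refine Finset.symmDiff_subset_union.trans (Finset.union_subset
      (hP.trans Finset.sdiff_subset) (by simpa using heW))
  · have : (symmDiff P {e}) ∩ Γ ⊆ {e} := by
      intro f hf
      rw [Finset.mem_inter] at hf
      have hf1 := Finset.symmDiff_subset_union hf.1
      rw [Finset.mem_union] at hf1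
      rcases hf1 with h | h
      · exact absurd hf.2 (Finset.mem_sdiff.mp (hP h)).2
      · exact h
    exact (Finset.card_le_card this).trans (by simp)
  · rw [bd_symmDiff, hbd k hk]
    have hb : bd inc {e} k = (if k = y then 1 else 0) := by
      unfold bd
      rw [Finset.sum_singleton, hinc]
      by_cases h1 : k = y <;> simp [h1]
    rw [hb]
    have h4 : ∀ c : ZMod 2, c + c = 0 := CharTwo.add_self_eq_zero
    linear_combination h4 (if k = y then 1 else 0)

/-- Characters indexed by `ZMod 2`-valued boundaries. -/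
theorem prod_chi (inc : ε → Finset α) (A : Finset ε) (S : Finset α) :
    ∏ e ∈ A, chi (inc e) S = ∏ e ∈ A, ∏ i ∈ inc e, sp i S := rfl

theorem tot_congr {Λ : Finset α} {f g : Finset α → ℝ} (h : ∀ S ⊆ Λ, f S = g S) :
    tot Λ f = tot Λ g :=
  Finset.sum_congr rfl fun S hS => h S (Finset.mem_powerset.mp hS)

/-- Sum of a product of spins against the edges of `A`. -/
theorem tot_edges (inc : ε → Finset α) (Λ : Finset α) (A : Finset ε) (C : Finset α)
    (hinc : ∀ e ∈ A, inc e ⊆ Λ) (hC : C ⊆ Λ) :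
    tot Λ (fun S => chi C S * ∏ e ∈ A, chi (inc e) S) =
      if ∀ i ∈ Λ, bd inc A i = (if i ∈ C then 1 else 0) then (2 : ℝ) ^ Λ.card else 0 := by
  classical
  -- the product is a single character
  have h1 : ∃ B ⊆ Λ, (∀ S, chi C S * ∏ e ∈ A, chi (inc e) S = chi B S) ∧
      ∀ i ∈ Λ, ((if i ∈ B then 1 else 0 : ZMod 2) = (if i ∈ C then 1 else 0) + bd inc A i) := by
    induction A using Finset.induction_on with
    | empty =>
      refine ⟨C, hC, fun S => by simp, fun i _ => ?_⟩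
      rw [show bd inc (∅ : Finset ε) i = 0 from rfl, add_zero]
    | insert e A he ih =>
      obtain ⟨B, hB, hB1, hB2⟩ := ih fun f hf => hinc f (Finset.mem_insert_of_mem hf)
      refine ⟨symmDiff B (inc e), Finset.symmDiff_subset_union.trans
        (Finset.union_subset hB (hinc e (Finset.mem_insert_self e A))), fun S => ?_, fun i hi => ?_⟩
      · rw [Finset.prod_insert he, ← chi_mul, ← hB1 S]; ring
      · have h3 : bd inc (insert e A) i = (if i ∈ inc e then 1 else 0) + bd inc A i := by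
          unfold bd
          rw [Finset.sum_insert he]
        rw [h3]
        have h4 := hB2 i hi
        have h5 : (if i ∈ symmDiff B (inc e) then 1 else 0 : ZMod 2) =
            (if i ∈ B then 1 else 0) + (if i ∈ inc e then 1 else 0) := by
          by_cases h6 : i ∈ B <;> by_cases h7 : i ∈ inc e <;>
            simp [Finset.mem_symmDiff, h6, h7]
          decide
        rw [h5, h4]; ring
  obtain ⟨B, hB, hB1, hB2⟩ := h1
  have h2 : (fun S => chi C S * ∏ e ∈ A, chi (inc e) S) = chi B := funext hB1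
  rw [h2]
  have h4 : ∀ c : ZMod 2, c + c = 0 := CharTwo.add_self_eq_zero
  by_cases hBe : B = ∅
  · rw [if_pos]
    · rw [hBe]
      unfold tot
      rw [Finset.sum_congr rfl (fun S _ => chi_empty S), Finset.sum_const,
        Finset.card_powerset, nsmul_eq_mul, mul_one]
      push_cast; rfl
    · intro i hi
      have h5 := hB2 i hi
      rw [hBe] at h5
      simp only [Finset.notMem_empty, if_false] at h5
      linear_combination (-1 : ZMod 2) * h5 - h4 (if i ∈ C then 1 else 0)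
  · rw [if_neg]
    · obtain ⟨i, hi⟩ := Finset.nonempty_iff_ne_empty.mpr hBe
      have h5 := tot_shift (Λ := Λ) (T := {i}) (by simpa using hB hi) (chi B)
      have h6 : chi B {i} = -1 := by
        unfold chi
        rw [Finset.prod_eq_single i]
        · simp [sp]
        · intro j _ hj
          simp [sp, hj]
        · intro h; exact absurd hi h
      have h7 : tot Λ (fun S => chi B (symmDiff S {i})) = - tot Λ (chi B) := by
        unfold tot
        rw [← Finset.sum_neg_distrib]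
        refine Finset.sum_congr rfl fun S _ => ?_
        show chi B (symmDiff S {i}) = -chi B S
        rw [chi_symmDiff, h6]; ring
      linarith
    · intro hcon
      obtain ⟨i, hi⟩ := Finset.nonempty_iff_ne_empty.mpr hBe
      have h5 := hB2 i (hB hi)
      rw [if_pos hi, hcon i (hB hi), h4] at h5
      exact one_ne_zero h5

theorem tot_expand (inc : ε → Finset α) (Λ : Finset α) (E : Finset ε) (C : Finset α)
    (hinc : ∀ e ∈ E, inc e ⊆ Λ) (hC : C ⊆ Λ) (y : ε → ℝ) :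
    tot Λ (fun S => chi C S * ∏ e ∈ E, (1 + y e * chi (inc e) S)) =
      (2 : ℝ) ^ Λ.card * ∑ A ∈ E.powerset with (∀ i ∈ Λ, bd inc A i = (if i ∈ C then 1 else 0)),
        ∏ e ∈ A, y e := by
  classical
  have h1 : ∀ S, chi C S * ∏ e ∈ E, (1 + y e * chi (inc e) S) =
      ∑ A ∈ E.powerset, (∏ e ∈ A, y e) * (chi C S * ∏ e ∈ A, chi (inc e) S) := by
    intro S
    rw [Finset.prod_one_add, Finset.mul_sum]
    refine Finset.sum_congr rfl fun A _ => ?_
    rw [Finset.prod_mul_distrib]; ring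
  unfold tot
  rw [Finset.sum_congr rfl fun S _ => h1 S, Finset.sum_comm, Finset.sum_filter, Finset.mul_sum]
  refine Finset.sum_congr rfl fun A hA => ?_
  rw [← Finset.mul_sum]
  have h2 := tot_edges inc Λ A C (fun e he => hinc e (Finset.mem_powerset.mp hA he)) hC
  unfold tot at h2
  rw [h2]
  split_ifs with h <;> ring

/-- The combinatorial ray inequality. -/
theorem ray_comb (inc : ε → Finset α) (Λ : Finset α) (E Γ : Finset ε) (o : α) (ho : o ∈ Λ)
    (hΓ : ∀ e ∈ E, e ∈ Γ → ∃ y ∈ Λ, inc e = {y})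
    (hΓ' : ∀ e ∈ E, e ∉ Γ → ∃ i ∈ Λ, ∃ j ∈ Λ, i ≠ j ∧ inc e = {i, j})
    (y : ε → ℝ) (hy : ∀ e ∈ E, 0 ≤ y e) (s : ℝ) (hs0 : 0 ≤ s) (hs1 : s ≤ 1) :
    s * (∑ A ∈ E.powerset with (∀ i ∈ Λ, bd inc A i = (if i = o then 1 else 0)), ∏ e ∈ A, y e) *
      (∑ B ∈ E.powerset with (∀ i ∈ Λ, bd inc B i = 0), s ^ (B ∩ Γ).card * ∏ e ∈ B, y e) ≤
    (∑ A ∈ E.powerset with (∀ i ∈ Λ, bd inc A i = (if i = o then 1 else 0)),
      s ^ (A ∩ Γ).card * ∏ e ∈ A, y e) *
      (∑ B ∈ E.powerset with (∀ i ∈ Λ, bd inc B i = 0), ∏ e ∈ B, y e) := by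
  classical
  set NN := E.powerset.filter (fun A => ∀ i ∈ Λ, bd inc A i = (if i = o then 1 else 0)) with hNN
  set ZZ := E.powerset.filter (fun B => ∀ i ∈ Λ, bd inc B i = 0) with hZZ
  have hpath : ∀ W : Finset ε, ∃ P : Finset ε, (W ⊆ E ∧ ∀ i ∈ Λ,
      bd inc W i = if i = o then 1 else 0) →
      P ⊆ W ∧ (P ∩ Γ).card ≤ 1 ∧ ∀ i ∈ Λ, bd inc P i = if i = o then 1 else 0 := by
    intro W
    by_cases h : W ⊆ E ∧ ∀ i ∈ Λ, bd inc W i = if i = o then 1 else 0
    · obtain ⟨P, hP⟩ := exists_path inc Γ Λ W o ho (fun e he => hΓ e (h.1 he))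
        (fun e he => hΓ' e (h.1 he)) h.2
      exact ⟨P, fun _ => hP⟩
    · exact ⟨∅, fun h' => absurd h' h⟩
  choose path hpath using hpath
  let X : Finset ε × Finset ε → Finset ε := fun p =>
    symmDiff p.1 p.2 \ path (symmDiff p.1 p.2)
  let Φ : Finset ε × Finset ε → Finset ε × Finset ε := fun p =>
    (symmDiff p.1 (X p), symmDiff p.2 (X p))
  have h4 : ∀ c : ZMod 2, c + c = 0 := CharTwo.add_self_eq_zero
  have hW : ∀ p ∈ NN ×ˢ ZZ, symmDiff p.1 p.2 ⊆ E ∧ ∀ i ∈ Λ,
      bd inc (symmDiff p.1 p.2) i = if i = o then 1 else 0 := by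
    intro p hp
    rw [Finset.mem_product, hNN, hZZ, Finset.mem_filter, Finset.mem_filter,
      Finset.mem_powerset, Finset.mem_powerset] at hp
    refine ⟨Finset.symmDiff_subset_union.trans (Finset.union_subset hp.1.1 hp.2.1),
      fun i hi => ?_⟩
    rw [bd_symmDiff, hp.1.2 i hi, hp.2.2 i hi, add_zero]
  have hXE : ∀ p ∈ NN ×ˢ ZZ, X p ⊆ E := fun p hp => Finset.sdiff_subset.trans (hW p hp).1
  have hXbd : ∀ p ∈ NN ×ˢ ZZ, ∀ i ∈ Λ, bd inc (X p) i = 0 := by
    intro p hp i hi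
    obtain ⟨h1, -, h3⟩ := hpath _ (hW p hp)
    have h5 : X p = symmDiff (symmDiff p.1 p.2) (path (symmDiff p.1 p.2)) := by
      ext e
      have := @h1 e
      simp only [X, Finset.mem_sdiff, Finset.mem_symmDiff] at this ⊢
      tauto
    rw [h5, bd_symmDiff, (hW p hp).2 i hi, h3 i hi, h4]
  have hΦmem : ∀ p ∈ NN ×ˢ ZZ, Φ p ∈ NN ×ˢ ZZ := by
    intro p hp
    have hp' := hp
    rw [Finset.mem_product, hNN, hZZ, Finset.mem_filter, Finset.mem_filter,
      Finset.mem_powerset, Finset.mem_powerset] at hp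
    rw [Finset.mem_product, hNN, hZZ, Finset.mem_filter, Finset.mem_filter,
      Finset.mem_powerset, Finset.mem_powerset]
    refine ⟨⟨Finset.symmDiff_subset_union.trans (Finset.union_subset hp.1.1 (hXE p hp')),
      fun i hi => ?_⟩, ⟨Finset.symmDiff_subset_union.trans
        (Finset.union_subset hp.2.1 (hXE p hp')), fun i hi => ?_⟩⟩
    · show bd inc (symmDiff p.1 (X p)) i = _
      rw [bd_symmDiff, hp.1.2 i hi, hXbd p hp' i hi, add_zero]
    · show bd inc (symmDiff p.2 (X p)) i = _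
      rw [bd_symmDiff, hp.2.2 i hi, hXbd p hp' i hi, add_zero]
  have hΦW : ∀ p, symmDiff (Φ p).1 (Φ p).2 = symmDiff p.1 p.2 := by
    intro p
    ext e
    simp only [Φ, Finset.mem_symmDiff]
    tauto
  have hΦX : ∀ p, X (Φ p) = X p := fun p => by
    show symmDiff (Φ p).1 (Φ p).2 \ path (symmDiff (Φ p).1 (Φ p).2) = _
    rw [hΦW]
  have hΦΦ : ∀ p, Φ (Φ p) = p := by
    intro p
    refine Prod.ext ?_ ?_
    · show symmDiff (symmDiff p.1 (X p)) (X (Φ p)) = p.1
      rw [hΦX]; exact symmDiff_symmDiff_cancel_right _ _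
    · show symmDiff (symmDiff p.2 (X p)) (X (Φ p)) = p.2
      rw [hΦX]; exact symmDiff_symmDiff_cancel_right _ _
  have hprod : ∀ A ⊆ E, ∏ e ∈ A, y e = ∏ e ∈ E, if e ∈ A then y e else 1 := by
    intro A hA
    rw [Finset.prod_ite_mem, Finset.inter_eq_right.mpr hA]
  have hw : ∀ p ∈ NN ×ˢ ZZ, (∏ e ∈ (Φ p).1, y e) * ∏ e ∈ (Φ p).2, y e =
      (∏ e ∈ p.1, y e) * ∏ e ∈ p.2, y e := by
    intro p hp
    have hp1 := hp
    have hp2 := hΦmem p hp
    rw [Finset.mem_product, hNN, hZZ, Finset.mem_filter, Finset.mem_filter,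
      Finset.mem_powerset, Finset.mem_powerset] at hp1 hp2
    rw [hprod _ hp1.1.1, hprod _ hp1.2.1, hprod _ hp2.1.1, hprod _ hp2.2.1,
      ← Finset.prod_mul_distrib, ← Finset.prod_mul_distrib]
    refine Finset.prod_congr rfl fun e _ => ?_
    by_cases hA : e ∈ p.1 <;> by_cases hB : e ∈ p.2 <;>
      by_cases hP : e ∈ path (symmDiff p.1 p.2) <;>
      simp [Φ, X, Finset.mem_symmDiff, hA, hB, hP]
  have hk : ∀ p ∈ NN ×ˢ ZZ, (p.1 ∩ Γ).card ≤ 1 + ((Φ p).2 ∩ Γ).card := by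
    intro p hp
    obtain ⟨h1, h2, -⟩ := hpath _ (hW p hp)
    have h3 : p.1 ∩ Γ ⊆ ((Φ p).2 ∩ Γ) ∪ (path (symmDiff p.1 p.2) ∩ Γ) := by
      intro e he
      simp only [Φ, X, Finset.mem_union, Finset.mem_inter, Finset.mem_symmDiff,
        Finset.mem_sdiff] at he ⊢
      tauto
    have h5 := (Finset.card_le_card h3).trans (Finset.card_union_le _ _)
    omega
  -- rewrite as sums over pairs
  have e1 : s * (∑ A ∈ NN, ∏ e ∈ A, y e) * (∑ B ∈ ZZ, s ^ (B ∩ Γ).card * ∏ e ∈ B, y e) =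
      ∑ p ∈ NN ×ˢ ZZ, s ^ (1 + (p.2 ∩ Γ).card) * ((∏ e ∈ p.1, y e) * ∏ e ∈ p.2, y e) := by
    rw [Finset.sum_product, mul_assoc, Finset.sum_mul_sum, Finset.mul_sum]
    refine Finset.sum_congr rfl fun A _ => ?_
    rw [Finset.mul_sum]
    refine Finset.sum_congr rfl fun B _ => ?_
    rw [pow_add, pow_one]; ring
  have e2 : (∑ A ∈ NN, s ^ (A ∩ Γ).card * ∏ e ∈ A, y e) * (∑ B ∈ ZZ, ∏ e ∈ B, y e) =
      ∑ p ∈ NN ×ˢ ZZ, s ^ (p.1 ∩ Γ).card * ((∏ e ∈ p.1, y e) * ∏ e ∈ p.2, y e) := by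
    rw [Finset.sum_product, Finset.sum_mul_sum]
    refine Finset.sum_congr rfl fun A _ => ?_
    refine Finset.sum_congr rfl fun B _ => ?_
    ring
  have e3 : ∑ p ∈ NN ×ˢ ZZ, s ^ (1 + (p.2 ∩ Γ).card) * ((∏ e ∈ p.1, y e) * ∏ e ∈ p.2, y e) =
      ∑ p ∈ NN ×ˢ ZZ, s ^ (1 + ((Φ p).2 ∩ Γ).card) * ((∏ e ∈ p.1, y e) * ∏ e ∈ p.2, y e) := by
    refine Finset.sum_bij' (fun p _ => Φ p) (fun p _ => Φ p) hΦmem hΦmem
      (fun p _ => hΦΦ p) (fun p _ => hΦΦ p) fun p hp => ?_
    rw [hΦΦ, hw p hp]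
  rw [e1, e2, e3]
  refine Finset.sum_le_sum fun p hp => ?_
  have hp1 := hp
  rw [Finset.mem_product, hNN, hZZ, Finset.mem_filter, Finset.mem_filter,
      Finset.mem_powerset, Finset.mem_powerset] at hp1
  refine mul_le_mul_of_nonneg_right ?_ (mul_nonneg
    (Finset.prod_nonneg fun e he => hy e (hp1.1.1 he))
    (Finset.prod_nonneg fun e he => hy e (hp1.2.1 he)))
  exact pow_le_pow_of_le_one hs0 hs1 (hk p hp)

end Ray

end Vale.Agent.IsingUniv
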