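import Vale.Agent.IsingUniv.Defs

/-!
The question, the identities being required wherever the nearest-neighbour critical limit exists.
-/

namespace Vale.Agent.IsingUniv

/-- The data asked for, for given `J`, `V` and `lam`: an inverse temperature, two nonzero
constants, a choice of the plane states, the stated limits in the plane, and the stated limits in
every bounded domain `D` with free or fixed boundary condition `b` (the limits being asked for
those correlations whose critical nearest-neighbour limit exists). -/
def Admits (J : ℝ) (V : Finset Site → ℝ) (lam : ℝ) : Prop :=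
  ∃ β Zσ Zε : ℝ, 0 < β ∧ Zσ ≠ 0 ∧ Zε ≠ 0 ∧
    (∃ E₀ E : ℝ → (Spins → ℝ) → ℝ,
      (∀ a, IsPlaneState (Kc / J) (inter J V 0) (E₀ a)) ∧
      (∀ a, IsPlaneState β (inter J V lam) (E a)) ∧ Transfers Set.univ E₀ E Zσ Zε) ∧
    ∀ D : Set ℂ, IsOpen D → IsConnected D → Bornology.IsBounded D →
      ∀ b : ℝ → Spins, ((∀ a, IsFree (b a)) ∨ ∀ a, IsFixed (b a)) →
        Transfers D (fun a => gibbs (Kc / J) (inter J V 0) (sites D a) (b a))
          (fun a => gibbs β (inter J V lam) (sites D a) (b a)) Zσ Zε

/-- The question: such data exist for all `J`, `V` and all sufficiently small `lam`. -/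
def Asked : Prop :=
  ∀ J > 0, ∀ V, IsPotential V → ∃ r > 0, ∀ lam, |lam| < r → Admits J V lam

end Vale.Agent.IsingUniv
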