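import Vale.Agent.IsingUniv.Factor

/-!
At `lam = 0` the alternating boundary spins have only a small effect.
-/

open Finset

namespace Vale.Agent.IsingUniv

/-! ### Translation invariance -/

theorem tot_image {α : Type*} [DecidableEq α] {f : α → α} (hf : Function.Injective f)
    (B : Finset α) (F : Finset α → ℝ) :
    tot (B.image f) F = tot B fun S => F (S.image f) := by
  unfold tot
  symm
  refine Finset.sum_bij (fun S _ => S.image f) ?_ ?_ ?_ ?_
  · intro S hS
    rw [Finset.mem_powerset] at hS ⊢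
    exact Finset.image_subset_image hS
  · intro S _ T _ h
    exact Finset.image_injective hf h
  · intro S hS
    rw [Finset.mem_powerset, Finset.subset_image_iff] at hS
    obtain ⟨T, hT, h⟩ := hS
    refine ⟨T, ?_, h⟩
    rw [Finset.mem_powerset]
    exact_mod_cast hT
  · intro S _; rfl

theorem mem_shift {B : Finset Site} {v x : Site} :
    x + v ∈ B.image (fun z => z + v) ↔ x ∈ B := by
  rw [Finset.mem_image]
  constructor
  · rintro ⟨y, hy, h⟩
    rwa [← add_right_cancel h]
  · exact fun h => ⟨x, h, rfl⟩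

theorem energy_shift (J lam : ℝ) (B S : Finset Site) (v : Site) :
    energy (inter J V3 lam) (B.image fun z => z + v) (fun _ => 1) (S.image fun z => z + v) =
      energy (inter J V3 lam) B (fun _ => 1) S := by
  classical
  have hE : edges (B.image fun z => z + v) =
      (edges B).image fun e : Site × Fin 4 => (e.1 + v, e.2) := by
    ext ⟨x, d⟩
    rw [mem_edges]
    constructor
    · intro h
      refine Finset.mem_image.mpr ⟨(x - v, d), ?_, by simp⟩
      rw [mem_edges]
      refine h.imp (fun h => ?_) (fun h => ?_)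
      · rwa [← sub_add_cancel x v, mem_shift] at h
      · have e1 : (x, d).1 + dv (x, d).2 = (x - v + dv d) + v := by
          show x + dv d = _
          abel
        rwa [e1, mem_shift] at h
    · intro hx
      obtain ⟨⟨y, d'⟩, hy, h⟩ := Finset.mem_image.mp hx
      obtain ⟨rfl, rfl⟩ := Prod.mk.inj h
      rw [mem_edges] at hy
      refine hy.imp (fun h => mem_shift.mpr h) (fun h => ?_)
      have e1 : (y + v, d').1 + dv (y + v, d').2 = (y + dv d') + v := by
        show y + v + dv d' = _
        abel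
      rw [e1]
      exact mem_shift.mpr h
  have hext : ∀ x, extend (B.image fun z => z + v) (fun _ => 1) (S.image fun z => z + v)
      (x + v) = extend B (fun _ => 1) S x := by
    intro x
    unfold extend
    simp only [mem_shift]
  rw [energy_edges, energy_edges, hE, Finset.sum_image]
  · refine Finset.sum_congr rfl fun e _ => ?_
    show cf J lam e.2 * (extend _ _ _ (e.1 + v) * extend _ _ _ (e.1 + v + dv e.2)) = _
    rw [add_right_comm, hext, hext]
  · intro e _ f _ h
    obtain ⟨h1, h2⟩ := Prod.mk.inj h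
    exact Prod.ext (add_right_cancel h1) h2

theorem mag_shift (β J lam : ℝ) (B : Finset Site) (v : Site) {o : Site} (ho : o ∈ B) :
    mag β J lam (B.image fun z => z + v) (fun _ => 1) (o + v) =
      mag β J lam B (fun _ => 1) o := by
  rw [mag_wp β J lam _ (mem_shift.mpr ho), mag_wp β J lam B ho,
    tot_image (add_left_injective v), tot_image (add_left_injective v)]
  have h1 : ∀ S : Finset Site, wp β J lam (B.image fun z => z + v) (S.image fun z => z + v) =
      wp β J lam B S := fun S => by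
    unfold wp; rw [energy_shift]
  have h2 : ∀ S : Finset Site, sp (o + v) (S.image fun z => z + v) = sp o S := fun S => by
    unfold sp; simp only [mem_shift]
  simp only [h1, h2]

/-! ### Global flip -/

theorem sp_self {α : Type*} [DecidableEq α] {Λ : Finset α} {i : α} (hi : i ∈ Λ) :
    sp i Λ = -1 := by
  unfold sp; rw [if_pos hi]

theorem chi_self {α : Type*} [DecidableEq α] {Λ T : Finset α} (hT : T ⊆ Λ) :
    chi T Λ = (-1) ^ T.card := by
  unfold chi
  rw [Finset.prod_congr rfl fun i hi => sp_self (hT hi), Finset.prod_const]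

theorem flip_zero (β J lam : ℝ) {Λ T : Finset Site} (hT : T ⊆ Λ) (hodd : Odd T.card) :
    tot Λ (fun S => chi T S * pairs (inner Λ) inc (tc β J lam) S) = 0 := by
  have h := tot_shift (Finset.Subset.refl Λ)
    (fun S => chi T S * pairs (inner Λ) inc (tc β J lam) S)
  have h1 : ∀ S, chi T (symmDiff S Λ) * pairs (inner Λ) inc (tc β J lam) (symmDiff S Λ) =
      -(chi T S * pairs (inner Λ) inc (tc β J lam) S) := by
    intro S
    have h2 : pairs (inner Λ) inc (tc β J lam) (symmDiff S Λ) =
        pairs (inner Λ) inc (tc β J lam) S := by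
      unfold pairs
      refine Finset.prod_congr rfl fun e he => ?_
      rw [chi_symmDiff, chi_self (inc_subset he)]
      have : (inc e).card = 2 := Finset.card_pair (dv_ne e.2 e.1)
      rw [this]; norm_num
    rw [h2, chi_symmDiff, chi_self hT, hodd.neg_one_pow]; ring
  have h3 : tot Λ (fun S => chi T (symmDiff S Λ) *
      pairs (inner Λ) inc (tc β J lam) (symmDiff S Λ)) =
      -tot Λ (fun S => chi T S * pairs (inner Λ) inc (tc β J lam) S) := by
    unfold tot
    rw [← Finset.sum_neg_distrib]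
    exact Finset.sum_congr rfl fun S _ => h1 S
  linarith

/-! ### Geometry -/

/-- Boxes. -/
noncomputable def bx (M : ℤ) : Finset Site := Icc (-M) M ×ˢ Icc (-M) M

theorem mem_bx {M : ℤ} {z : Site} : z ∈ bx M ↔ (-M ≤ z.1 ∧ z.1 ≤ M) ∧ (-M ≤ z.2 ∧ z.2 ≤ M) := by
  unfold bx
  rw [Finset.mem_product, Finset.mem_Icc, Finset.mem_Icc]

/-- The four apexes. -/
def apex (M : ℤ) : Finset Site := {(M, 0), (-M, 0), (0, M), (0, -M)}

theorem mem_apex {M : ℤ} {z : Site} : z ∈ apex M ↔
    z = (M, 0) ∨ z = (-M, 0) ∨ z = (0, M) ∨ z = (0, -M) := by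
  unfold apex
  simp only [Finset.mem_insert, Finset.mem_singleton]

theorem apex_dia {M : ℤ} (hM : 0 ≤ M) : apex M ⊆ dia M := by
  intro z hz
  rw [mem_apex] at hz
  rw [mem_dia]
  rcases hz with rfl | rfl | rfl | rfl <;> simp [abs_of_nonneg hM]

theorem dia_bx {M : ℤ} {z : Site} (hz : z ∈ dia M) :
    (-M ≤ z.1 ∧ z.1 ≤ M) ∧ (-M ≤ z.2 ∧ z.2 ≤ M) := by
  rw [mem_dia] at hz
  have h1 := abs_nonneg z.1
  have h2 := abs_nonneg z.2
  exact ⟨abs_le.mp (by omega), abs_le.mp (by omega)⟩

theorem dv_bound (d : Fin 4) : (0 ≤ (dv d).1 ∧ (dv d).1 ≤ 3) ∧ (0 ≤ (dv d).2 ∧ (dv d).2 ≤ 3) := by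
  fin_cases d <;> simp [dv]

theorem mem_box_shift {m : ℤ} {τ z : Site} : z ∈ (bx m).image (fun x => x + τ) ↔
    (-m ≤ z.1 - τ.1 ∧ z.1 - τ.1 ≤ m) ∧ (-m ≤ z.2 - τ.2 ∧ z.2 - τ.2 ≤ m) := by
  have : z = (z - τ) + τ := by abel
  rw [this, mem_shift, mem_bx]
  simp

theorem far {m M : ℤ} (hmM : 2 * m + 4 ≤ M) {τ u w : Site} (hτ : τ ∈ apex M) (hu : u ∈ bx m)
    (hw : w ∈ (bx m).image (fun x => x + τ)) :
    (4 ≤ w.1 - u.1 ∨ 4 ≤ u.1 - w.1) ∨ (4 ≤ w.2 - u.2 ∨ 4 ≤ u.2 - w.2) := by
  rw [mem_apex] at hτ
  rw [mem_bx] at hu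
  rw [mem_box_shift] at hw
  rcases hτ with rfl | rfl | rfl | rfl <;> simp only at hw <;> omega

theorem sep {m M : ℤ} (hmM : 2 * m + 4 ≤ M) {τ : Site} (hτ : τ ∈ apex M) :
    ∀ e, e ∈ edges (bx m) → e ∉ edges ((bx m).image fun x => x + τ) := by
  intro e h1 h2
  rw [mem_edges] at h1 h2
  have hb := dv_bound e.2
  rcases h1 with h1 | h1 <;> rcases h2 with h2 | h2
  · have := far hmM hτ h1 h2
    omega
  · have := far hmM hτ h1 h2
    simp only [Prod.fst_add, Prod.snd_add] at this
    omega
  · have := far hmM hτ h1 h2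
    simp only [Prod.fst_add, Prod.snd_add] at this
    omega
  · have := far hmM hτ h1 h2
    omega

theorem in_big {m M : ℤ} (hm : 0 ≤ m) (hmM : 2 * m + 4 ≤ M) {τ : Site} (hτ : τ ∈ apex M)
    {z : Site} (hz : z ∈ bx m ∪ (bx m).image (fun x => x + τ)) :
    (-(2 * M - 3) ≤ z.1 ∧ z.1 ≤ 2 * M - 3) ∧ (-(2 * M - 3) ≤ z.2 ∧ z.2 ≤ 2 * M - 3) := by
  rw [Finset.mem_union, mem_bx, mem_box_shift] at hz
  rw [mem_apex] at hτ
  rcases hτ with rfl | rfl | rfl | rfl <;> simp only at hz <;> omega

theorem edges_big {m M : ℤ} (hm : 0 ≤ m) (hmM : 2 * m + 4 ≤ M) {τ : Site} (hτ : τ ∈ apex M) :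
    ∀ e ∈ edges (bx m ∪ (bx m).image fun x => x + τ),
      e.1 ∈ bx (2 * M) ∧ e.1 + dv e.2 ∈ bx (2 * M) := by
  intro e he
  rw [mem_edges] at he
  rw [mem_bx, mem_bx]
  have hb := dv_bound e.2
  simp only [Prod.fst_add, Prod.snd_add]
  rcases he with h | h
  · have := in_big hm hmM hτ h
    omega
  · have := in_big hm hmM hτ h
    simp only [Prod.fst_add, Prod.snd_add] at this
    omega

theorem apex_out {m M : ℤ} (hm : 0 ≤ m) (hmM : 2 * m + 4 ≤ M) {τ ρ : Site} (hτ : τ ∈ apex M)
    (hρ : ρ ∈ apex M) (hne : ρ ≠ τ) : ρ ∉ bx m ∪ (bx m).image (fun x => x + τ) := by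
  rw [Finset.mem_union, mem_bx, mem_box_shift]
  rw [mem_apex] at hτ hρ
  rcases hτ with rfl | rfl | rfl | rfl <;> rcases hρ with rfl | rfl | rfl | rfl <;>
    first | exact absurd rfl hne | (simp only; omega)

/-! ### The bound -/

/-- The bound for the contribution of each set of apexes. -/
theorem apex_term {β J : ℝ} (hβ : 0 ≤ β) (hJ : 0 ≤ J) {m M : ℤ} (hm : 0 ≤ m)
    (hmM : 2 * m + 4 ≤ M) {T : Finset Site} (hT : T ⊆ apex M) :
    tot (dia M) (fun S => chi (insert 0 T) S * pairs (inner (dia M)) inc (tc β J 0) S) ≤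
      mag β J 0 (bx m) (fun _ => 1) 0 ^ 2 * tot (dia M) (pairs (inner (dia M)) inc (tc β J 0)) := by
  have hM : 0 ≤ M := by omega
  have h0T : (0 : Site) ∉ T := by
    intro h
    have := hT h
    rw [mem_apex] at this
    simp only [Prod.ext_iff, Prod.fst_zero, Prod.snd_zero] at this
    omega
  have h0 : (0 : Site) ∈ dia M := by rw [mem_dia]; simpa using hM
  have hC : insert 0 T ⊆ dia M := Finset.insert_subset h0 (hT.trans (apex_dia hM))
  have hpos : 0 ≤ tot (dia M) (pairs (inner (dia M)) inc (tc β J 0)) :=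
    (pairs_pos fun e _ => tc_nonneg hβ hJ le_rfl e).tot_nonneg _
  rcases Nat.even_or_odd T.card with hev | hodd
  · rw [flip_zero β J 0 hC (by rw [Finset.card_insert_of_notMem h0T]; exact hev.add_one)]
    exact mul_nonneg (sq_nonneg _) hpos
  · obtain ⟨τ, hτT⟩ : T.Nonempty := Finset.card_pos.mp hodd.pos
    have hτ := hT hτT
    have h0b : (0 : Site) ∈ bx m := by rw [mem_bx]; simp [hm]
    have hτb : τ ∈ (bx m).image (fun x => x + τ) := by
      have := (mem_shift (v := τ)).mpr h0b
      rwa [zero_add] at this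
    have hb1 : bx m ⊆ bx (2 * M) := by
      intro z hz; rw [mem_bx] at hz ⊢; omega
    have hb2 : (bx m).image (fun x => x + τ) ⊆ bx (2 * M) := by
      intro z hz
      have := in_big hm hmM hτ (Finset.mem_union_right _ hz)
      rw [mem_bx]; omega
    have hb3 : dia M ⊆ bx (2 * M) := by
      intro z hz
      have := dia_bx hz
      rw [mem_bx]; omega
    have h := two_point (o := 0) (τ := τ) hβ hJ (le_refl (0 : ℝ)) hb3 hb1 hb2
      (edges_big hm hmM hτ) (sep hmM hτ) hC h0b hτb ?_
    · have h2 := mag_shift β J 0 (bx m) τ h0b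
      rw [zero_add] at h2
      rw [h2, ← sq] at h
      exact h
    · intro S hS
      unfold chi
      rw [Finset.prod_insert h0T]
      congr 1
      rw [Finset.prod_eq_single_of_mem τ hτT]
      intro ρ hρ hne
      unfold sp
      rw [if_neg fun h => apex_out hm hmM hτ (hT hρ) hne (hS h)]

theorem zero_bound {β J : ℝ} (hβ : 0 ≤ β) (hJ : 0 ≤ J) {m M : ℤ} (hm : 0 ≤ m)
    (hmM : 2 * m + 4 ≤ M) {b : Spins}
    (hb : ∀ z, z ∉ dia M → (vI M z.1 z.2 : ℝ) = b z) :
    0 ≤ mag β J 0 (dia M) b 0 ∧
      mag β J 0 (dia M) b 0 ≤ 16 * mag β J 0 (bx m) (fun _ => 1) 0 ^ 2 := by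
  classical
  have hM : 0 ≤ M := by omega
  have hM2 : 2 ≤ M := by omega
  have h0 : (0 : Site) ∈ dia M := by rw [mem_dia]; simpa using hM
  have hf := fields_dia (lam := 0) hJ le_rfl hM2 (fun z hz => (hb z hz).le)
  have hnn : 0 ≤ mag β J 0 (dia M) b 0 := by
    rw [mag_eq_mt β J 0 (dia M) b h0]
    exact mt_nonneg hβ hJ le_rfl (fun i hi => tf_nonneg hβ (hf i hi).1) 0
  refine ⟨hnn, ?_⟩
  -- fields only at the apexes
  set t4 : Site → ℝ := fun i => if i ∈ apex M then 1 else 0 with ht4
  have h40 : ∀ i ∈ dia M, 0 ≤ t4 i := fun i _ => by rw [ht4]; positivity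
  have h41 : ∀ i ∈ dia M, t4 i ≤ 1 := fun i _ => by
    rw [ht4]; beta_reduce; split_ifs <;> norm_num
  have hout : ∀ z : Site, out (dia M) b z = (vI M z.1 z.2 : ℝ) := by
    intro z
    unfold out
    split_ifs with h
    · exact (vI_dia h).symm
    · exact (hb z h).symm
  have hfle : ∀ i ∈ dia M, 1 * tf β J 0 (dia M) b i ≤ t4 i := by
    intro i hi
    rw [one_mul, ht4]
    beta_reduce
    split_ifs with h
    · exact tf_le _ _ _ _ _ _
    · have h1 : fld J 0 (dia M) b i = 0 := by
        have h2 : nb 1 M i.1 i.2 = 0 := by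
          rw [mem_dia] at hi
          by_cases hlt : |i.1| + |i.2| ≤ M - 1
          · exact nb1_in hlt
          · have hE : |i.1| + |i.2| = M := by omega
            refine (nb1 hM2 i.1 i.2 hi).2 (fun h3 => h ?_) (fun h3 => h ?_)
            · rw [h3, abs_zero, zero_add] at hE
              rw [mem_apex]
              rcases abs_choice i.2 with h4 | h4
              · right; right; left; exact Prod.ext h3 (by rw [← hE, h4])
              · right; right; right; exact Prod.ext h3 (by
                  show i.2 = -M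
                  rw [← hE, h4]; ring)
            · rw [h3, abs_zero, add_zero] at hE
              rw [mem_apex]
              rcases abs_choice i.1 with h4 | h4
              · left; exact Prod.ext (by rw [← hE, h4]) h3
              · right; left; exact Prod.ext (by
                  show i.1 = -M
                  rw [← hE, h4]; ring) h3
        rw [fld_eq, show out (dia M) b = fun z => (vI M z.1 z.2 : ℝ) from funext hout,
          ← nb_cast, h2]
        push_cast
        ring
      unfold tf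
      rw [h1, mul_zero, Real.tanh_zero]
  have hle : mag β J 0 (dia M) b 0 ≤ mt β J 0 (dia M) t4 0 := by
    rw [mag_eq_mt β J 0 (dia M) b h0]
    have := mt_ray hβ hJ (le_refl (0 : ℝ)) (fun i hi => tf_nonneg hβ (hf i hi).1) h41 h0
      zero_le_one le_rfl hfle
    rwa [one_mul] at this
  refine hle.trans ?_
  -- expansion over the sets of apexes
  set w := pairs (inner (dia M)) inc (tc β J 0) with hw
  have hwp : Pos w := pairs_pos fun e _ => tc_nonneg hβ hJ le_rfl e
  have hgh : ∀ S, ghost (dia M) t4 S = ∑ T ∈ (apex M).powerset, chi T S := by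
    intro S
    have h1 : ghost (dia M) t4 S = ∏ i ∈ apex M, (1 + sp i S) := by
      unfold ghost
      rw [← Finset.prod_sdiff (apex_dia hM)]
      have h2 : ∏ i ∈ dia M \ apex M, (1 + t4 i * sp i S) = 1 :=
        Finset.prod_eq_one fun i hi => by
          rw [ht4]; beta_reduce
          rw [if_neg (Finset.mem_sdiff.mp hi).2]; ring
      rw [h2, one_mul]
      refine Finset.prod_congr rfl fun i hi => ?_
      rw [ht4]; beta_reduce
      rw [if_pos hi, one_mul]
    rw [h1, Finset.prod_one_add]
    rfl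
  have h0a : ∀ T ∈ (apex M).powerset, (0 : Site) ∉ T := by
    intro T hT h
    have := Finset.mem_powerset.mp hT h
    rw [mem_apex] at this
    simp only [Prod.ext_iff, Prod.fst_zero, Prod.snd_zero] at this
    omega
  have hnum : tot (dia M) (fun S => sp 0 S * pg β J 0 (dia M) t4 S) =
      ∑ T ∈ (apex M).powerset, tot (dia M) (fun S => chi (insert 0 T) S * w S) := by
    unfold tot
    rw [Finset.sum_comm]
    refine Finset.sum_congr rfl fun S _ => ?_
    unfold pg
    beta_reduce
    rw [hgh, Finset.mul_sum, Finset.mul_sum]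
    refine Finset.sum_congr rfl fun T hT => ?_
    have : chi (insert 0 T) S = sp 0 S * chi T S := by
      unfold chi
      rw [Finset.prod_insert (h0a T hT)]
    rw [this]; ring
  have hden : tot (dia M) w ≤ tot (dia M) (pg β J 0 (dia M) t4) := by
    have h1 : tot (dia M) (pg β J 0 (dia M) t4) =
        ∑ T ∈ (apex M).powerset, tot (dia M) (fun S => chi T S * w S) := by
      unfold tot
      rw [Finset.sum_comm]
      refine Finset.sum_congr rfl fun S _ => ?_
      unfold pg
      rw [hgh, Finset.mul_sum]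
      exact Finset.sum_congr rfl fun T _ => by ring
    rw [h1]
    refine le_trans (le_of_eq ?_) (Finset.single_le_sum
      (f := fun T => tot (dia M) (fun S => chi T S * w S))
      (fun T _ => ((Pos.chi T).mul hwp).tot_nonneg _) (Finset.empty_mem_powerset _))
    simp only [chi_empty, one_mul]
  have hwpos : 0 ≤ tot (dia M) w := hwp.tot_nonneg _
  have hnum2 : tot (dia M) (fun S => sp 0 S * pg β J 0 (dia M) t4 S) ≤
      16 * mag β J 0 (bx m) (fun _ => 1) 0 ^ 2 * tot (dia M) w := by
    rw [hnum]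
    refine (Finset.sum_le_sum fun T hT => apex_term hβ hJ hm hmM
      (Finset.mem_powerset.mp hT)).trans ?_
    rw [Finset.sum_const, nsmul_eq_mul, Finset.card_powerset, mul_assoc]
    refine mul_le_mul_of_nonneg_right ?_ (mul_nonneg (sq_nonneg _) hwpos)
    have hc : (apex M).card ≤ 4 := Finset.card_le_four
    have : (2 : ℝ) ^ (apex M).card ≤ (2 : ℝ) ^ 4 := pow_le_pow_right₀ (by norm_num) hc
    push_cast
    linarith
  unfold mt
  rw [div_le_iff₀ (mt_pos_den hβ hJ le_rfl h40)]
  exact hnum2.trans (mul_le_mul_of_nonneg_left hden (by positivity))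

end Vale.Agent.IsingUniv
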