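import Vale.Agent.IsingUniv.Domains
import Vale.Agent.IsingUniv.Zero
import Vale.Agent.IsingUniv.Pointwise

/-!
Assembly for the pointwise reading.
-/

open Finset Filter Topology

namespace Vale.Agent.IsingUniv

theorem sites_square {a : ℝ} (ha : 0 < a) : sites square a = bx (⌈1 / a⌉ - 1) := by
  ext x
  rw [mem_sites (D := square) (fun z hz => hz) ha, mem_bx]
  have key : ∀ k : ℤ, |a * (k : ℝ)| < 1 ↔ -(⌈1 / a⌉ - 1) ≤ k ∧ k ≤ ⌈1 / a⌉ - 1 := by
    intro k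
    rw [abs_mul, abs_of_pos ha, ← abs_le, Int.le_sub_one_iff, Int.lt_ceil, lt_div_iff₀ ha,
      mul_comm]
    push_cast
    rfl
  show |a * (x.1 : ℝ)| < 1 ∧ |a * (x.2 : ℝ)| < 1 ↔ _
  rw [key, key]

/-- The boundary spins: alternating along the four sides. -/
noncomputable def bI (a : ℝ) : Spins := fun z =>
  if z ∈ dia (⌈1 / a⌉ - 1) then 1 else (vI (⌈1 / a⌉ - 1) z.1 z.2 : ℝ)

theorem bI_out (a : ℝ) (z : Site) (hz : z ∉ dia (⌈1 / a⌉ - 1)) :
    (vI (⌈1 / a⌉ - 1) z.1 z.2 : ℝ) = bI a z := by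
  unfold bI; rw [if_neg hz]

theorem bI_fixed (a : ℝ) : IsFixed (bI a) := by
  intro z
  unfold bI
  split_ifs with h
  · exact Or.inl rfl
  · rw [mem_dia] at h
    unfold vI
    rw [if_neg h]
    split_ifs
    · right; push_cast; rfl
    · left; push_cast; rfl

theorem near_zero (a : ℝ) : near a 0 = 0 := by
  unfold near
  simp only [Complex.zero_re, Complex.zero_im, zero_div, Int.floor_zero]
  rfl

theorem zero_limit {c : ℝ}
    (h : Tendsto (fun a : ℝ => a ^ (-(1 / 8) : ℝ) *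
      gibbs Kc (inter 1 (fun _ => 0) 0) (sites square a) (plus a) (fun σ => σ (near a 0)))
      (𝓝[>] 0) (𝓝 c)) :
    Tendsto (fun a : ℝ => a ^ (-(1 / 8) : ℝ) *
      gibbs Kc (inter 1 (fun _ => 0) 0) (sites diamond a) (bI a) (fun σ => σ (near a 0)))
      (𝓝[>] 0) (𝓝 0) := by
  have hK : 0 ≤ Kc := by
    unfold Kc
    refine div_nonneg (Real.log_nonneg ?_) (by norm_num)
    linarith [Real.sqrt_nonneg 2]
  have hmul : Tendsto (fun a : ℝ => 4 * a) (𝓝[>] 0) (𝓝[>] 0) := by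
    refine tendsto_nhdsWithin_iff.mpr ⟨?_, ?_⟩
    · have : Tendsto (fun a : ℝ => 4 * a) (𝓝 0) (𝓝 (4 * 0)) := tendsto_id.const_mul 4
      rw [mul_zero] at this
      exact this.mono_left nhdsWithin_le_nhds
    · filter_upwards [self_mem_nhdsWithin] with a ha
      have ha' : (0 : ℝ) < a := ha
      show (0 : ℝ) < 4 * a
      linarith
  have h4 := h.comp hmul
  have hpow : Tendsto (fun a : ℝ => a ^ (1 / 8 : ℝ)) (𝓝[>] 0) (𝓝 0) := by
    have := (Real.continuous_rpow_const (q := 1 / 8) (by norm_num)).tendsto 0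
    rw [Real.zero_rpow (by norm_num)] at this
    exact this.mono_left nhdsWithin_le_nhds
  have hub := ((hpow.mul (h4.mul h4)).const_mul (16 * (4 : ℝ) ^ (1 / 4 : ℝ)))
  rw [zero_mul, mul_zero] at hub
  have hev : ∀ᶠ a : ℝ in 𝓝[>] 0, 0 < a ∧ a < 1 / 20 := by
    refine Filter.Eventually.and self_mem_nhdsWithin ?_
    exact nhdsWithin_le_nhds (gt_mem_nhds (by norm_num))
  have key : ∀ᶠ a : ℝ in 𝓝[>] 0, 0 ≤ a ^ (-(1 / 8) : ℝ) *
      gibbs Kc (inter 1 (fun _ => 0) 0) (sites diamond a) (bI a) (fun σ => σ (near a 0)) ∧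
      a ^ (-(1 / 8) : ℝ) *
      gibbs Kc (inter 1 (fun _ => 0) 0) (sites diamond a) (bI a) (fun σ => σ (near a 0)) ≤
      16 * (4 : ℝ) ^ (1 / 4 : ℝ) * (a ^ (1 / 8 : ℝ) *
        (((fun a : ℝ => a ^ (-(1 / 8) : ℝ) * gibbs Kc (inter 1 (fun _ => 0) 0)
          (sites square a) (plus a) (fun σ => σ (near a 0))) ∘ fun a : ℝ => 4 * a) a *
        ((fun a : ℝ => a ^ (-(1 / 8) : ℝ) * gibbs Kc (inter 1 (fun _ => 0) 0)
          (sites square a) (plus a) (fun σ => σ (near a 0))) ∘ fun a : ℝ => 4 * a) a)) := by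
    filter_upwards [hev] with a ha
    obtain ⟨ha0, ha1⟩ := ha
    have h4a : 0 < 4 * a := by linarith
    have hceil1 : (1 / a : ℝ) ≤ ⌈1 / a⌉ := Int.le_ceil _
    have hceil2 : (⌈1 / (4 * a)⌉ : ℝ) < 1 / (4 * a) + 1 := Int.ceil_lt_add_one _
    have hceil3 : 0 < ⌈1 / (4 * a)⌉ := Int.ceil_pos.mpr (by positivity)
    have hinv : 20 < 1 / a := by
      rw [lt_div_iff₀ ha0]; linarith
    have hquarter : 1 / (4 * a) = (1 / a) / 4 := by field_simp
    have hmM : 2 * (⌈1 / (4 * a)⌉ - 1) + 4 ≤ ⌈1 / a⌉ - 1 := by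
      have : (2 * (⌈1 / (4 * a)⌉ - 1) + 4 : ℝ) ≤ ⌈1 / a⌉ - 1 := by
        rw [hquarter] at hceil2 ⊢
        linarith
      exact_mod_cast this
    obtain ⟨z1, z2⟩ := zero_bound hK (zero_le_one : (0 : ℝ) ≤ 1)
      (m := ⌈1 / (4 * a)⌉ - 1) (by omega) hmM (bI_out a)
    have e1 : gibbs Kc (inter 1 (fun _ => 0) 0) (sites diamond a) (bI a)
        (fun σ => σ (near a 0)) = mag Kc 1 0 (dia (⌈1 / a⌉ - 1)) (bI a) 0 := by
      rw [sites_diamond ha0, near_zero]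
      unfold mag
      rw [inter_zero 1 (fun _ => 0) V3]
    have e2 : gibbs Kc (inter 1 (fun _ => 0) 0) (sites square (4 * a)) (plus (4 * a))
        (fun σ => σ (near (4 * a) 0)) =
        mag Kc 1 0 (bx (⌈1 / (4 * a)⌉ - 1)) (fun _ => 1) 0 := by
      rw [sites_square h4a, near_zero]
      unfold mag
      rw [inter_zero 1 (fun _ => 0) V3]
      rfl
    rw [e1]
    have hp := Real.rpow_pos_of_pos ha0 (-(1 / 8) : ℝ)
    refine ⟨mul_nonneg hp.le z1, ?_⟩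
    simp only [Function.comp]
    rw [e2]
    refine (mul_le_mul_of_nonneg_left z2 hp.le).trans (le_of_eq ?_)
    have r1 : (4 * a) ^ (-(1 / 8) : ℝ) = (4 : ℝ) ^ (-(1 / 8) : ℝ) * a ^ (-(1 / 8) : ℝ) :=
      Real.mul_rpow (by norm_num) ha0.le
    have r2 : (4 : ℝ) ^ (1 / 4 : ℝ) * ((4 : ℝ) ^ (-(1 / 8) : ℝ) * (4 : ℝ) ^ (-(1 / 8) : ℝ)) =
        1 := by
      rw [← Real.rpow_add (by norm_num), ← Real.rpow_add (by norm_num)]
      norm_num
    have r3 : a ^ (1 / 8 : ℝ) * a ^ (-(1 / 8) : ℝ) = 1 := by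
      rw [← Real.rpow_add ha0]
      norm_num
    rw [r1]
    calc a ^ (-(1 / 8) : ℝ) * (16 * mag Kc 1 0 (bx (⌈1 / (4 * a)⌉ - 1)) (fun _ => 1) 0 ^ 2)
        = 16 * ((4 : ℝ) ^ (1 / 4 : ℝ) * ((4 : ℝ) ^ (-(1 / 8) : ℝ) * (4 : ℝ) ^ (-(1 / 8) : ℝ))) *
          ((a ^ (1 / 8 : ℝ) * a ^ (-(1 / 8) : ℝ)) * a ^ (-(1 / 8) : ℝ) *
          mag Kc 1 0 (bx (⌈1 / (4 * a)⌉ - 1)) (fun _ => 1) 0 ^ 2) := by
          rw [r2, r3]; ring
      _ = _ := by ring
  exact tendsto_of_tendsto_of_tendsto_of_le_of_le' tendsto_const_nhds hub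
    (key.mono fun a h => h.1) (key.mono fun a h => h.2)

theorem zero_mem_diamond : (0 : ℂ) ∈ diamond := by
  show |(0 : ℂ).re| + |(0 : ℂ).im| < 1
  simp

theorem no_data_pointwise
    (h : ∃ c ≠ 0, Converges (critical square plus) (fun _ : Fin 1 => 0) Fin.elim0 Fin.elim0 c)
    {J lam : ℝ} (hJ : 0 < J) (hl : 0 < lam) : ¬ Admits J V3 lam := by
  rintro ⟨β, Zσ, Zε, hβ, hZσ, hZε, -, hdom⟩
  obtain ⟨c, hc, hconv⟩ := h
  have hs := hdom square square_open square_connected square_bounded plus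
    (Or.inr fun a x => Or.inl rfl)
  have hd := hdom diamond diamond_open diamond_connected diamond_bounded bI
    (Or.inr bI_fixed)
  rw [critical_eq hJ.ne'] at hs hd
  have hzero : Converges (critical diamond bI) (fun _ : Fin 1 => 0) Fin.elim0 Fin.elim0 0 := by
    unfold critical at hconv ⊢
    rw [converges_one] at hconv ⊢
    exact zero_limit hconv
  have t1 := hs 1 0 _ _ _ (distinct_one (abs_mem_square zero_mem_diamond)) c hconv
  have t2 := hd 1 0 _ _ _ (distinct_one zero_mem_diamond) 0 hzero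
  rw [converges_one] at t1 t2
  rw [pow_one, pow_zero, mul_one] at t1 t2
  rw [mul_zero] at t2
  obtain ⟨k1, k2⟩ := compare hβ hJ hl (fun a z hz => (bI_out a z hz).le) zero_mem_diamond t1 t2
  have hκ : 0 < Real.tanh (β * lam) * Real.tanh (β * J) :=
    mul_pos (tanh_pos' (mul_pos hβ hl)) (tanh_pos' (mul_pos hβ hJ))
  have k3 : Zσ * c ≠ 0 := mul_ne_zero hZσ hc
  have k4 : 0 < Zσ * c := lt_of_le_of_ne k1 k3.symm
  exact absurd k2 (not_le.mpr (mul_pos hκ k4))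

end Vale.Agent.IsingUniv
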