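import Vale.Agent.IsingUniv.Domains

/-!
Assembly for the uniform reading.
-/

open Finset Filter Topology

namespace Vale.Agent.IsingUniv

theorem no_data
    (h₁ : HasLimits square (critical square plus))
    (h₂ : ∃ c₀ > 0, ∀ x ∈ square, ∀ c,
      Converges (critical square plus) (fun _ : Fin 1 => x) Fin.elim0 Fin.elim0 c → c₀ ≤ c)
    (h₃ : HasLimits diamond (critical diamond side))
    (h₄ : ∀ ε > 0, ∃ x ∈ diamond, ∃ c < ε,
      Converges (critical diamond side) (fun _ : Fin 1 => x) Fin.elim0 Fin.elim0 c)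
    {J lam : ℝ} (hJ : 0 < J) (hl : 0 < lam) : ¬ HasData J V3 lam := by
  rintro ⟨β, Zσ, Zε, hβ, hZσ, hZε, -, hdom⟩
  have hs := hdom square square_open square_connected square_bounded plus
    (Or.inr fun a x => Or.inl rfl)
  have hd := hdom diamond diamond_open diamond_connected diamond_bounded side
    (Or.inr side_fixed)
  rw [critical_eq hJ.ne'] at hs hd
  obtain ⟨c₀, hc₀, hlow⟩ := h₂
  have hκ : 0 < Real.tanh (β * lam) * Real.tanh (β * J) :=
    mul_pos (tanh_pos' (mul_pos hβ hl)) (tanh_pos' (mul_pos hβ hJ))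
  obtain ⟨x, hx, c', hc', hconv'⟩ := h₄ (Real.tanh (β * lam) * Real.tanh (β * J) * c₀)
    (mul_pos hκ hc₀)
  obtain ⟨c, hc⟩ := h₁ 1 0 (fun _ => x) Fin.elim0 Fin.elim0 (distinct_one (abs_mem_square hx))
  have hc0 := hlow x (abs_mem_square hx) c hc
  have t1 := hs h₁ 1 0 _ _ _ (distinct_one (abs_mem_square hx)) c hc
  have t2 := hd h₃ 1 0 _ _ _ (distinct_one hx) c' hconv'
  rw [converges_one] at t1 t2
  rw [pow_one, pow_zero, mul_one] at t1 t2
  obtain ⟨k1, k2⟩ := compare hβ hJ hl side_ge hx t1 t2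
  have hcpos : 0 < c := hc₀.trans_le hc0
  have hZ : 0 < Zσ := by
    rcases lt_or_gt_of_ne hZσ with h | h
    · exact absurd k1 (not_le.mpr (mul_neg_of_neg_of_pos h hcpos))
    · exact h
  have k3 : Zσ * (Real.tanh (β * lam) * Real.tanh (β * J) * c) ≤ Zσ * c' := by
    linarith
  have k4 := le_of_mul_le_mul_left k3 hZ
  have k5 := mul_le_mul_of_nonneg_left hc0 hκ.le
  linarith

end Vale.Agent.IsingUniv
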