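import Vale.Agent.IsingUniv.Ray
import Vale.Agent.IsingUniv.Defs

/-!
The ferromagnet with couplings `J` at distance one and `lam` at distance three along the axes.
-/

open Finset

namespace Vale.Agent.IsingUniv

open Classical in
/-- The pair potential at distance three along the axes. -/
noncomputable def V3 (A : Finset Site) : ℝ :=
  if ∃ x, A = {x, x + (3, 0)} ∨ A = {x, x + (0, 3)} then 1 else 0

/-- Directions. -/
def dv : Fin 4 → Site := ![(1, 0), (0, 1), (3, 0), (0, 3)]

/-- Strengths. -/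
def cf (J lam : ℝ) : Fin 4 → ℝ := ![J, J, lam, lam]

/-- Endpoints of an edge. -/
def inc (e : Site × Fin 4) : Finset Site := {e.1, e.1 + dv e.2}

theorem dv_ne (d : Fin 4) (x : Site) : x ≠ x + dv d := by
  intro h
  have : dv d = 0 := by simpa using h.symm
  fin_cases d <;> simp [dv] at this

theorem inc_inj {e f : Site × Fin 4} (h : inc e = inc f) : e = f := by
  obtain ⟨⟨x1, x2⟩, d⟩ := e
  obtain ⟨⟨y1, y2⟩, d'⟩ := f
  have h1 : ((x1, x2) : Site) ∈ inc ((y1, y2), d') := by rw [← h]; simp [inc]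
  have h2 : ((x1, x2) : Site) + dv d ∈ inc ((y1, y2), d') := by rw [← h]; simp [inc]
  have h3 : ((y1, y2) : Site) ∈ inc ((x1, x2), d) := by rw [h]; simp [inc]
  have h4 : ((y1, y2) : Site) + dv d' ∈ inc ((x1, x2), d) := by rw [h]; simp [inc]
  simp only [inc, Finset.mem_insert, Finset.mem_singleton] at h1 h2 h3 h4
  fin_cases d <;> fin_cases d' <;> simp [dv, Prod.ext_iff] at h1 h2 h3 h4 ⊢ <;> omega

/-- Edges meeting `Λ`. -/
def edges (Λ : Finset Site) : Finset (Site × Fin 4) :=
  (Λ ×ˢ univ) ∪ (Λ ×ˢ univ).image fun e : Site × Fin 4 => (e.1 - dv e.2, e.2)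

theorem mem_edges {Λ : Finset Site} {e : Site × Fin 4} :
    e ∈ edges Λ ↔ e.1 ∈ Λ ∨ e.1 + dv e.2 ∈ Λ := by
  unfold edges
  rw [Finset.mem_union, Finset.mem_image, Finset.mem_product]
  constructor
  · rintro (h | ⟨f, hf, rfl⟩)
    · exact Or.inl h.1
    · right
      simpa using (Finset.mem_product.mp hf).1
  · rintro (h | h)
    · exact Or.inl ⟨h, Finset.mem_univ _⟩
    · right
      exact ⟨(e.1 + dv e.2, e.2), Finset.mem_product.mpr ⟨h, Finset.mem_univ _⟩, by simp⟩

theorem inter_inc (J lam : ℝ) (e : Site × Fin 4) : inter J V3 lam (inc e) = cf J lam e.2 := by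
  have key : ∀ d : Fin 4, (∃ x : Site, inc e = {x, x + dv d}) ↔ e.2 = d := by
    intro d
    constructor
    · rintro ⟨x, hx⟩
      have : e = (x, d) := inc_inj hx
      rw [this]
    · rintro rfl
      exact ⟨e.1, rfl⟩
  have k0 := key 0
  have k1 := key 1
  have k2 := key 2
  have k3 := key 3
  simp only [dv, Matrix.cons_val_zero, Matrix.cons_val_one, Matrix.cons_val] at k0 k1 k2 k3
  unfold inter V3
  simp only [exists_or, k0, k1, k2, k3]
  obtain ⟨x, d⟩ := e
  fin_cases d <;> simp [cf]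

theorem inter_ne (J lam : ℝ) {A : Finset Site} (h : inter J V3 lam A ≠ 0) : ∃ e, A = inc e := by
  by_contra hcon
  push Not at hcon
  apply h
  unfold inter V3
  rw [if_neg, if_neg]
  · simp
  · rintro ⟨x, hx | hx⟩
    · exact hcon (x, 2) hx
    · exact hcon (x, 3) hx
  · rintro ⟨x, hx | hx⟩
    · exact hcon (x, 0) hx
    · exact hcon (x, 1) hx

theorem energy_edges (J lam : ℝ) (Λ : Finset Site) (b : Spins) (S : Finset Site) :
    energy (inter J V3 lam) Λ b S =
      ∑ e ∈ edges Λ, cf J lam e.2 * (extend Λ b S e.1 * extend Λ b S (e.1 + dv e.2)) := by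
  classical
  unfold energy
  rw [finsum_mem_eq_sum_of_inter_support_eq (t := (edges Λ).image inc), Finset.sum_image]
  · refine Finset.sum_congr rfl fun e _ => ?_
    rw [inter_inc]
    congr 1
    show ∏ x ∈ ({e.1, e.1 + dv e.2} : Finset Site), _ = _
    rw [Finset.prod_pair (dv_ne e.2 e.1)]
  · intro e _ f _ h
    exact inc_inj h
  · ext A
    simp only [Set.mem_inter_iff, Set.mem_setOf_eq, Function.mem_support, Finset.coe_image,
      Set.mem_image, Finset.mem_coe]
    constructor
    · rintro ⟨⟨x, hxA, hx⟩, hne⟩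
      refine ⟨?_, hne⟩
      obtain ⟨e, rfl⟩ := inter_ne J lam (left_ne_zero_of_mul hne)
      refine ⟨e, mem_edges.mpr ?_, rfl⟩
      simp only [inc, Finset.mem_insert, Finset.mem_singleton] at hxA
      rcases hxA with rfl | rfl
      · exact Or.inl hx
      · exact Or.inr hx
    · rintro ⟨⟨e, he, rfl⟩, hne⟩
      refine ⟨?_, hne⟩
      rcases mem_edges.mp he with h | h
      · exact ⟨e.1, by simp [inc], h⟩
      · exact ⟨_, by simp [inc], h⟩

theorem sum_edges (Λ : Finset Site) (f : Site × Fin 4 → ℝ) :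
    ∑ e ∈ edges Λ, f e = ∑ x ∈ Λ, ∑ d, (f (x, d) + if x - dv d ∈ Λ then 0 else f (x - dv d, d)) := by
  classical
  have h1 : edges Λ = (Λ ×ˢ univ) ∪ ((Λ ×ˢ univ).filter fun e : Site × Fin 4 =>
      e.1 - dv e.2 ∉ Λ).image fun e : Site × Fin 4 => (e.1 - dv e.2, e.2) := by
    ext e
    rw [mem_edges, Finset.mem_union, Finset.mem_image, Finset.mem_product]
    constructor
    · intro h
      by_cases h2 : e.1 ∈ Λ
      · exact Or.inl ⟨h2, Finset.mem_univ _⟩
      · right
        refine ⟨(e.1 + dv e.2, e.2), Finset.mem_filter.mpr ⟨Finset.mem_product.mpr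
          ⟨h.resolve_left h2, Finset.mem_univ _⟩, ?_⟩, by simp⟩
        simpa using h2
    · rintro (h | ⟨f, hf, rfl⟩)
      · exact Or.inl h.1
      · right
        simpa using (Finset.mem_product.mp (Finset.mem_filter.mp hf).1).1
  rw [h1, Finset.sum_union, Finset.sum_image, Finset.sum_filter, Finset.sum_product,
    Finset.sum_product, ← Finset.sum_add_distrib]
  · refine Finset.sum_congr rfl fun x _ => ?_
    rw [← Finset.sum_add_distrib]
    refine Finset.sum_congr rfl fun d _ => ?_
    congr 1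
    by_cases h : x - dv d ∈ Λ <;> simp [h]
  · intro e _ f _ h
    simp only [Prod.mk.injEq] at h
    obtain ⟨ha, hb⟩ := h
    rw [hb] at ha
    exact Prod.ext (sub_left_inj.mp ha) hb
  · rw [Finset.disjoint_left]
    intro e he hf
    obtain ⟨f, hf1, rfl⟩ := Finset.mem_image.mp hf
    exact (Finset.mem_filter.mp hf1).2 (Finset.mem_product.mp he).1

/-- Edges inside `Λ`. -/
def inner (Λ : Finset Site) : Finset (Site × Fin 4) :=
  (Λ ×ˢ univ).filter fun e => e.1 + dv e.2 ∈ Λ

/-- The field at `i` due to the spins outside `Λ`. -/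
noncomputable def fld (J lam : ℝ) (Λ : Finset Site) (b : Spins) (i : Site) : ℝ :=
  ∑ d, cf J lam d * ((if i + dv d ∈ Λ then 0 else b (i + dv d)) +
    (if i - dv d ∈ Λ then 0 else b (i - dv d)))

theorem energy_eq (J lam : ℝ) (Λ : Finset Site) (b : Spins) (S : Finset Site) :
    energy (inter J V3 lam) Λ b S = ∑ e ∈ inner Λ, cf J lam e.2 * chi (inc e) S +
      ∑ i ∈ Λ, fld J lam Λ b i * sp i S := by
  classical
  rw [energy_edges, sum_edges]
  have h1 : ∑ e ∈ inner Λ, cf J lam e.2 * chi (inc e) S =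
      ∑ x ∈ Λ, ∑ d, if x + dv d ∈ Λ then cf J lam d * (sp x S * sp (x + dv d) S) else 0 := by
    unfold inner
    rw [Finset.sum_filter, Finset.sum_product]
    refine Finset.sum_congr rfl fun x _ => Finset.sum_congr rfl fun d _ => ?_
    by_cases h : x + dv d ∈ Λ
    · simp only [h, if_true]
      congr 1
      show ∏ y ∈ ({x, x + dv d} : Finset Site), sp y S = _
      rw [Finset.prod_pair (dv_ne d x)]
    · simp only [h, if_false]
  rw [h1, ← Finset.sum_add_distrib]
  refine Finset.sum_congr rfl fun x hx => ?_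
  unfold fld
  rw [Finset.sum_mul, ← Finset.sum_add_distrib]
  refine Finset.sum_congr rfl fun d _ => ?_
  have e1 : ∀ y ∈ Λ, extend Λ b S y = sp y S := fun y hy => by
    unfold extend sp; rw [if_pos hy]
  have e2 : ∀ y, y ∉ Λ → extend Λ b S y = b y := fun y hy => by
    unfold extend; rw [if_neg hy]
  simp only [e1 x hx, sub_add_cancel]
  by_cases h3 : x + dv d ∈ Λ <;> by_cases h4 : x - dv d ∈ Λ
  · simp only [h3, h4, if_true, e1 _ h3]; ring
  · simp only [h3, h4, if_true, if_false, e1 _ h3, e2 _ h4]; ring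
  · simp only [h3, h4, if_true, if_false, e2 _ h3]; ring
  · simp only [h3, h4, if_false, e2 _ h3, e2 _ h4]; ring

theorem exp_chi (c : ℝ) (A S : Finset Site) :
    Real.exp (c * chi A S) = Real.cosh c * (1 + Real.tanh c * chi A S) := by
  have h : chi A S = 1 ∨ chi A S = -1 := by
    have := chi_mul_self A S
    rcases mul_self_eq_one_iff.mp this with h | h
    · exact Or.inl h
    · exact Or.inr h
  have hc : Real.cosh c ≠ 0 := (Real.cosh_pos c).ne'
  rw [Real.tanh_eq_sinh_div_cosh]
  rcases h with h | h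
  · rw [h]; field_simp; rw [Real.cosh_add_sinh]
  · rw [h]
    have : Real.exp (c * -1) = Real.cosh c - Real.sinh c := by
      rw [Real.cosh_sub_sinh]; ring_nf
    rw [this]; field_simp; ring

/-- Coupling strengths in multiplicative form. -/
noncomputable def tc (β J lam : ℝ) (e : Site × Fin 4) : ℝ := Real.tanh (β * cf J lam e.2)

/-- Fields in multiplicative form. -/
noncomputable def tf (β J lam : ℝ) (Λ : Finset Site) (b : Spins) (i : Site) : ℝ :=
  Real.tanh (β * fld J lam Λ b i)

theorem weight_eq (β J lam : ℝ) (Λ : Finset Site) (b : Spins) : ∃ C : ℝ, 0 < C ∧ ∀ S,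
    Real.exp (β * energy (inter J V3 lam) Λ b S) =
      C * (pairs (inner Λ) inc (tc β J lam) S * ghost Λ (tf β J lam Λ b) S) := by
  refine ⟨(∏ e ∈ inner Λ, Real.cosh (β * cf J lam e.2)) *
    ∏ i ∈ Λ, Real.cosh (β * fld J lam Λ b i), ?_, fun S => ?_⟩
  · exact mul_pos (Finset.prod_pos fun e _ => Real.cosh_pos _)
      (Finset.prod_pos fun e _ => Real.cosh_pos _)
  · rw [energy_eq, mul_add, Real.exp_add, Finset.mul_sum, Finset.mul_sum, Real.exp_sum,
      Real.exp_sum]
    unfold pairs ghost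
    have h1 : ∀ e ∈ inner Λ, Real.exp (β * (cf J lam e.2 * chi (inc e) S)) =
        Real.cosh (β * cf J lam e.2) * (1 + tc β J lam e * chi (inc e) S) := fun e _ => by
      rw [← mul_assoc, exp_chi]; rfl
    have h2 : ∀ i ∈ Λ, Real.exp (β * (fld J lam Λ b i * sp i S)) =
        Real.cosh (β * fld J lam Λ b i) * (1 + tf β J lam Λ b i * sp i S) := fun i _ => by
      rw [← mul_assoc, ← chi_singleton, exp_chi]; rfl
    rw [Finset.prod_congr rfl h1, Finset.prod_congr rfl h2, Finset.prod_mul_distrib,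
      Finset.prod_mul_distrib]
    ring

theorem inner_inc (Λ : Finset Site) : ∀ e ∈ inner Λ, ∃ i ∈ Λ, ∃ j ∈ Λ, i ≠ j ∧ inc e = {i, j} := by
  intro e he
  unfold inner at he
  rw [Finset.mem_filter, Finset.mem_product] at he
  exact ⟨e.1, he.1.1, e.1 + dv e.2, he.2, dv_ne _ _, rfl⟩

end Vale.Agent.IsingUniv
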