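import Mathlib

/-!
Griffiths inequalities for finite ferromagnets, configurations being encoded by the set of minus
spins.
-/

open Finset

namespace Vale.Agent.IsingUniv

variable {α : Type*} [DecidableEq α]

/-- The spin at `i` in the configuration with set of minus spins `S`. -/
def sp (i : α) (S : Finset α) : ℝ := if i ∈ S then -1 else 1

/-- Products of spins. -/
def chi (A S : Finset α) : ℝ := ∏ i ∈ A, sp i S

theorem sp_mul_self (i : α) (S : Finset α) : sp i S * sp i S = 1 := by
  unfold sp; split_ifs <;> norm_num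

theorem sp_le_one (i : α) (S : Finset α) : sp i S ≤ 1 := by
  unfold sp; split_ifs <;> norm_num

theorem neg_one_le_sp (i : α) (S : Finset α) : -1 ≤ sp i S := by
  unfold sp; split_ifs <;> norm_num

theorem sp_symmDiff (i : α) (S T : Finset α) : sp i (symmDiff S T) = sp i S * sp i T := by
  unfold sp
  by_cases h1 : i ∈ S <;> by_cases h2 : i ∈ T <;> simp [Finset.mem_symmDiff, h1, h2]

theorem chi_symmDiff (A S T : Finset α) : chi A (symmDiff S T) = chi A S * chi A T := by
  unfold chi
  rw [← Finset.prod_mul_distrib]
  exact Finset.prod_congr rfl fun i _ => sp_symmDiff i S T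

theorem chi_mul_self (A S : Finset α) : chi A S * chi A S = 1 := by
  unfold chi
  rw [← Finset.prod_mul_distrib]
  exact Finset.prod_eq_one fun i _ => sp_mul_self i S

theorem chi_mul (A B S : Finset α) : chi A S * chi B S = chi (symmDiff A B) S := by
  have h1 : chi A S = chi (A \ B) S * chi (A ∩ B) S := by
    unfold chi
    rw [← Finset.prod_union (Finset.disjoint_sdiff_inter A B), Finset.sdiff_union_inter]
  have h2 : chi B S = chi (B \ A) S * chi (A ∩ B) S := by
    unfold chi
    rw [Finset.inter_comm A B, ← Finset.prod_union (Finset.disjoint_sdiff_inter B A),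
      Finset.sdiff_union_inter]
  have h3 : chi (symmDiff A B) S = chi (A \ B) S * chi (B \ A) S := by
    unfold chi
    rw [← Finset.prod_union]
    · rfl
    · rw [Finset.disjoint_left]
      intro i hi hj
      rw [Finset.mem_sdiff] at hi hj
      exact hi.2 hj.1
  rw [h1, h2, h3]
  have := chi_mul_self (A ∩ B) S
  calc _ = chi (A \ B) S * chi (B \ A) S * (chi (A ∩ B) S * chi (A ∩ B) S) := by ring
    _ = _ := by rw [this, mul_one]

theorem chi_singleton (i : α) (S : Finset α) : chi {i} S = sp i S := by simp [chi]

theorem chi_empty (S : Finset α) : chi ∅ S = 1 := by simp [chi]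

theorem chi_abs_le (A S : Finset α) : chi A S ≤ 1 := by
  have := chi_mul_self A S
  nlinarith [sq_nonneg (chi A S - 1)]

theorem neg_one_le_chi (A S : Finset α) : -1 ≤ chi A S := by
  have := chi_mul_self A S
  nlinarith [sq_nonneg (chi A S + 1)]

/-- Sum over all configurations in `Λ`. -/
noncomputable def tot (Λ : Finset α) (f : Finset α → ℝ) : ℝ := ∑ S ∈ Λ.powerset, f S

theorem tot_shift {Λ T : Finset α} (hT : T ⊆ Λ) (f : Finset α → ℝ) :
    tot Λ (fun S => f (symmDiff S T)) = tot Λ f := by
  unfold tot
  refine Finset.sum_bij' (fun S _ => symmDiff S T) (fun S _ => symmDiff S T) ?_ ?_ ?_ ?_ ?_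
  · intro S hS
    rw [Finset.mem_powerset] at hS ⊢
    exact Finset.symmDiff_subset_union.trans (Finset.union_subset hS hT)
  · intro S hS
    rw [Finset.mem_powerset] at hS ⊢
    exact Finset.symmDiff_subset_union.trans (Finset.union_subset hS hT)
  · intro S _
    exact symmDiff_symmDiff_cancel_right T S
  · intro S _
    exact symmDiff_symmDiff_cancel_right T S
  · intro S _
    rfl

theorem tot_chi_nonneg (Λ A : Finset α) : 0 ≤ tot Λ (chi A) := by
  by_cases h : (A ∩ Λ).Nonempty
  · obtain ⟨i, hi⟩ := h
    rw [Finset.mem_inter] at hi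
    have h1 := tot_shift (Λ := Λ) (T := {i}) (by simpa using hi.2) (chi A)
    have h2 : chi A {i} = -1 := by
      unfold chi
      rw [Finset.prod_eq_single i]
      · simp [sp]
      · intro j _ hj
        simp [sp, hj]
      · intro h; exact absurd hi.1 h
    have h3 : tot Λ (fun S => chi A (symmDiff S {i})) = - tot Λ (chi A) := by
      unfold tot
      rw [← Finset.sum_neg_distrib]
      refine Finset.sum_congr rfl fun S _ => ?_
      show chi A (symmDiff S {i}) = -chi A S
      rw [chi_symmDiff, h2]; ring
    linarith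
  · refine Finset.sum_nonneg fun S hS => ?_
    rw [Finset.mem_powerset] at hS
    unfold chi
    refine Finset.prod_nonneg fun i hi => ?_
    unfold sp
    rw [if_neg]
    · norm_num
    · intro hiS
      exact h ⟨i, Finset.mem_inter.mpr ⟨hi, hS hiS⟩⟩

/-- The cone of functions with nonnegative Fourier coefficients. -/
def Pos (f : Finset α → ℝ) : Prop :=
  f ∈ Submodule.span NNReal (Set.range (chi (α := α)))

theorem Pos.chi (A : Finset α) : Pos (chi A) := Submodule.subset_span ⟨A, rfl⟩

theorem Pos.sp (i : α) : Pos (fun S => sp i S) := by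
  have := Pos.chi ({i} : Finset α)
  have h : (IsingUniv.chi ({i} : Finset α)) = fun S => IsingUniv.sp i S :=
    funext fun S => chi_singleton i S
  rwa [h] at this

theorem Pos.add {f g : Finset α → ℝ} (hf : Pos f) (hg : Pos g) : Pos (fun S => f S + g S) :=
  Submodule.add_mem _ hf hg

theorem Pos.smul {f : Finset α → ℝ} (hf : Pos f) {c : ℝ} (hc : 0 ≤ c) :
    Pos (fun S => c * f S) := by
  have := Submodule.smul_mem (Submodule.span NNReal (Set.range (IsingUniv.chi (α := α))))
    (⟨c, hc⟩ : NNReal) hf
  exact this

theorem Pos.const {c : ℝ} (hc : 0 ≤ c) : Pos (fun _ : Finset α => c) := by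
  have h := (Pos.chi (∅ : Finset α)).smul hc
  have h2 : (fun S : Finset α => c * IsingUniv.chi ∅ S) = fun _ => c := by
    funext S; rw [chi_empty, mul_one]
  rwa [h2] at h

theorem Pos.zero : Pos (fun _ : Finset α => (0 : ℝ)) := Pos.const le_rfl

theorem Pos.one : Pos (fun _ : Finset α => (1 : ℝ)) := Pos.const zero_le_one

theorem Pos.mul_chi {f : Finset α → ℝ} (hf : Pos f) (A : Finset α) :
    Pos (fun S => f S * IsingUniv.chi A S) := by
  refine Submodule.span_induction (p := fun f _ => Pos (fun S => f S * IsingUniv.chi A S))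
    ?_ ?_ ?_ ?_ hf
  · rintro _ ⟨B, rfl⟩
    have : (fun S => IsingUniv.chi B S * IsingUniv.chi A S) = IsingUniv.chi (symmDiff B A) :=
      funext fun S => chi_mul B A S
    rw [this]
    exact Pos.chi _
  · have : (fun S => (0 : Finset α → ℝ) S * IsingUniv.chi A S) = fun _ => (0 : ℝ) := by
      funext S; simp
    rw [this]; exact Pos.zero
  · intro x y _ _ hx hy
    have := hx.add hy
    have h2 : (fun S => (x + y) S * IsingUniv.chi A S) =
      fun S => x S * IsingUniv.chi A S + y S * IsingUniv.chi A S := by
      funext S; simp [add_mul]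
    rwa [h2]
  · intro c x _ hx
    have := hx.smul c.2
    have h2 : (fun S => (c • x) S * IsingUniv.chi A S) =
      fun S => (c : ℝ) * (x S * IsingUniv.chi A S) := by
      funext S
      rw [← mul_assoc]; rfl
    rw [h2]; exact this

theorem Pos.mul {f g : Finset α → ℝ} (hf : Pos f) (hg : Pos g) : Pos (fun S => f S * g S) := by
  refine Submodule.span_induction (p := fun g _ => Pos (fun S => f S * g S))
    ?_ ?_ ?_ ?_ hg
  · rintro _ ⟨B, rfl⟩
    exact hf.mul_chi B
  · have : (fun S => f S * (0 : Finset α → ℝ) S) = fun _ => (0 : ℝ) := by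
      funext S; simp
    rw [this]; exact Pos.zero
  · intro x y _ _ hx hy
    have := hx.add hy
    have h2 : (fun S => f S * (x + y) S) = fun S => f S * x S + f S * y S := by
      funext S; simp [mul_add]
    rwa [h2]
  · intro c x _ hx
    have := hx.smul c.2
    have h2 : (fun S => f S * (c • x) S) = fun S => (c : ℝ) * (f S * x S) := by
      funext S
      rw [mul_left_comm]; rfl
    rw [h2]; exact this

theorem Pos.prod {ι : Type*} (s : Finset ι) (f : ι → Finset α → ℝ) (h : ∀ i ∈ s, Pos (f i)) :
    Pos (fun S => ∏ i ∈ s, f i S) := by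
  classical
  induction s using Finset.induction_on with
  | empty => simpa using Pos.one
  | insert a s ha ih =>
    have h1 := (h a (Finset.mem_insert_self a s)).mul
      (ih fun i hi => h i (Finset.mem_insert_of_mem hi))
    have h2 : (fun S => ∏ i ∈ insert a s, f i S) = fun S => f a S * ∏ i ∈ s, f i S := by
      funext S; rw [Finset.prod_insert ha]
    rw [h2]; exact h1

theorem Pos.sum {ι : Type*} (s : Finset ι) (f : ι → Finset α → ℝ) (h : ∀ i ∈ s, Pos (f i)) :
    Pos (fun S => ∑ i ∈ s, f i S) := by
  classical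
  induction s using Finset.induction_on with
  | empty => simpa using Pos.zero
  | insert a s ha ih =>
    have h1 := (h a (Finset.mem_insert_self a s)).add
      (ih fun i hi => h i (Finset.mem_insert_of_mem hi))
    have h2 : (fun S => ∑ i ∈ insert a s, f i S) = fun S => f a S + ∑ i ∈ s, f i S := by
      funext S; rw [Finset.sum_insert ha]
    rw [h2]; exact h1

/-- First Griffiths inequality. -/
theorem Pos.tot_nonneg {f : Finset α → ℝ} (hf : Pos f) (Λ : Finset α) : 0 ≤ tot Λ f := by
  refine Submodule.span_induction (p := fun f _ => 0 ≤ tot Λ f) ?_ ?_ ?_ ?_ hf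
  · rintro _ ⟨B, rfl⟩
    exact tot_chi_nonneg Λ B
  · simp [tot]
  · intro x y _ _ hx hy
    have : tot Λ (x + y) = tot Λ x + tot Λ y := by
      unfold tot; rw [← Finset.sum_add_distrib]; rfl
    rw [this]; exact add_nonneg hx hy
  · intro c x _ hx
    have : tot Λ (c • x) = (c : ℝ) * tot Λ x := by
      unfold tot; rw [Finset.mul_sum]; rfl
    rw [this]; exact mul_nonneg c.2 hx

theorem Pos.diff {f : Finset α → ℝ} (hf : Pos f) (T : Finset α) :
    Pos (fun S => f S - f (symmDiff S T)) := by
  refine Submodule.span_induction (p := fun f _ => Pos (fun S => f S - f (symmDiff S T)))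
    ?_ ?_ ?_ ?_ hf
  · rintro _ ⟨B, rfl⟩
    have h := (Pos.chi B).smul (c := 1 - IsingUniv.chi B T) (by linarith [chi_abs_le B T])
    have h2 : (fun S => IsingUniv.chi B S - IsingUniv.chi B (symmDiff S T)) =
        fun S => (1 - IsingUniv.chi B T) * IsingUniv.chi B S := by
      funext S; rw [chi_symmDiff]; ring
    rw [h2]; exact h
  · have : (fun S => (0 : Finset α → ℝ) S - (0 : Finset α → ℝ) (symmDiff S T)) =
      fun _ => (0 : ℝ) := by funext S; simp
    rw [this]; exact Pos.zero
  · intro x y _ _ hx hy
    have := hx.add hy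
    have h2 : (fun S => (x + y) S - (x + y) (symmDiff S T)) =
        fun S => (x S - x (symmDiff S T)) + (y S - y (symmDiff S T)) := by
      funext S; simp only [Pi.add_apply]; ring
    rw [h2]; exact this
  · intro c x _ hx
    have := hx.smul c.2
    have h2 : (fun S => (c • x) S - (c • x) (symmDiff S T)) =
        fun S => (c : ℝ) * (x S - x (symmDiff S T)) := by
      funext S
      rw [mul_sub]; rfl
    rw [h2]; exact this

/-- Weights of ferromagnetic type. -/
def Dup (w : Finset α → ℝ) : Prop := ∀ T, Pos (fun S => w S * w (symmDiff S T))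

theorem Dup.one : Dup (fun _ : Finset α => (1 : ℝ)) := fun T => by
  simpa using (Pos.one (α := α))

theorem Dup.mul {v w : Finset α → ℝ} (hv : Dup v) (hw : Dup w) : Dup (fun S => v S * w S) :=
  fun T => by
    have h := (hv T).mul (hw T)
    have h2 : (fun S => v S * w S * (v (symmDiff S T) * w (symmDiff S T))) =
        fun S => v S * v (symmDiff S T) * (w S * w (symmDiff S T)) := by
      funext S; ring
    rw [h2]; exact h

theorem Dup.prod {ι : Type*} (s : Finset ι) (f : ι → Finset α → ℝ) (h : ∀ i ∈ s, Dup (f i)) :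
    Dup (fun S => ∏ i ∈ s, f i S) := by
  classical
  induction s using Finset.induction_on with
  | empty => simpa using Dup.one
  | insert a s ha ih =>
    have h1 := (h a (Finset.mem_insert_self a s)).mul
      (ih fun i hi => h i (Finset.mem_insert_of_mem hi))
    have h2 : (fun S => ∏ i ∈ insert a s, f i S) = fun S => f a S * ∏ i ∈ s, f i S := by
      funext S; rw [Finset.prod_insert ha]
    rw [h2]; exact h1

theorem Dup.factor (A : Finset α) {x : ℝ} (h0 : 0 ≤ x) (h1 : x ≤ 1) :
    Dup (fun S => 1 + x * chi A S) := fun T => by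
  have hT1 := chi_abs_le A T
  have hT2 := neg_one_le_chi A T
  have h := (Pos.const (α := α) (c := 1 + x ^ 2 * chi A T) (by nlinarith [sq_nonneg x])).add
    ((Pos.chi A).smul (c := x * (1 + chi A T)) (by nlinarith))
  have h2 : (fun S => (1 + x * chi A S) * (1 + x * chi A (symmDiff S T))) =
      fun S => (1 + x ^ 2 * chi A T) + x * (1 + chi A T) * chi A S := by
    funext S
    rw [chi_symmDiff]
    have := chi_mul_self A S
    linear_combination (x ^ 2 * chi A T) * this
  rw [h2]; exact h

/-- Second Griffiths inequality. -/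
theorem gks {w F G : Finset α → ℝ} (hw : Dup w) (hF : Pos F) (hG : Pos G) (Λ : Finset α) :
    tot Λ (fun S => F S * w S) * tot Λ (fun S => G S * w S) ≤
      tot Λ (fun S => F S * G S * w S) * tot Λ w := by
  have h1 : tot Λ (fun S => F S * G S * w S) * tot Λ w -
      tot Λ (fun S => F S * w S) * tot Λ (fun S => G S * w S) =
      ∑ T ∈ Λ.powerset, tot Λ (fun S => F S * (G S - G (symmDiff S T)) *
        (w S * w (symmDiff S T))) := by
    have e1 : ∀ S ∈ Λ.powerset, ∀ f : Finset α → ℝ,
        ∑ T ∈ Λ.powerset, f (symmDiff S T) = tot Λ f := by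
      intro S hS f
      rw [← tot_shift (Finset.mem_powerset.mp hS) f]
      unfold tot
      exact Finset.sum_congr rfl fun T _ => by rw [symmDiff_comm]
    have e2 : ∑ T ∈ Λ.powerset, tot Λ (fun S => F S * (G S - G (symmDiff S T)) *
        (w S * w (symmDiff S T))) = ∑ S ∈ Λ.powerset, ∑ T ∈ Λ.powerset,
          F S * (G S - G (symmDiff S T)) * (w S * w (symmDiff S T)) := by
      unfold tot
      exact Finset.sum_comm
    rw [e2]
    have e3 : ∀ S ∈ Λ.powerset, ∑ T ∈ Λ.powerset,
          F S * (G S - G (symmDiff S T)) * (w S * w (symmDiff S T)) =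
          F S * G S * w S * tot Λ w - F S * w S * tot Λ (fun S => G S * w S) := by
      intro S hS
      rw [← e1 S hS w, ← e1 S hS (fun S => G S * w S), Finset.mul_sum, Finset.mul_sum,
        ← Finset.sum_sub_distrib]
      exact Finset.sum_congr rfl fun T _ => by ring
    rw [Finset.sum_congr rfl e3, Finset.sum_sub_distrib, ← Finset.sum_mul, ← Finset.sum_mul]
    rfl
  have h2 : 0 ≤ ∑ T ∈ Λ.powerset, tot Λ (fun S => F S * (G S - G (symmDiff S T)) *
        (w S * w (symmDiff S T))) :=
    Finset.sum_nonneg fun T _ => ((hF.mul (hG.diff T)).mul (hw T)).tot_nonneg Λ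
  linarith

end Vale.Agent.IsingUniv
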