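import Vale.Agent.IsingUniv.Ghost

/-!
The ray inequality `s * u (t) ≤ u (s * t)` and its combination with monotonicity.
-/

open Finset

namespace Vale.Agent.IsingUniv

variable {α : Type*} [DecidableEq α] {ε : Type*} [DecidableEq ε]

theorem pairs_ghost (E : Finset ε) (inc : ε → Finset α) (x : ε → ℝ) (Λ : Finset α) (t : α → ℝ)
    (S : Finset α) :
    pairs E inc x S * ghost Λ t S = ∏ e ∈ E.disjSum Λ,
      (1 + Sum.elim x t e * chi (Sum.elim inc (fun i => ({i} : Finset α)) e) S) := by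
  rw [Finset.prod_disjSum]
  unfold pairs ghost
  congr 1
  refine Finset.prod_congr rfl fun i _ => ?_
  simp [chi_singleton]

/-- Normalized sums as sums over subgraphs. -/
theorem tot_pg (E : Finset ε) (inc : ε → Finset α) (x : ε → ℝ) (Λ : Finset α) (t : α → ℝ)
    (hinc : ∀ e ∈ E, ∃ i ∈ Λ, ∃ j ∈ Λ, i ≠ j ∧ inc e = {i, j}) (C : Finset α) (hC : C ⊆ Λ) :
    tot Λ (fun S => chi C S * (pairs E inc x S * ghost Λ t S)) =
      (2 : ℝ) ^ Λ.card * ∑ A ∈ (E.disjSum Λ).powerset with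
        (∀ i ∈ Λ, bd (Sum.elim inc (fun i => ({i} : Finset α))) A i =
          (if i ∈ C then 1 else 0)), ∏ e ∈ A, Sum.elim x t e := by
  rw [← tot_expand _ Λ _ C _ hC]
  · exact tot_congr fun S _ => by rw [pairs_ghost]
  · intro e he
    rw [Finset.mem_disjSum] at he
    rcases he with ⟨f, hf, rfl⟩ | ⟨i, hi, rfl⟩
    · obtain ⟨i, hi, j, hj, -, h⟩ := hinc f hf
      show inc f ⊆ Λ
      rw [h]
      intro k hk
      rw [Finset.mem_insert, Finset.mem_singleton] at hk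
      rcases hk with rfl | rfl
      · exact hi
      · exact hj
    · show ({i} : Finset α) ⊆ Λ
      rwa [Finset.singleton_subset_iff]

theorem tot_pg_pos (E : Finset ε) (inc : ε → Finset α) (x : ε → ℝ) (Λ : Finset α) (t : α → ℝ)
    (hinc : ∀ e ∈ E, ∃ i ∈ Λ, ∃ j ∈ Λ, i ≠ j ∧ inc e = {i, j})
    (hx : ∀ e ∈ E, 0 ≤ x e) (ht : ∀ i ∈ Λ, 0 ≤ t i) :
    0 < tot Λ (fun S => pairs E inc x S * ghost Λ t S) := by
  have h := tot_pg E inc x Λ t hinc ∅ (Finset.empty_subset _)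
  simp only [chi_empty, one_mul] at h
  rw [h]
  refine mul_pos (by positivity) ?_
  refine lt_of_lt_of_le zero_lt_one ?_
  refine le_trans (le_of_eq ?_) (Finset.single_le_sum (f := fun A => ∏ e ∈ A, Sum.elim x t e)
    (fun A hA => Finset.prod_nonneg fun e he => ?_) (Finset.mem_filter.mpr
      ⟨Finset.empty_mem_powerset _, fun i _ => ?_⟩))
  · simp
  · have := Finset.mem_powerset.mp (Finset.mem_filter.mp hA).1 he
    rw [Finset.mem_disjSum] at this
    rcases this with ⟨f, hf, rfl⟩ | ⟨i, hi, rfl⟩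
    · exact hx f hf
    · exact ht i hi
  · rw [if_neg (Finset.notMem_empty _)]; rfl

theorem ray (E : Finset ε) (inc : ε → Finset α) (x : ε → ℝ) (Λ : Finset α) (t : α → ℝ)
    (hinc : ∀ e ∈ E, ∃ i ∈ Λ, ∃ j ∈ Λ, i ≠ j ∧ inc e = {i, j})
    (hx : ∀ e ∈ E, 0 ≤ x e) (ht : ∀ i ∈ Λ, 0 ≤ t i) (o : α) (ho : o ∈ Λ)
    (s : ℝ) (hs0 : 0 ≤ s) (hs1 : s ≤ 1) :
    s * tot Λ (fun S => sp o S * (pairs E inc x S * ghost Λ t S)) *
        tot Λ (fun S => pairs E inc x S * ghost Λ (fun i => s * t i) S) ≤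
      tot Λ (fun S => sp o S * (pairs E inc x S * ghost Λ (fun i => s * t i) S)) *
        tot Λ (fun S => pairs E inc x S * ghost Λ t S) := by
  classical
  have ho' : ({o} : Finset α) ⊆ Λ := by rwa [Finset.singleton_subset_iff]
  have h1 := tot_pg E inc x Λ t hinc {o} ho'
  have h2 := tot_pg E inc x Λ t hinc ∅ (Finset.empty_subset _)
  have h3 := tot_pg E inc x Λ (fun i => s * t i) hinc {o} ho'
  have h4 := tot_pg E inc x Λ (fun i => s * t i) hinc ∅ (Finset.empty_subset _)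
  simp only [chi_empty, one_mul, chi_singleton, Finset.mem_singleton, Finset.notMem_empty,
    if_false] at h1 h2 h3 h4
  have hΓ : ∀ A ∈ (E.disjSum Λ).powerset, ∏ e ∈ A, Sum.elim x (fun i => s * t i) e =
      s ^ (A ∩ (∅ : Finset ε).disjSum Λ).card * ∏ e ∈ A, Sum.elim x t e := by
    intro A hA
    rw [Finset.mem_powerset] at hA
    have : s ^ (A ∩ (∅ : Finset ε).disjSum Λ).card =
        ∏ e ∈ A, if e ∈ (∅ : Finset ε).disjSum Λ then s else 1 := by
      rw [Finset.prod_ite_mem, Finset.prod_const]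
    rw [this, ← Finset.prod_mul_distrib]
    refine Finset.prod_congr rfl fun e he => ?_
    have := hA he
    rw [Finset.mem_disjSum] at this
    rcases this with ⟨f, hf, rfl⟩ | ⟨i, hi, rfl⟩
    · simp
    · simp [hi]
  have h5 := ray_comb (Sum.elim inc (fun i => ({i} : Finset α))) Λ (E.disjSum Λ)
    ((∅ : Finset ε).disjSum Λ) o ho ?_ ?_ (Sum.elim x t) ?_ s hs0 hs1
  · rw [h1, h2, h3, h4]
    rw [Finset.sum_congr rfl fun A hA => hΓ A (Finset.mem_filter.mp hA).1,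
      Finset.sum_congr rfl fun A hA => hΓ A (Finset.mem_filter.mp hA).1]
    have h6 : (0 : ℝ) ≤ (2 : ℝ) ^ Λ.card * (2 : ℝ) ^ Λ.card := by positivity
    have h7 := mul_le_mul_of_nonneg_left h5 h6
    calc _ = (2 : ℝ) ^ Λ.card * (2 : ℝ) ^ Λ.card * _ := by ring
      _ ≤ _ := h7
      _ = _ := by ring
  · intro e he heΓ
    rw [Finset.mem_disjSum] at heΓ
    rcases heΓ with ⟨f, hf, rfl⟩ | ⟨i, hi, rfl⟩
    · exact absurd hf (Finset.notMem_empty f)
    · exact ⟨i, hi, rfl⟩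
  · intro e he heΓ
    rw [Finset.mem_disjSum] at he
    rcases he with ⟨f, hf, rfl⟩ | ⟨i, hi, rfl⟩
    · exact hinc f hf
    · exact absurd (Finset.mem_disjSum.mpr (Or.inr ⟨i, hi, rfl⟩)) heΓ
  · intro e he
    rw [Finset.mem_disjSum] at he
    rcases he with ⟨f, hf, rfl⟩ | ⟨i, hi, rfl⟩
    · exact hx f hf
    · exact ht i hi

/-- Fields bounded below by `s` times other fields lose at most a factor `s`. -/
theorem ray_mono (E : Finset ε) (inc : ε → Finset α) (x : ε → ℝ) (Λ : Finset α) (t t' : α → ℝ)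
    (hinc : ∀ e ∈ E, ∃ i ∈ Λ, ∃ j ∈ Λ, i ≠ j ∧ inc e = {i, j})
    (hx : ∀ e ∈ E, 0 ≤ x e) (hx1 : ∀ e ∈ E, x e ≤ 1) (ht' : ∀ i ∈ Λ, 0 ≤ t' i)
    (ht1 : ∀ i ∈ Λ, t i ≤ 1) (o : α) (ho : o ∈ Λ)
    (s : ℝ) (hs0 : 0 ≤ s) (hs1 : s ≤ 1) (hst : ∀ i ∈ Λ, s * t' i ≤ t i) :
    s * tot Λ (fun S => sp o S * (pairs E inc x S * ghost Λ t' S)) *
        tot Λ (fun S => pairs E inc x S * ghost Λ t S) ≤
      tot Λ (fun S => sp o S * (pairs E inc x S * ghost Λ t S)) *
        tot Λ (fun S => pairs E inc x S * ghost Λ t' S) := by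
  have h1 := ray E inc x Λ t' hinc hx ht' o ho s hs0 hs1
  have hd : Dup (pairs E inc x) := pairs_dup hx hx1
  have h2 := ghost_mono (Λ := Λ) hd (Pos.sp o)
    (t := fun i => s * t' i) (fun i hi => mul_nonneg hs0 (ht' i hi)) hst ht1
  have h3 := tot_pg_pos E inc x Λ (fun i => s * t' i) hinc hx
    (fun i hi => mul_nonneg hs0 (ht' i hi))
  have h4 := tot_pg_pos E inc x Λ t' hinc hx ht'
  have h5 := tot_pg_pos E inc x Λ t hinc hx
    (fun i hi => (mul_nonneg hs0 (ht' i hi)).trans (hst i hi))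
  set a := tot Λ (fun S => sp o S * (pairs E inc x S * ghost Λ t' S))
  set b := tot Λ (fun S => sp o S * (pairs E inc x S * ghost Λ t S))
  set c := tot Λ (fun S => sp o S * (pairs E inc x S * ghost Λ (fun i => s * t' i) S))
  set za := tot Λ (fun S => pairs E inc x S * ghost Λ t' S)
  set zb := tot Λ (fun S => pairs E inc x S * ghost Λ t S)
  set zc := tot Λ (fun S => pairs E inc x S * ghost Λ (fun i => s * t' i) S)
  refine le_of_mul_le_mul_right ?_ h3
  calc s * a * zb * zc = (s * a * zc) * zb := by ring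
    _ ≤ (c * za) * zb := mul_le_mul_of_nonneg_right h1 h5.le
    _ = (c * zb) * za := by ring
    _ ≤ (b * zc) * za := mul_le_mul_of_nonneg_right h2 h4.le
    _ = b * za * zc := by ring

end Vale.Agent.IsingUniv
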