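import Vale.Agent.IsingUniv.Defs

/-!
The question, for boundary conditions all of whose nearest-neighbour critical correlations
converge, and the diamond with one alternating side.
-/

namespace Vale.Agent.IsingUniv

/-- The data asked for, for given `J`, `V` and `lam`: an inverse temperature, two nonzero
constants, a choice of the plane states, the stated limits in the plane, and the stated limits in
every bounded domain `D` with free or fixed boundary condition `b` for which the limits of the
critical nearest-neighbour correlations exist. -/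
def HasData (J : ℝ) (V : Finset Site → ℝ) (lam : ℝ) : Prop :=
  ∃ β Zσ Zε : ℝ, 0 < β ∧ Zσ ≠ 0 ∧ Zε ≠ 0 ∧
    (∃ E₀ E : ℝ → (Spins → ℝ) → ℝ,
      (∀ a, IsPlaneState (Kc / J) (inter J V 0) (E₀ a)) ∧
      (∀ a, IsPlaneState β (inter J V lam) (E a)) ∧ Transfers Set.univ E₀ E Zσ Zε) ∧
    ∀ D : Set ℂ, IsOpen D → IsConnected D → Bornology.IsBounded D →
      ∀ b : ℝ → Spins, ((∀ a, IsFree (b a)) ∨ ∀ a, IsFixed (b a)) →
        HasLimits D (fun a => gibbs (Kc / J) (inter J V 0) (sites D a) (b a)) →
        Transfers D (fun a => gibbs (Kc / J) (inter J V 0) (sites D a) (b a))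
          (fun a => gibbs β (inter J V lam) (sites D a) (b a)) Zσ Zε

/-- The question: such data exist for all `J`, `V` and all sufficiently small `lam`. -/
def Question : Prop :=
  ∀ J > 0, ∀ V, IsPotential V → ∃ r > 0, ∀ lam, |lam| < r → HasData J V lam

/-- The open diamond `|Re z| + |Im z| < 1`. -/
def diamond : Set ℂ := {z | |z.re| + |z.im| < 1}

/-- Plus spins, except that the spins adjacent to the north-east side of the lattice diamond
alternate: each site of that side has one plus and one minus neighbour outside. -/
noncomputable def side (a : ℝ) : Spins := fun x =>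
  if 0 < x.1 ∧ 0 < x.2 ∧ x.1 + x.2 = ⌈1 / a⌉ ∧ x.2 % 2 = 0 then -1 else 1

end Vale.Agent.IsingUniv
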