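import Vale.Agent.IsingUniv.Chain
import Vale.Agent.IsingUniv.Uniform

/-!
Sites of the diamond and of the square, scaling of the interaction, one-point functions.
-/

open Finset Filter Topology

namespace Vale.Agent.IsingUniv

theorem abs_mem_square {z : ℂ} (h : z ∈ diamond) : z ∈ square := by
  have h1 : |z.re| + |z.im| < 1 := h
  exact ⟨by linarith [abs_nonneg z.im], by linarith [abs_nonneg z.re]⟩

theorem sites_finite {D : Set ℂ} (hD : ∀ z ∈ D, |z.re| < 1 ∧ |z.im| < 1) {a : ℝ} (ha : 0 < a) :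
    {x : Site | (⟨a * x.1, a * x.2⟩ : ℂ) ∈ D}.Finite := by
  refine (Set.finite_Icc ((-⌈1 / a⌉, -⌈1 / a⌉) : Site) (⌈1 / a⌉, ⌈1 / a⌉)).subset fun x hx => ?_
  obtain ⟨h1, h2⟩ := hD _ hx
  have key : ∀ k : ℤ, |a * (k : ℝ)| < 1 → -⌈1 / a⌉ ≤ k ∧ k ≤ ⌈1 / a⌉ := by
    intro k hk
    have h3 : |(k : ℝ)| < 1 / a := by
      rw [lt_div_iff₀ ha]
      rwa [abs_mul, abs_of_pos ha, mul_comm] at hk
    have h4 : |(k : ℝ)| ≤ (⌈1 / a⌉ : ℝ) := h3.le.trans (Int.le_ceil _)
    rw [abs_le] at h4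
    exact ⟨by exact_mod_cast h4.1, by exact_mod_cast h4.2⟩
  exact ⟨⟨(key _ h1).1, (key _ h2).1⟩, ⟨(key _ h1).2, (key _ h2).2⟩⟩

theorem mem_sites {D : Set ℂ} (hD : ∀ z ∈ D, |z.re| < 1 ∧ |z.im| < 1) {a : ℝ} (ha : 0 < a)
    {x : Site} : x ∈ sites D a ↔ (⟨a * x.1, a * x.2⟩ : ℂ) ∈ D := by
  unfold sites
  rw [dif_pos (sites_finite hD ha), Set.Finite.mem_toFinset]
  exact Iff.rfl

theorem sites_diamond {a : ℝ} (ha : 0 < a) : sites diamond a = dia (⌈1 / a⌉ - 1) := by
  ext x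
  rw [mem_sites (fun z hz => abs_mem_square hz) ha, mem_dia]
  show |a * (x.1 : ℝ)| + |a * (x.2 : ℝ)| < 1 ↔ _
  rw [abs_mul, abs_mul, abs_of_pos ha, ← mul_add, Int.le_sub_one_iff, Int.lt_ceil,
    lt_div_iff₀ ha, mul_comm]
  push_cast
  rfl

theorem dia_square {a : ℝ} (ha : 0 < a) : dia (⌈1 / a⌉ - 1 - 2) ⊆ sites square a := by
  intro x hx
  have h1 : x ∈ dia (⌈1 / a⌉ - 1) := dia_mono (by omega) hx
  rw [← sites_diamond ha, mem_sites (fun z hz => abs_mem_square hz) ha] at h1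
  rw [mem_sites (D := square) (fun z hz => hz) ha]
  exact abs_mem_square h1

theorem near_mem {x : ℂ} (hx : x ∈ diamond) :
    ∀ᶠ a : ℝ in 𝓝[>] 0, 0 < a ∧ 2 ≤ ⌈1 / a⌉ - 1 ∧ near a x ∈ dia (⌈1 / a⌉ - 1 - 2) := by
  have hx' : |x.re| + |x.im| < 1 := hx
  have h1 : Tendsto (fun a : ℝ => (1 - |x.re| - |x.im|) / a) (𝓝[>] 0) atTop := by
    have := tendsto_inv_nhdsGT_zero (𝕜 := ℝ)
    simp only [div_eq_mul_inv]
    exact this.const_mul_atTop (by linarith)
  filter_upwards [h1.eventually_ge_atTop 6, self_mem_nhdsWithin] with a h2 ha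
  have ha : 0 < a := ha
  have h3 : (1 / a : ℝ) ≤ ⌈1 / a⌉ := Int.le_ceil _
  have h4 : (1 - |x.re| - |x.im|) / a = 1 / a - |x.re| / a - |x.im| / a := by ring
  have h5 : 0 ≤ |x.re| / a := div_nonneg (abs_nonneg _) ha.le
  have h6 : 0 ≤ |x.im| / a := div_nonneg (abs_nonneg _) ha.le
  have h7 : (6 : ℝ) ≤ ⌈1 / a⌉ := by linarith
  have h8 : (6 : ℤ) ≤ ⌈1 / a⌉ := by exact_mod_cast h7
  refine ⟨ha, by omega, ?_⟩
  rw [mem_dia]
  have key : ∀ t : ℝ, (|⌊t / a⌋| : ℝ) ≤ |t| / a + 1 := by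
    intro t
    have k1 := Int.floor_le (t / a)
    have k2 := Int.lt_floor_add_one (t / a)
    have k3 : |t / a| = |t| / a := by rw [abs_div, abs_of_pos ha]
    have k4 := neg_abs_le (t / a)
    have k5 := le_abs_self (t / a)
    rw [k3] at k4 k5
    rw [abs_le]
    constructor <;> linarith
  have h9 := key x.re
  have h10 := key x.im
  have h11 : ((|(near a x).1| + |(near a x).2| : ℤ) : ℝ) ≤ ((⌈1 / a⌉ - 1 - 2 : ℤ) : ℝ) := by
    push_cast
    show |(⌊x.re / a⌋ : ℝ)| + |(⌊x.im / a⌋ : ℝ)| ≤ _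
    linarith
  exact_mod_cast h11

theorem inter_zero (J : ℝ) (V V' : Finset Site → ℝ) : inter J V 0 = inter J V' 0 := by
  funext A
  unfold inter
  rw [zero_mul, zero_mul]

theorem energy_scale (J : ℝ) (Λ : Finset Site) (b : Spins) (S : Finset Site) :
    energy (inter J V3 0) Λ b S = J * energy (inter 1 (fun _ => 0) 0) Λ b S := by
  rw [inter_zero 1 (fun _ => 0) V3, energy_edges, energy_edges, Finset.mul_sum]
  refine Finset.sum_congr rfl fun e _ => ?_
  have h : ∀ d : Fin 4, cf J 0 d = J * cf 1 0 d := by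
    intro d
    fin_cases d <;> simp [cf]
  rw [h, mul_assoc]

theorem gibbs_scale {J : ℝ} (hJ : J ≠ 0) (Λ : Finset Site) (b : Spins) (F : Spins → ℝ) :
    gibbs (Kc / J) (inter J V3 0) Λ b F = gibbs Kc (inter 1 (fun _ => 0) 0) Λ b F := by
  unfold gibbs
  have : ∀ S, Kc / J * energy (inter J V3 0) Λ b S =
      Kc * energy (inter 1 (fun _ => 0) 0) Λ b S := fun S => by
    rw [energy_scale]; field_simp
  simp only [this]

theorem corr_scale {J : ℝ} (hJ : J ≠ 0) (Λ : Finset Site) (b : Spins) :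
    gibbs (Kc / J) (inter J V3 0) Λ b = gibbs Kc (inter 1 (fun _ => 0) 0) Λ b := by
  funext F; exact gibbs_scale hJ Λ b F

theorem corr_one (β : ℝ) (W : Finset Site → ℝ) (Λ : Finset Site) (b : Spins) (a : ℝ)
    (x : Fin 1 → ℂ) (y : Fin 0 → ℂ) (j : Fin 0 → Bool) :
    corr (gibbs β W Λ b) a x y j =
      a ^ (-(1 / 8) : ℝ) * gibbs β W Λ b (fun σ => σ (near a (x 0))) := by
  unfold corr
  simp only [Finset.univ_unique, Fin.default_eq_zero, Finset.prod_singleton,
    Finset.univ_eq_empty, Finset.prod_empty, mul_one]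
  unfold gibbs
  rw [← mul_div_assoc, Finset.mul_sum]
  congr 1
  exact Finset.sum_congr rfl fun S _ => by ring

theorem mag_nonneg {β J lam : ℝ} (hβ : 0 ≤ β) (hJ : 0 ≤ J) (hl : 0 ≤ lam) {Λ : Finset Site}
    {b : Spins} {o : Site} (ho : o ∈ Λ) (hf : ∀ i ∈ Λ, 0 ≤ fld J lam Λ b i) :
    0 ≤ mag β J lam Λ b o := by
  rw [mag_eq_mt β J lam Λ b ho]
  exact mt_nonneg hβ hJ hl (fun i hi => tf_nonneg hβ (hf i hi)) o

/-! ### The potential -/

theorem image_pair (f : Site → Site) (x y : Site) :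
    ({x, y} : Finset Site).image f = {f x, f y} := by
  rw [Finset.image_insert, Finset.image_singleton]

theorem V3_congr {f g : Site → Site} (hgf : ∀ x, g (f x) = x) {A : Finset Site}
    (hf : ∀ A : Finset Site, (∃ x, A = {x, x + (3, 0)} ∨ A = {x, x + (0, 3)}) →
      ∃ x, A.image f = {x, x + (3, 0)} ∨ A.image f = {x, x + (0, 3)})
    (hg : ∀ A : Finset Site, (∃ x, A = {x, x + (3, 0)} ∨ A = {x, x + (0, 3)}) →
      ∃ x, A.image g = {x, x + (3, 0)} ∨ A.image g = {x, x + (0, 3)}) :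
    V3 (A.image f) = V3 A := by
  have h : (∃ x : Site, A.image f = {x, x + (3, 0)} ∨ A.image f = {x, x + (0, 3)}) ↔
      ∃ x : Site, A = {x, x + (3, 0)} ∨ A = {x, x + (0, 3)} := by
    constructor
    · intro h
      have := hg _ h
      rw [Finset.image_image] at this
      have h2 : g ∘ f = id := funext hgf
      rwa [h2, Finset.image_id] at this
    · exact hf A
  unfold V3
  by_cases h1 : ∃ x : Site, A = {x, x + (3, 0)} ∨ A = {x, x + (0, 3)}
  · rw [if_pos h1, if_pos (h.mpr h1)]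
  · rw [if_neg h1, if_neg fun h2 => h1 (h.mp h2)]

theorem isPotential_V3 : IsPotential V3 where
  even := by
    intro A hA
    unfold V3 at hA
    split_ifs at hA with h
    · obtain ⟨x, rfl | rfl⟩ := h
      · refine ⟨⟨x, by simp⟩, ?_⟩
        have h2 := Finset.card_pair (dv_ne 2 x)
        exact (congrArg Even h2).mpr even_two
      · refine ⟨⟨x, by simp⟩, ?_⟩
        have h2 := Finset.card_pair (dv_ne 3 x)
        exact (congrArg Even h2).mpr even_two
    · exact absurd rfl hA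
  range := by
    refine ⟨3, fun A hA => ?_⟩
    unfold V3 at hA
    split_ifs at hA with h
    · obtain ⟨x, rfl | rfl⟩ := h
      · intro y hy z hz
        simp only [Finset.mem_insert, Finset.mem_singleton] at hy hz
        rcases hy with rfl | rfl <;> rcases hz with rfl | rfl <;> simp
      · intro y hy z hz
        simp only [Finset.mem_insert, Finset.mem_singleton] at hy hz
        rcases hy with rfl | rfl <;> rcases hz with rfl | rfl <;> simp
    · exact absurd rfl hA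
  shift := by
    intro A v
    have key : ∀ (v : Site) (A : Finset Site),
        (∃ x, A = {x, x + (3, 0)} ∨ A = {x, x + (0, 3)}) →
        ∃ x, A.image (fun x => x + v) = {x, x + (3, 0)} ∨
          A.image (fun x => x + v) = {x, x + (0, 3)} := by
      rintro v A ⟨x, rfl | rfl⟩
      · exact ⟨x + v, Or.inl (by rw [image_pair, add_right_comm])⟩
      · exact ⟨x + v, Or.inr (by rw [image_pair, add_right_comm])⟩
    exact V3_congr (f := fun x => x + v) (g := fun x => x + -v)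
      (fun x => by simp) (key v) (key (-v))
  rotate := by
    intro A
    have e1 : ∀ x : Site, ((-(x + (3, 0)).2, (x + (3, 0)).1) : Site) = (-x.2, x.1) + (0, 3) := by
      intro x; simp
    have e2 : ∀ x : Site, ((-x.2, x.1) : Site) =
        (-(x + (0, 3)).2, (x + (0, 3)).1) + (3, 0) := by
      intro x; simp
    have e3 : ∀ x : Site, (((x + (0, 3)).2, -(x + (0, 3)).1) : Site) = (x.2, -x.1) + (3, 0) := by
      intro x; simp
    have e4 : ∀ x : Site, ((x.2, -x.1) : Site) =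
        ((x + (3, 0)).2, -(x + (3, 0)).1) + (0, 3) := by
      intro x; simp
    refine V3_congr (f := fun x => (-x.2, x.1)) (g := fun x => (x.2, -x.1))
      (fun x => by simp) ?_ ?_
    · rintro A ⟨x, rfl | rfl⟩
      · exact ⟨(-x.2, x.1), Or.inr (by rw [image_pair, e1])⟩
      · exact ⟨(-(x + (0, 3)).2, (x + (0, 3)).1), Or.inl (by
          rw [image_pair, ← e2, Finset.pair_comm])⟩
    · rintro A ⟨x, rfl | rfl⟩
      · exact ⟨((x + (3, 0)).2, -(x + (3, 0)).1), Or.inr (by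
          rw [image_pair, ← e4, Finset.pair_comm])⟩
      · exact ⟨(x.2, -x.1), Or.inl (by rw [image_pair, e3])⟩
  reflect := by
    intro A
    have e1 : ∀ x : Site, (((x + (3, 0)).1, -(x + (3, 0)).2) : Site) = (x.1, -x.2) + (3, 0) := by
      intro x; simp
    have e2 : ∀ x : Site, ((x.1, -x.2) : Site) =
        ((x + (0, 3)).1, -(x + (0, 3)).2) + (0, 3) := by
      intro x; simp
    have key : ∀ A : Finset Site, (∃ x, A = {x, x + (3, 0)} ∨ A = {x, x + (0, 3)}) →
        ∃ x, A.image (fun x => (x.1, -x.2)) = {x, x + (3, 0)} ∨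
          A.image (fun x => (x.1, -x.2)) = {x, x + (0, 3)} := by
      rintro A ⟨x, rfl | rfl⟩
      · exact ⟨(x.1, -x.2), Or.inl (by rw [image_pair, e1])⟩
      · exact ⟨((x + (0, 3)).1, -(x + (0, 3)).2), Or.inr (by
          rw [image_pair, ← e2, Finset.pair_comm])⟩
    exact V3_congr (f := fun x => (x.1, -x.2)) (g := fun x => (x.1, -x.2))
      (fun x => by simp) key key

end Vale.Agent.IsingUniv
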